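import Mathlib

/-!
P034F, accounting piece: the local potential Q(S) = max_V v^(1+c) |V|^(-c),
where v is the minimum of |Y ∩ V| over the members Y of S.
-/

namespace P034F

open Finset

set_option linter.unusedSectionVars false

section pot

variable {X : Type*} [Fintype X] [DecidableEq X]

/-- minimum of `|Y ∩ V|` over `Y ∈ S` (zero if `S` is empty) -/
noncomputable def vmin (S : Finset (Finset X)) (V : Finset X) : ℕ :=
  if h : S.Nonempty then S.inf' h (fun Y => (Y ∩ V).card) else 0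

/-- the potential -/
noncomputable def QQ (c : ℝ) (S : Finset (Finset X)) : ℝ :=
  (univ : Finset (Finset X)).sup' ⟨∅, mem_univ _⟩
    (fun V => (vmin S V : ℝ) ^ (1 + c) * (V.card : ℝ) ^ (-c))

theorem vmin_le {S : Finset (Finset X)} {Y : Finset X} (hY : Y ∈ S) (V : Finset X) :
    vmin S V ≤ (Y ∩ V).card := by
  unfold vmin
  rw [dif_pos ⟨Y, hY⟩]
  exact Finset.inf'_le _ hY

theorem le_vmin {S : Finset (Finset X)} (hS : S.Nonempty) {V : Finset X} {n : ℕ}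
    (h : ∀ Y ∈ S, n ≤ (Y ∩ V).card) : n ≤ vmin S V := by
  unfold vmin
  rw [dif_pos hS]
  exact Finset.le_inf' _ _ h

theorem le_vmin_real {S : Finset (Finset X)} (hS : S.Nonempty) {V : Finset X} {y : ℝ}
    (h : ∀ Y ∈ S, y ≤ ((Y ∩ V).card : ℝ)) : y ≤ (vmin S V : ℝ) := by
  unfold vmin
  rw [dif_pos hS]
  obtain ⟨Y, hY, he⟩ := Finset.exists_mem_eq_inf' hS (fun Y : Finset X => (Y ∩ V).card)
  rw [he]
  exact h Y hY

theorem term_le_QQ (c : ℝ) (S : Finset (Finset X)) (V : Finset X) :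
    (vmin S V : ℝ) ^ (1 + c) * (V.card : ℝ) ^ (-c) ≤ QQ c S :=
  Finset.le_sup' (fun V : Finset X => (vmin S V : ℝ) ^ (1 + c) * (V.card : ℝ) ^ (-c)) (mem_univ V)

theorem QQ_nonneg (c : ℝ) (S : Finset (Finset X)) : 0 ≤ QQ c S :=
  le_trans (by positivity) (term_le_QQ c S ∅)

theorem vmin_le_card {S : Finset (Finset X)} (hS : S.Nonempty) (V : Finset X) :
    vmin S V ≤ V.card := by
  obtain ⟨Y, hY⟩ := hS
  exact (vmin_le hY V).trans (card_le_card inter_subset_right)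

theorem ratio_le_one {v n c : ℝ} (hv : 0 ≤ v) (hvn : v ≤ n) (hc : 0 ≤ c) :
    v ^ c * n ^ (-c) ≤ 1 := by
  rcases eq_or_lt_of_le (hv.trans hvn) with h | h
  · have h0 : v = 0 := le_antisymm (h ▸ hvn) hv
    subst h0
    rw [← h]
    rcases eq_or_ne c 0 with rfl | hc0
    · simp
    · rw [Real.zero_rpow hc0]; simp
  · rw [Real.rpow_neg h.le]
    have := Real.rpow_le_rpow hv hvn hc
    have hp : 0 < n ^ c := Real.rpow_pos_of_pos h c
    calc v ^ c * (n ^ c)⁻¹ ≤ n ^ c * (n ^ c)⁻¹ := by gcongr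
      _ = 1 := mul_inv_cancel₀ hp.ne'

theorem rpow_one_add' {v c : ℝ} (hv : 0 ≤ v) (hc : 0 ≤ c) : v ^ (1 + c) = v * v ^ c := by
  rw [Real.rpow_add_of_nonneg hv zero_le_one hc, Real.rpow_one]

theorem term_le {v n c : ℝ} (hv : 0 ≤ v) (hvn : v ≤ n) (hc : 0 ≤ c) :
    v ^ (1 + c) * n ^ (-c) ≤ v := by
  rw [rpow_one_add' hv hc, mul_assoc]
  exact mul_le_of_le_one_right hv (ratio_le_one hv hvn hc)

theorem QQ_le {c : ℝ} (hc : 0 ≤ c) {S : Finset (Finset X)} (hS : S.Nonempty) {u : ℕ}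
    (hu : ∀ Y ∈ S, Y.card = u) : QQ c S ≤ u := by
  apply Finset.sup'_le
  intro V _
  refine (term_le (Nat.cast_nonneg _) (by exact_mod_cast vmin_le_card hS V) hc).trans ?_
  obtain ⟨Y, hY⟩ := hS
  have h1 := vmin_le hY V
  have h2 : (Y ∩ V).card ≤ Y.card := card_le_card inter_subset_left
  rw [hu Y hY] at h2
  exact_mod_cast h1.trans h2

theorem le_QQ {c : ℝ} (hc : 0 ≤ c) {S : Finset (Finset X)} (hS : S.Nonempty) {V : Finset X}
    {y : ℝ} (hy : 0 ≤ y) (h : ∀ Y ∈ S, y ≤ ((Y ∩ V).card : ℝ)) :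
    y ^ (1 + c) * (V.card : ℝ) ^ (-c) ≤ QQ c S := by
  refine le_trans ?_ (term_le_QQ c S V)
  have := le_vmin_real hS h
  have h1 : (0 : ℝ) ≤ 1 + c := by linarith
  gcongr

theorem QQ_anti {c : ℝ} (hc : 0 ≤ c) {S S' : Finset (Finset X)} (hS' : S'.Nonempty)
    (hsub : S' ⊆ S) : QQ c S ≤ QQ c S' := by
  apply Finset.sup'_le
  intro V _
  apply le_QQ hc hS' (Nat.cast_nonneg _)
  intro Y hY
  exact_mod_cast vmin_le (hsub hY) V

/-- tangent inequality for the power `1 + c` -/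
theorem tangent_pow {a x c : ℝ} (ha : 0 ≤ a) (hx : 0 ≤ x) (hxa : x ≤ a) (hc : 0 ≤ c) :
    a ^ (1 + c) - (1 + c) * a ^ c * x ≤ (a - x) ^ (1 + c) := by
  rcases eq_or_lt_of_le ha with h | h
  · subst h
    have : x = 0 := le_antisymm hxa hx
    subst this
    simp
  · have hb : 1 + (1 + c) * (-(x / a)) ≤ (1 + -(x / a)) ^ (1 + c) := by
      apply one_add_mul_self_le_rpow_one_add
      · have : x / a ≤ 1 := (div_le_one h).2 hxa
        linarith
      · linarith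
    have e1 : a - x = a * (1 + -(x / a)) := by field_simp; ring
    have hn : (0 : ℝ) ≤ 1 + -(x / a) := by
      have : x / a ≤ 1 := (div_le_one h).2 hxa
      linarith
    rw [e1, Real.mul_rpow ha hn]
    have hp : 0 ≤ a ^ (1 + c) := by positivity
    calc a ^ (1 + c) - (1 + c) * a ^ c * x = a ^ (1 + c) * (1 + (1 + c) * (-(x / a))) := by
          rw [rpow_one_add' ha hc]; field_simp; ring
      _ ≤ a ^ (1 + c) * (1 + -(x / a)) ^ (1 + c) := by gcongr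

/-- one-variable form of the doubling inequality -/
theorem double_real {v v' n x c : ℝ} (hv : 0 ≤ v) (hvn : v ≤ n) (hx : 0 ≤ x)
    (hv' : 0 ≤ v') (h : 2 * v - x ≤ v') (hc : 0 ≤ c) (hc2 : (1 + c) * 2 ^ c ≤ 2) :
    2 ^ (1 + c) * (v ^ (1 + c) * n ^ (-c)) - 2 * x ≤ v' ^ (1 + c) * n ^ (-c) := by
  have hn : 0 ≤ n := hv.trans hvn
  have h2c : (1 : ℝ) ≤ 2 ^ c := Real.one_le_rpow (by norm_num) hc
  have h2c2 : (2 : ℝ) ^ c ≤ 2 := by nlinarith
  have hnn : 0 ≤ n ^ (-c) := by positivity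
  have e2 : (2 : ℝ) ^ (1 + c) = 2 * 2 ^ c := rpow_one_add' (by norm_num) hc
  rcases le_total x (2 * v) with hxv | hxv
  · have hvx : 0 ≤ 2 * v - x := by linarith
    have t := tangent_pow (a := 2 * v) (x := x) (c := c) (by linarith) hx hxv hc
    have m : (2 * v - x) ^ (1 + c) ≤ v' ^ (1 + c) :=
      Real.rpow_le_rpow hvx h (by linarith)
    have e : (2 * v) ^ (1 + c) = 2 ^ (1 + c) * v ^ (1 + c) :=
      Real.mul_rpow (by norm_num) hv
    have e' : (2 * v) ^ c = 2 ^ c * v ^ c := Real.mul_rpow (by norm_num) hv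
    have r := ratio_le_one hv hvn hc
    have k1 : (2 ^ (1 + c) * v ^ (1 + c) - (1 + c) * (2 ^ c * v ^ c) * x) * n ^ (-c)
        ≤ v' ^ (1 + c) * n ^ (-c) := by
      apply mul_le_mul_of_nonneg_right _ hnn
      rw [← e, ← e']
      exact t.trans m
    have k2 : (1 + c) * (2 ^ c * v ^ c) * x * n ^ (-c) ≤ 2 * x := by
      have : (1 + c) * (2 ^ c * v ^ c) * x * n ^ (-c)
          = ((1 + c) * 2 ^ c) * (v ^ c * n ^ (-c)) * x := by ring
      rw [this]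
      have q0 : 0 ≤ v ^ c * n ^ (-c) := by positivity
      have q1 : ((1 + c) * 2 ^ c) * (v ^ c * n ^ (-c)) ≤ 2 := by
        calc ((1 + c) * 2 ^ c) * (v ^ c * n ^ (-c)) ≤ 2 * 1 := by gcongr
          _ = 2 := by norm_num
      nlinarith
    have k3 : (2 ^ (1 + c) * v ^ (1 + c) - (1 + c) * (2 ^ c * v ^ c) * x) * n ^ (-c)
        = 2 ^ (1 + c) * (v ^ (1 + c) * n ^ (-c)) - (1 + c) * (2 ^ c * v ^ c) * x * n ^ (-c) := by
      ring
    linarith
  · have t := term_le hv hvn hc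
    have p : 0 ≤ v' ^ (1 + c) * n ^ (-c) := by positivity
    have : 2 ^ (1 + c) * (v ^ (1 + c) * n ^ (-c)) ≤ 2 * x := by
      calc 2 ^ (1 + c) * (v ^ (1 + c) * n ^ (-c)) ≤ 2 ^ (1 + c) * v := by gcongr
        _ = 2 ^ c * (2 * v) := by rw [e2]; ring
        _ ≤ 2 * x := by gcongr
    linarith

/-- doubling inequality: merging pairs with intersection `x` -/
theorem QQ_double {c : ℝ} (hc : 0 ≤ c) (hc2 : (1 + c) * 2 ^ c ≤ 2)
    {S S' : Finset (Finset X)} (hS' : S'.Nonempty) {x : ℕ}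
    (h : ∀ W ∈ S', ∃ Y ∈ S, ∃ Y' ∈ S, W = Y ∪ Y' ∧ (Y ∩ Y').card = x) :
    2 ^ (1 + c) * QQ c S - 2 * x ≤ QQ c S' := by
  have hS : S.Nonempty := by
    obtain ⟨W, hW⟩ := hS'
    obtain ⟨Y, hY, _⟩ := h W hW
    exact ⟨Y, hY⟩
  obtain ⟨V, _, hV⟩ := Finset.exists_mem_eq_sup' (s := (univ : Finset (Finset X))) ⟨∅, mem_univ _⟩
    (fun V => (vmin S V : ℝ) ^ (1 + c) * (V.card : ℝ) ^ (-c))
  have hQ : QQ c S = (vmin S V : ℝ) ^ (1 + c) * (V.card : ℝ) ^ (-c) := hV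
  rw [hQ]
  refine le_trans ?_ (term_le_QQ c S' V)
  apply double_real (Nat.cast_nonneg _) (by exact_mod_cast vmin_le_card hS V)
    (Nat.cast_nonneg _) (Nat.cast_nonneg _) _ hc hc2
  apply le_vmin_real hS'
  intro W hW
  obtain ⟨Y, hY, Y', hY', rfl, hx⟩ := h W hW
  have h1 := vmin_le hY V
  have h2 := vmin_le hY' V
  have h3 : ((Y ∪ Y') ∩ V).card + ((Y ∩ Y') ∩ V).card = (Y ∩ V).card + (Y' ∩ V).card := by
    have e1 : (Y ∪ Y') ∩ V = (Y ∩ V) ∪ (Y' ∩ V) := Finset.union_inter_distrib_right Y Y' V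
    have e2 : (Y ∩ Y') ∩ V = (Y ∩ V) ∩ (Y' ∩ V) := by
      ext a; simp only [mem_inter]; tauto
    rw [e1, e2]
    exact Finset.card_union_add_card_inter _ _
  have h4 : ((Y ∩ Y') ∩ V).card ≤ x := by
    rw [← hx]; exact card_le_card inter_subset_left
  have h5 : 2 * (vmin S V) ≤ ((Y ∪ Y') ∩ V).card + x := by omega
  have h6 : (2 : ℝ) * (vmin S V : ℝ) ≤ (((Y ∪ Y') ∩ V).card : ℝ) + x := by exact_mod_cast h5
  linarith

/-- the potential `u - Q/2` -/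
noncomputable def Phi (c : ℝ) (u : ℕ) (S : Finset (Finset X)) : ℝ := (u : ℝ) - QQ c S / 2

theorem Phi_le (c : ℝ) (u : ℕ) (S : Finset (Finset X)) : Phi c u S ≤ u := by
  have := QQ_nonneg c S
  unfold Phi; linarith

theorem half_le_Phi {c : ℝ} (hc : 0 ≤ c) {S : Finset (Finset X)} (hS : S.Nonempty) {u : ℕ}
    (hu : ∀ Y ∈ S, Y.card = u) : (u : ℝ) / 2 ≤ Phi c u S := by
  have := QQ_le hc hS hu
  unfold Phi; linarith

theorem Phi_nonneg {c : ℝ} (hc : 0 ≤ c) {S : Finset (Finset X)} (hS : S.Nonempty) {u : ℕ}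
    (hu : ∀ Y ∈ S, Y.card = u) : 0 ≤ Phi c u S :=
  le_trans (by positivity) (half_le_Phi hc hS hu)

theorem Phi_mono {c : ℝ} (hc : 0 ≤ c) {S S' : Finset (Finset X)} (hS' : S'.Nonempty)
    (hsub : S' ⊆ S) (u : ℕ) : Phi c u S' ≤ Phi c u S := by
  have := QQ_anti hc hS' hsub
  unfold Phi; linarith

theorem Phi_step {c : ℝ} (hc : 0 ≤ c) (hc2 : (1 + c) * 2 ^ c ≤ 2)
    {S S' : Finset (Finset X)} (hS' : S'.Nonempty) {u u' x : ℕ} (hu' : u' + x = 2 * u)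
    (h : ∀ W ∈ S', ∃ Y ∈ S, ∃ Y' ∈ S, W = Y ∪ Y' ∧ (Y ∩ Y').card = x) :
    Phi c u' S' ≤ 2 * Phi c u S - (2 ^ c - 1) * QQ c S := by
  have hd := QQ_double hc hc2 hS' h
  have e2 : (2 : ℝ) ^ (1 + c) = 2 * 2 ^ c := rpow_one_add' (by norm_num) hc
  have hu'' : (u' : ℝ) + x = 2 * u := by exact_mod_cast hu'
  unfold Phi
  rw [e2] at hd
  nlinarith

/-- the one-stage inequality for `H = D + κ Φ` -/
theorem H_step {c : ℝ} (hc : 0 ≤ c) (hc2 : (1 + c) * 2 ^ c ≤ 2)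
    {S E S' : Finset (Finset X)} (hE : E.Nonempty) (hES : E ⊆ S) (hS' : S'.Nonempty)
    {u u' x : ℕ} (hu' : u' + x = 2 * u)
    (h : ∀ W ∈ S', ∃ Y ∈ E, ∃ Y' ∈ E, W = Y ∪ Y' ∧ (Y ∩ Y').card = x)
    {κ e D D' s p : ℝ} (hκ : 0 ≤ κ) (he : e ≤ κ * (2 ^ c - 1))
    (hD : D' ≤ 2 * (D + s) + e * QQ c E + p) :
    D' + κ * Phi c u' S' ≤ 2 * (D + κ * Phi c u S) + 2 * s + p := by
  have h1 := Phi_step hc hc2 hS' hu' h
  have h2 := Phi_mono hc hE hES u
  have h3 := QQ_nonneg c E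
  have h4 : κ * Phi c u' S' ≤ κ * (2 * Phi c u S - (2 ^ c - 1) * QQ c E) := by
    apply mul_le_mul_of_nonneg_left _ hκ
    linarith
  have h5 : e * QQ c E ≤ κ * (2 ^ c - 1) * QQ c E := mul_le_mul_of_nonneg_right he h3
  nlinarith

end pot

theorem c_ok : ((1 : ℝ) + 1 / 56) * 2 ^ ((1 : ℝ) / 56) ≤ 2 := by
  have h : ((1 : ℝ) + 1) ^ ((1 : ℝ) / 56) ≤ 1 + (1 / 56) * 1 :=
    _root_.rpow_one_add_le_one_add_mul_self (by norm_num) (by norm_num) (by norm_num)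
  have h2 : (2 : ℝ) ^ ((1 : ℝ) / 56) ≤ 1 + 1 / 56 := by
    have e : (1 : ℝ) + 1 = 2 := by norm_num
    rw [e] at h
    linarith
  nlinarith

theorem c_gain : (1 : ℝ) / 82 ≤ 2 ^ ((1 : ℝ) / 56) - 1 := by
  have h : (2 : ℝ) ^ ((1 : ℝ) / 56) = Real.exp (Real.log 2 * (1 / 56)) :=
    Real.rpow_def_of_pos (by norm_num) _
  have h1 := Real.add_one_le_exp (Real.log 2 * (1 / 56))
  have h2 := Real.log_two_gt_d9
  rw [h]
  linarith

end P034F
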