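import Vale.Agent.P034F.Top

/-! # P034: both thresholds are attained -/

namespace ExpThr

open Finset

variable {X : Type} [Fintype X] [DecidableEq X]

theorem continuous_cost (G : Finset (Finset X)) : Continuous (fun p : ℝ => cost p G) := by
  unfold cost
  fun_prop

theorem isCompact_smallSet (F : Set (Finset X)) : IsCompact (smallSet F) := by
  have h1 : smallSet F = ⋃ G ∈ {G : Finset (Finset X) | Covers G F},
      (Set.Icc (0 : ℝ) 1 ∩ {p : ℝ | cost p G ≤ 1 / 2}) := by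
    ext p
    simp only [smallSet, Set.mem_ofPred_eq, Set.mem_iUnion, Set.mem_inter_iff, Set.mem_Icc,
      exists_prop]
    constructor
    · rintro ⟨h0, h1, G, hG, hc⟩
      exact ⟨G, hG, ⟨h0, h1⟩, hc⟩
    · rintro ⟨G, hG, ⟨h0, h1⟩, hc⟩
      exact ⟨h0, h1, G, hG, hc⟩
  rw [h1]
  refine Set.Finite.isCompact_biUnion (Set.toFinite _) fun G _ => ?_
  exact isCompact_Icc.inter_right (isClosed_le (continuous_cost G) continuous_const)

theorem isGreatest_q {F : Set (Finset X)} (hF : IsFamily F) : IsGreatest (smallSet F) (q F) :=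
  ⟨(isCompact_smallSet F).sSup_mem ⟨0, zero_mem_smallSet hF⟩, fun _ hp => le_q hp⟩

theorem fracSmallSet_bdd (F : Set (Finset X)) : BddAbove (fracSmallSet F) :=
  ⟨1, fun _ hp => hp.2.1⟩

theorem smallSet_subset (F : Set (Finset X)) : smallSet F ⊆ fracSmallSet F := by
  classical
  rintro p ⟨h0, h1, G, hG, hc⟩
  refine ⟨h0, h1, fun S => if S ∈ G then 1 else 0, ⟨fun S => ?_, fun H hH => ?_⟩, ?_⟩
  · show (0 : ℝ) ≤ (if S ∈ G then (1 : ℝ) else 0) ∧ (if S ∈ G then (1 : ℝ) else 0) ≤ 1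
    split_ifs <;> norm_num
  · obtain ⟨S, hS, hSH⟩ := hG H hH
    calc (1 : ℝ) = if S ∈ G then 1 else 0 := by rw [if_pos hS]
      _ ≤ ∑ S ∈ H.powerset, if S ∈ G then (1 : ℝ) else 0 :=
        Finset.single_le_sum (f := fun S => if S ∈ G then (1 : ℝ) else 0)
          (fun i _ => by split_ifs <;> norm_num) (Finset.mem_powerset.2 hSH)
  · refine le_trans (le_of_eq ?_) hc
    unfold fracCost cost
    simp

theorem isCompact_fracSmallSet (F : Set (Finset X)) : IsCompact (fracSmallSet F) := by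
  have h1 : fracSmallSet F = (fun x : ℝ × (Finset X → ℝ) => x.1) ''
      ((Set.Icc (0 : ℝ) 1 ×ˢ (Set.pi Set.univ fun _ : Finset X => Set.Icc (0 : ℝ) 1)) ∩
        ({x : ℝ × (Finset X → ℝ) | fracCost x.2 x.1 ≤ 1 / 2} ∩
          ⋂ H ∈ F, {x : ℝ × (Finset X → ℝ) | 1 ≤ ∑ S ∈ H.powerset, x.2 S})) := by
    ext p
    simp only [fracSmallSet, IsFractionalCover, Set.mem_ofPred_eq, Set.mem_image, Set.mem_inter_iff,
      Set.mem_prod, Set.mem_Icc, Set.mem_pi, Set.mem_univ, forall_true_left, Set.mem_iInter,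
      Prod.exists]
    constructor
    · rintro ⟨h0, h1, g, ⟨hg, hcov⟩, hc⟩
      exact ⟨p, g, ⟨⟨⟨h0, h1⟩, hg⟩, hc, hcov⟩, rfl⟩
    · rintro ⟨p', g, ⟨⟨⟨h0, h1⟩, hg⟩, hc, hcov⟩, rfl⟩
      exact ⟨h0, h1, g, ⟨hg, hcov⟩, hc⟩
  rw [h1]
  refine IsCompact.image ?_ continuous_fst
  refine (isCompact_Icc.prod (isCompact_univ_pi fun _ => isCompact_Icc)).inter_right ?_
  refine IsClosed.inter (isClosed_le ?_ continuous_const) (isClosed_biInter fun H _ =>
    isClosed_le continuous_const ?_)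
  · unfold fracCost
    fun_prop
  · fun_prop

theorem isGreatest_qf {F : Set (Finset X)} (hF : IsFamily F) :
    IsGreatest (fracSmallSet F) (qf F) :=
  ⟨(isCompact_fracSmallSet F).sSup_mem ⟨0, smallSet_subset F (zero_mem_smallSet hF)⟩,
    fun _ hp => le_csSup (fracSmallSet_bdd F) hp⟩

end ExpThr
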