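import Mathlib

/-!
# P034 (Talagrand: integral versus fractional expectation thresholds), helper28's proof.
Common definitions.  All families live on a finite type `X`.
-/

namespace TAL

open Finset

section defs
variable {X : Type} [Fintype X] [DecidableEq X]

/-- total weight -/
noncomputable def tot (a : Finset X → ℝ) : ℝ := ∑ Y, a Y

/-- weight of the sets containing `Z` -/
noncomputable def deg (a : Finset X → ℝ) (Z : Finset X) : ℝ :=
  ∑ Y ∈ univ.filter (fun Y => Z ⊆ Y), a Y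

/-- weight of the sets inside `T` -/
noncomputable def ins (a : Finset X → ℝ) (T : Finset X) : ℝ := ∑ Y ∈ T.powerset, a Y

/-- cost of an integral cover -/
noncomputable def cost (q : ℝ) (G : Finset (Finset X)) : ℝ := ∑ Z ∈ G, q ^ Z.card

/-- `G` covers `T` -/
def Cov (G : Finset (Finset X)) (T : Finset X) : Prop := ∃ Z ∈ G, Z ⊆ T

open Classical in
/-- delete the sets covered by `G` -/
noncomputable def kill (G : Finset (Finset X)) (a : Finset X → ℝ) : Finset X → ℝ :=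
  fun Y => if Cov G Y then 0 else a Y

/-- the scale `ν_j = B^(2^j)` -/
noncomputable def nu (B : ℝ) (j : ℕ) : ℝ := B ^ (2 ^ j)

open Classical in
/-- mass of the pairs `(Y,Y')` in the class `C` -/
noncomputable def pm (a : Finset X → ℝ) (C : Finset X → Finset X → Prop) : ℝ :=
  ∑ Y, ∑ Y', if C Y Y' then a Y * a Y' else 0

/-- smallest `|Y ∩ V|` over `Y ∈ S` (0 if `S` is empty) -/
noncomputable def mm (S : Finset (Finset X)) (V : Finset X) : ℕ :=
  if h : S.Nonempty then S.inf' h (fun Y => (Y ∩ V).card) else 0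

/-- the potential `Q(S) = max_V v (v/|V|)^(1/56)`, `v = min_{Y ∈ S} |Y ∩ V|` -/
noncomputable def QQ (S : Finset (Finset X)) : ℝ :=
  (univ : Finset (Finset X)).sup' ⟨∅, mem_univ _⟩
    (fun V => (mm S V : ℝ) * ((mm S V : ℝ) / (V.card : ℝ)) ^ ((1 : ℝ) / 56))

/-- `μ` is a probability measure on `u`-subsets of `T` -/
def IsP (T : Finset X) (u : ℕ) (μ : Finset X → ℝ) : Prop :=
  (∀ Y, 0 ≤ μ Y) ∧ (∀ Y, μ Y ≠ 0 → Y.card = u ∧ Y ⊆ T) ∧ tot μ = 1

/-- image of a set under a permutation -/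
def act (σ : Equiv.Perm X) (Y : Finset X) : Finset X := Y.map σ.toEmbedding

/-- invariant weight -/
def InvW (Γ : Subgroup (Equiv.Perm X)) (a : Finset X → ℝ) : Prop :=
  ∀ σ ∈ Γ, ∀ Y, a (act σ Y) = a Y

/-- invariant family -/
def InvF (Γ : Subgroup (Equiv.Perm X)) (G : Finset (Finset X)) : Prop :=
  ∀ σ ∈ Γ, ∀ Z ∈ G, act σ Z ∈ G

/-- invariant relation -/
def InvR (Γ : Subgroup (Equiv.Perm X)) (C : Finset X → Finset X → Prop) : Prop :=
  ∀ σ ∈ Γ, ∀ Y Y', C Y Y' → C (act σ Y) (act σ Y')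

open Classical in
/-- spread property (after the extraction of the exceptional orbits): if the invariant relation
`R(Y,Z)` (with `Z ⊆ Y`) has at most `M` sets `Z` for every `Y`, then
`a(Y : R(Y,Z)) ≤ M θ q^|Z|`. -/
def Spr (Γ : Subgroup (Equiv.Perm X)) (a : Finset X → ℝ) (θ q : ℝ) : Prop :=
  ∀ (M : ℝ) (R : Finset X → Finset X → Prop), InvR Γ R → (∀ Y Z, R Y Z → Z ⊆ Y) →
    (∀ Y, ((univ.filter (fun Z => R Y Z)).card : ℝ) ≤ M) →
    ∀ Z, ∑ Y ∈ univ.filter (fun Y => R Y Z), a Y ≤ M * (θ * q ^ Z.card)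

variable (X) in
/-- node of the tree -/
structure Nd where
  a : Finset X → ℝ
  u : ℕ
  D : ℝ

/-- validity of a node -/
def Ok (Γ : Subgroup (Equiv.Perm X)) (r : ℝ) (N : Nd X) : Prop :=
  1 ≤ N.u ∧ (∀ Y, 0 ≤ N.a Y) ∧ (∀ Y, N.a Y ≠ 0 → Y.card = N.u) ∧
    tot N.a * r ^ N.u ≤ Real.exp N.D ∧ InvW Γ N.a

end defs

/-- polynomial loss per stage -/
noncomputable def hh (u : ℕ) : ℝ := Real.log (2 ^ 18 * ((u : ℝ) + 1) ^ 14)

/-- the main claim for the density ratio `K` -/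
def Claim {X : Type} [Fintype X] [DecidableEq X] (Γ : Subgroup (Equiv.Perm X)) (q K : ℝ) : Prop :=
  ∀ (k : ℕ) (w : Finset X → ℝ), 1 ≤ k → (∀ S, 0 ≤ w S) → (∀ S, w S ≠ 0 → S.card = k) →
    InvW Γ w → tot w * (K * q) ^ k ≤ 1 →
    ∃ G : Finset (Finset X), InvF Γ G ∧ cost q G ≤ K ^ (-((k : ℝ) / 40)) ∧
      ∀ T, 1 ≤ ins w T → Cov G T

end TAL
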