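import Vale.Agent.P034F.Base

/-! # P034: the claim for very large `K` (piece BASE) -/

namespace TAL

open Finset

variable {X : Type} [Fintype X] [DecidableEq X]

/-- [BASE] -/
theorem claim_base (Γ : Subgroup (Equiv.Perm X)) (q K : ℝ) (hq : 0 < q) (hK : 1 ≤ K)
    (hX : (Fintype.card X : ℝ) ^ 2 ≤ K) : Claim Γ q K := by
  classical
  intro k w hk hw hc hinv htot
  obtain ⟨n, hn⟩ : ∃ n : ℝ, n = (Fintype.card X : ℝ) := ⟨_, rfl⟩
  rw [← hn] at hX
  have hn0 : 0 ≤ n := by rw [hn]; positivity
  have hK0 : 0 < K := by linarith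
  refine ⟨univ.filter (fun S => S.card = k ∧ 1 ≤ w S * n ^ k), ?_, ?_, ?_⟩
  · intro σ hσ S hS
    rw [mem_filter] at hS ⊢
    rw [hinv σ hσ S]
    exact ⟨mem_univ _, (card_map _).trans hS.2.1, hS.2.2⟩
  · set G : Finset (Finset X) := univ.filter (fun S => S.card = k ∧ 1 ≤ w S * n ^ k) with hG
    have h1 : cost q G = G.card * q ^ k := by
      unfold cost
      rw [sum_congr rfl (fun S hS => by rw [(mem_filter.1 hS).2.1]), sum_const, nsmul_eq_mul]
    have h2 : (G.card : ℝ) ≤ tot w * n ^ k := by
      calc (G.card : ℝ) = ∑ S ∈ G, (1 : ℝ) := by simp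
        _ ≤ ∑ S ∈ G, w S * n ^ k := sum_le_sum fun S hS => (mem_filter.1 hS).2.2
        _ ≤ ∑ S, w S * n ^ k := sum_le_sum_of_subset_of_nonneg (subset_univ _)
            (fun S _ _ => mul_nonneg (hw S) (by positivity))
        _ = tot w * n ^ k := by unfold tot; rw [sum_mul]
    have h3 : (G.card : ℝ) * q ^ k * K ^ k ≤ n ^ k := by
      calc (G.card : ℝ) * q ^ k * K ^ k ≤ tot w * n ^ k * q ^ k * K ^ k := by gcongr
        _ = (tot w * (K * q) ^ k) * n ^ k := by rw [mul_pow]; ring
        _ ≤ 1 * n ^ k := mul_le_mul_of_nonneg_right htot (by positivity)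
        _ = n ^ k := one_mul _
    rw [h1]
    have h4 : n ≤ K ^ ((1 : ℝ) / 2) := by
      rw [← Real.sqrt_eq_rpow]
      exact Real.le_sqrt_of_sq_le hX
    have h5 : n ^ k ≤ K ^ ((k : ℝ) / 2) := by
      calc n ^ k ≤ (K ^ ((1 : ℝ) / 2)) ^ k := pow_le_pow_left₀ hn0 h4 k
        _ = K ^ ((k : ℝ) / 2) := by
          rw [← Real.rpow_natCast, ← Real.rpow_mul hK0.le]
          congr 1
          ring
    have h6 : (G.card : ℝ) * q ^ k ≤ K ^ ((k : ℝ) / 2) / K ^ k := by
      rw [le_div_iff₀ (by positivity)]
      exact h3.trans h5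
    refine h6.trans ?_
    rw [← Real.rpow_natCast K k, ← Real.rpow_sub hK0]
    apply Real.rpow_le_rpow_of_exponent_le hK
    have : (0 : ℝ) ≤ k := by positivity
    linarith
  · intro T hT
    by_contra hcov
    have h1 : ∀ S ∈ T.powerset, S.card = k → w S * n ^ k < 1 := by
      intro S hS hSk
      by_contra h
      exact hcov ⟨S, mem_filter.2 ⟨mem_univ _, hSk, not_lt.1 h⟩, mem_powerset.1 hS⟩
    have h2 : ins w T = ∑ S ∈ powersetCard k T, w S := by
      unfold ins
      symm
      apply sum_subset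
      · intro S hS
        rw [mem_powersetCard] at hS
        exact mem_powerset.2 hS.1
      · intro S hS hS'
        by_contra h
        exact hS' (mem_powersetCard.2 ⟨mem_powerset.1 hS, hc S h⟩)
    have hne : (powersetCard k T).Nonempty := by
      by_contra h
      rw [not_nonempty_iff_eq_empty] at h
      rw [h2, h, sum_empty] at hT
      linarith
    obtain ⟨S0, hS0⟩ := hne
    have hTk : k ≤ T.card := by
      rw [mem_powersetCard] at hS0
      rw [← hS0.2]
      exact card_le_card hS0.1
    have hnk : 0 < n := by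
      rw [hn]
      have : 0 < Fintype.card X := lt_of_lt_of_le (by omega) (hTk.trans (card_le_univ T))
      exact_mod_cast this
    have h3 : ins w T * n ^ k < n ^ k := by
      rw [h2, sum_mul]
      calc ∑ S ∈ powersetCard k T, w S * n ^ k < ∑ S ∈ powersetCard k T, (1 : ℝ) := by
            apply sum_lt_sum_of_nonempty ⟨S0, hS0⟩
            intro S hS
            rw [mem_powersetCard] at hS
            exact h1 S (mem_powerset.2 hS.1) hS.2
        _ = (T.card.choose k : ℝ) := by simp
        _ ≤ (T.card : ℝ) ^ k := by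
            exact_mod_cast Nat.choose_le_pow T.card k
        _ ≤ n ^ k := by
            apply pow_le_pow_left₀ (by positivity)
            rw [hn]
            exact_mod_cast card_le_univ T
    have h4 : 0 < n ^ k := by positivity
    nlinarith

end TAL
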