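import Mathlib

/-!
P034F, piece IND (abstract form): downward induction on the density ratio, for an arbitrary
property `P` of the ratio.  Used with `P K = Claim ... q K`.
-/

namespace P034F

/-- abstract downward induction: a property which holds above `N` and satisfies
`(P above K^θ) → P K` for `K ≥ K0 > 1` holds for every `K ≥ K0`. -/
theorem down_induction (P : ℝ → Prop) (N K0 θ : ℝ) (hK0 : 1 < K0) (hθ : 1 < θ)
    (hbase : ∀ K : ℝ, K0 ≤ K → N ≤ K → P K)
    (hstep : ∀ K : ℝ, K0 ≤ K → (∀ K'' : ℝ, K ^ θ ≤ K'' → P K'') → P K) :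
    ∀ K : ℝ, K0 ≤ K → P K := by
  have hρ : 1 < K0 ^ (θ - 1) := Real.one_lt_rpow hK0 (by linarith)
  have key : ∀ n : ℕ, ∀ K : ℝ, K0 ≤ K → N ≤ K * (K0 ^ (θ - 1)) ^ n → P K := by
    intro n
    induction n with
    | zero =>
      intro K h1 h2
      exact hbase K h1 (by simpa using h2)
    | succ n ih =>
      intro K h1 h2
      apply hstep K h1
      intro K'' h3
      have hKpos : 0 < K := by linarith
      have e : K ^ θ = K * K ^ (θ - 1) := by
        have := Real.rpow_add hKpos 1 (θ - 1)
        rw [Real.rpow_one] at this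
        rw [← this]
        congr 1
        ring
      have h4 : K * K0 ^ (θ - 1) ≤ K'' := by
        refine le_trans ?_ h3
        rw [e]
        apply mul_le_mul_of_nonneg_left _ hKpos.le
        exact Real.rpow_le_rpow (by linarith) h1 (by linarith)
      have h5 : K ≤ K'' := by nlinarith
      apply ih K'' (h1.trans h5)
      calc N ≤ K * (K0 ^ (θ - 1)) ^ (n + 1) := h2
        _ = (K * K0 ^ (θ - 1)) * (K0 ^ (θ - 1)) ^ n := by rw [pow_succ]; ring
        _ ≤ K'' * (K0 ^ (θ - 1)) ^ n := by
          apply mul_le_mul_of_nonneg_right h4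
          positivity
  intro K hK
  obtain ⟨n, hn⟩ := pow_unbounded_of_one_lt N hρ
  apply key n K hK
  have hK1 : 1 ≤ K := by linarith
  have hp : 0 ≤ (K0 ^ (θ - 1)) ^ n := by positivity
  nlinarith

/-- form used for the claim: step from `e^(j b)` down to `e^(i b)`, `1 ≤ i < j`. -/
theorem claim_all_abs (P : ℝ → Prop) (N b0 : ℝ) (i j : ℕ) (hi : 1 ≤ i) (hij : i < j)
    (hb0 : 0 < b0)
    (hbase : ∀ K : ℝ, 1 ≤ K → N ≤ K → P K)
    (hstep : ∀ b : ℝ, b0 ≤ b → (∀ K'' : ℝ, Real.exp b ^ j ≤ K'' → P K'') → P (Real.exp b ^ i))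
    (K : ℝ) (hK : Real.exp (i * b0) ≤ K) : P K := by
  have hipos : (0 : ℝ) < i := by exact_mod_cast hi
  have h1 : (1 : ℝ) < Real.exp (i * b0) := Real.one_lt_exp_iff.2 (by positivity)
  have hθ : (1 : ℝ) < (j : ℝ) / i := by
    rw [lt_div_iff₀ hipos, one_mul]
    exact_mod_cast hij
  refine down_induction P N (Real.exp (i * b0)) ((j : ℝ) / i) h1 hθ ?_ ?_ K hK
  · intro K hK1 hK2
    exact hbase K (by linarith) hK2
  · intro K hK1 hcl
    have hKpos : 0 < K := by linarith
    have hlog : i * b0 ≤ Real.log K := (Real.le_log_iff_exp_le hKpos).2 hK1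
    have e : Real.exp (Real.log K / i) ^ i = K := by
      rw [← Real.exp_nat_mul]
      have : (i : ℝ) * (Real.log K / i) = Real.log K := by field_simp
      rw [this, Real.exp_log hKpos]
    have e4 : Real.exp (Real.log K / i) ^ j = K ^ ((j : ℝ) / i) := by
      rw [← Real.exp_nat_mul, Real.rpow_def_of_pos hKpos]
      congr 1
      ring
    have hb : b0 ≤ Real.log K / i := by
      rw [le_div_iff₀ hipos]
      linarith
    have := hstep (Real.log K / i) hb (fun K'' hK'' => hcl K'' (by rw [← e4]; exact hK''))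
    rwa [e] at this

end P034F
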