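import Vale.Agent.P034F.Base
import Vale.Agent.P034F.IndAbs

/-!
P034F v2, piece IND: `claim_all` from `tree_step` and `claim_base` (given as hypotheses here;
`Ind.lean` plugs in the two theorems).
-/

namespace TAL

open Finset

variable {X : Type} [Fintype X] [DecidableEq X]

theorem claim_all_of_tree (Γ : Subgroup (Equiv.Perm X)) (q : ℝ)
    (htree : ∀ b : ℝ, 10000 ≤ b →
      (∀ K'' : ℝ, Real.exp (b / 2) ^ 6 ≤ K'' → Claim Γ q K'') → Claim Γ q (Real.exp (b / 2) ^ 4))
    (hbase : ∀ K : ℝ, 1 ≤ K → (Fintype.card X : ℝ) ^ 2 ≤ K → Claim Γ q K)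
    (K : ℝ) (hK : Real.exp 20000 ≤ K) : Claim Γ q K := by
  refine P034F.claim_all_abs (Claim Γ q) ((Fintype.card X : ℝ) ^ 2) 5000 4 6 (by norm_num)
    (by norm_num) (by norm_num) hbase ?_ K ?_
  · intro b hb hcl
    have h := htree (2 * b) (by linarith)
    have e : 2 * b / 2 = b := by ring
    rw [e] at h
    exact h hcl
  · have e : ((4 : ℕ) : ℝ) * 5000 = 20000 := by norm_num
    rw [e]
    exact hK

end TAL
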