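import Vale.Agent.P034F.NumH

/-! # [NUMC] numerics for the cost (helper10) -/

namespace TAL
open Finset

theorem numC_aux_u (k l u : ℕ) (hk : 1 ≤ k) (hu : u ≤ 2 ^ l * k) :
    ((u : ℝ) + 1) ≤ Real.exp ((l : ℝ) + 1 + k) := by
  have h1 : ((u : ℝ) + 1) ≤ 2 ^ (l + 1) * k := by
    have h2 : u + 1 ≤ 2 ^ (l + 1) * k := by
      have h3 : 1 ≤ 2 ^ l * k := Nat.one_le_iff_ne_zero.2 (by positivity)
      calc u + 1 ≤ 2 ^ l * k + 2 ^ l * k := by omega
        _ = 2 ^ (l + 1) * k := by ring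
    exact_mod_cast h2
  have h4 : (2 : ℝ) ≤ Real.exp 1 := by
    have := Real.add_one_le_exp (1 : ℝ)
    linarith
  have h5 : (2 : ℝ) ^ (l + 1) ≤ Real.exp ((l : ℝ) + 1) := by
    calc (2 : ℝ) ^ (l + 1) ≤ Real.exp 1 ^ (l + 1) := pow_le_pow_left₀ (by norm_num) h4 _
      _ = Real.exp ((l : ℝ) + 1) := by
          rw [← Real.exp_nat_mul]
          congr 1
          push_cast
          ring
  have h6 : (k : ℝ) ≤ Real.exp k := by
    have := Real.add_one_le_exp (k : ℝ)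
    linarith
  calc ((u : ℝ) + 1) ≤ 2 ^ (l + 1) * k := h1
    _ ≤ Real.exp ((l : ℝ) + 1) * Real.exp k := by gcongr
    _ = Real.exp ((l : ℝ) + 1 + k) := by rw [← Real.exp_add]

theorem numC_aux_third : Real.exp (-2) ≤ 1 / 3 := by
  have h := Real.add_one_le_exp (2 : ℝ)
  rw [Real.exp_neg, ← one_div]
  apply one_div_le_one_div_of_le (by norm_num)
  linarith

theorem numC_aux_bern (l : ℕ) : 1 + (l : ℝ) / 10 ≤ (11 / 10 : ℝ) ^ l := by
  have h := one_add_mul_le_pow (a := (1 / 10 : ℝ)) (by norm_num) l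
  calc 1 + (l : ℝ) / 10 = 1 + l * (1 / 10 : ℝ) := by ring
    _ ≤ (1 + 1 / 10) ^ l := h
    _ = (11 / 10 : ℝ) ^ l := by norm_num

theorem numC_aux_ratio (l : ℕ) (hl : 12 ≤ l) : 40 * (11 / 10 : ℝ) ^ l ≤ (3 / 2 : ℝ) ^ l := by
  obtain ⟨m, rfl⟩ := Nat.exists_eq_add_of_le hl
  rw [pow_add, pow_add]
  have h1 : 40 * (11 / 10 : ℝ) ^ 12 ≤ (3 / 2 : ℝ) ^ 12 := by norm_num
  have h2 : (11 / 10 : ℝ) ^ m ≤ (3 / 2 : ℝ) ^ m := pow_le_pow_left₀ (by norm_num) (by norm_num) m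
  calc 40 * ((11 / 10 : ℝ) ^ 12 * (11 / 10) ^ m) = (40 * (11 / 10 : ℝ) ^ 12) * (11 / 10) ^ m := by
        ring
    _ ≤ (3 / 2 : ℝ) ^ 12 * (3 / 2) ^ m := by
        apply mul_le_mul h1 h2 (by positivity) (by positivity)

/-- [NUMC] numerics for the cost. -/
theorem numC (b : ℝ) (hb : 10000 ≤ b) (k l u : ℕ) (hk : 1 ≤ k) (hu : u ≤ 2 ^ l * k) :
    Real.exp (-(sl b k l)) + (if l < 12 then 0 else (u : ℝ) ^ 2 * Real.exp (-(sl b k l) / 40)) +
      8 * ((u : ℝ) + 1) ^ 3 * Real.exp (-(k * b * (11 / 10 : ℝ) ^ (l + 1) / 20))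
      ≤ Real.exp (-(k * b * (11 / 10 : ℝ) ^ l / 20)) := by
  have hkr : (1 : ℝ) ≤ k := by exact_mod_cast hk
  have hU := numC_aux_u k l u hk hu
  have h3 := numC_aux_third
  have hB := numC_aux_bern l
  have hl0 : (0 : ℝ) ≤ l := Nat.cast_nonneg l
  set P : ℝ := (11 / 10 : ℝ) ^ l with hP
  have hPpos : 0 < P := by positivity
  have hkb : 10000 * (k : ℝ) ≤ k * b := by nlinarith
  -- z = k b P
  have hz : 10000 * (k : ℝ) * (1 + l / 10) ≤ k * b * P := by
    apply mul_le_mul hkb hB (by positivity) (by nlinarith)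
  have hz2 : 10000 * (k : ℝ) + 1000 * l ≤ k * b * P := by
    have : (l : ℝ) ≤ k * l := by nlinarith
    nlinarith
  have hsl : P * (k * b / 8) ≤ sl b k l := by
    rw [sl]
    have h1 : P ≤ (3 / 2 : ℝ) ^ l := pow_le_pow_left₀ (by norm_num) (by norm_num) l
    have h2 : (0 : ℝ) ≤ k * b / 8 := by nlinarith
    exact mul_le_mul_of_nonneg_right h1 h2
  have hT : Real.exp (-2) * Real.exp (-(k * b * P / 20)) ≤
      1 / 3 * Real.exp (-(k * b * P / 20)) :=
    mul_le_mul_of_nonneg_right h3 (Real.exp_pos _).le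
  -- term 1
  have t1 : Real.exp (-(sl b k l)) ≤ 1 / 3 * Real.exp (-(k * b * P / 20)) := by
    refine le_trans ?_ hT
    rw [← Real.exp_add]
    apply Real.exp_le_exp.2
    nlinarith
  -- term 2
  have t2 : (if l < 12 then 0 else (u : ℝ) ^ 2 * Real.exp (-(sl b k l) / 40)) ≤
      1 / 3 * Real.exp (-(k * b * P / 20)) := by
    split_ifs with hl
    · positivity
    · refine le_trans ?_ hT
      have hl' : 12 ≤ l := by omega
      have hr := numC_aux_ratio l hl'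
      have hs2 : 5 * (k * b * P) ≤ sl b k l := by
        rw [sl]
        have h2 : (0 : ℝ) ≤ k * b / 8 := by nlinarith
        calc 5 * (k * b * P) = (40 * P) * (k * b / 8) := by ring
          _ ≤ (3 / 2 : ℝ) ^ l * (k * b / 8) := mul_le_mul_of_nonneg_right hr h2
      have hu2 : (u : ℝ) ^ 2 ≤ Real.exp (2 * ((l : ℝ) + 1 + k)) := by
        have h4 : (u : ℝ) ≤ Real.exp ((l : ℝ) + 1 + k) := by linarith
        calc (u : ℝ) ^ 2 ≤ Real.exp ((l : ℝ) + 1 + k) ^ 2 :=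
              pow_le_pow_left₀ (Nat.cast_nonneg u) h4 2
          _ = Real.exp (2 * ((l : ℝ) + 1 + k)) := by
              rw [← Real.exp_nat_mul]
              norm_num
      calc (u : ℝ) ^ 2 * Real.exp (-(sl b k l) / 40)
          ≤ Real.exp (2 * ((l : ℝ) + 1 + k)) * Real.exp (-(sl b k l) / 40) := by gcongr
        _ = Real.exp (2 * ((l : ℝ) + 1 + k) + -(sl b k l) / 40) := by rw [Real.exp_add]
        _ ≤ Real.exp (-2 + -(k * b * P / 20)) := by
            apply Real.exp_le_exp.2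
            nlinarith
        _ = Real.exp (-2) * Real.exp (-(k * b * P / 20)) := by rw [Real.exp_add]
  -- term 3
  have t3 : 8 * ((u : ℝ) + 1) ^ 3 * Real.exp (-(k * b * (11 / 10 : ℝ) ^ (l + 1) / 20)) ≤
      1 / 3 * Real.exp (-(k * b * P / 20)) := by
    refine le_trans ?_ hT
    have h8 : (8 : ℝ) ≤ Real.exp 3 := by
      have h4 : (2 : ℝ) ≤ Real.exp 1 := by
        have := Real.add_one_le_exp (1 : ℝ)
        linarith
      calc (8 : ℝ) = 2 ^ 3 := by norm_num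
        _ ≤ Real.exp 1 ^ 3 := pow_le_pow_left₀ (by norm_num) h4 3
        _ = Real.exp 3 := by rw [← Real.exp_nat_mul]; norm_num
    have hu3 : ((u : ℝ) + 1) ^ 3 ≤ Real.exp (3 * ((l : ℝ) + 1 + k)) := by
      calc ((u : ℝ) + 1) ^ 3 ≤ Real.exp ((l : ℝ) + 1 + k) ^ 3 :=
            pow_le_pow_left₀ (by positivity) hU 3
        _ = Real.exp (3 * ((l : ℝ) + 1 + k)) := by
            rw [← Real.exp_nat_mul]
            norm_num
    calc 8 * ((u : ℝ) + 1) ^ 3 * Real.exp (-(k * b * (11 / 10 : ℝ) ^ (l + 1) / 20))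
        ≤ Real.exp 3 * Real.exp (3 * ((l : ℝ) + 1 + k)) *
            Real.exp (-(k * b * (11 / 10 : ℝ) ^ (l + 1) / 20)) := by gcongr
      _ = Real.exp (3 + 3 * ((l : ℝ) + 1 + k) + -(k * b * (11 / 10 : ℝ) ^ (l + 1) / 20)) := by
          rw [Real.exp_add, Real.exp_add]
      _ ≤ Real.exp (-2 + -(k * b * P / 20)) := by
          apply Real.exp_le_exp.2
          have h5 : (11 / 10 : ℝ) ^ (l + 1) = P * (11 / 10) := by rw [pow_succ]
          rw [h5]
          nlinarith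
      _ = Real.exp (-2) * Real.exp (-(k * b * P / 20)) := by rw [Real.exp_add]
  linarith

end TAL
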