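import Vale.Agent.P034F.TreeCore
import Vale.Agent.P034F.NumC

/-!
# P034F: `tree_step` from the stage theorem (given as a hypothesis)
-/

namespace TAL
open Finset
variable {X : Type} [Fintype X] [DecidableEq X]

theorem tree_invF_empty (Γ : Subgroup (Equiv.Perm X)) : InvF Γ (∅ : Finset (Finset X)) := by
  intro g _ S hS
  simp at hS

theorem tree_invF_union (Γ : Subgroup (Equiv.Perm X)) (A B : Finset (Finset X)) (hA : InvF Γ A)
    (hB : InvF Γ B) : InvF Γ (A ∪ B) := by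
  intro g hg S hS
  rcases mem_union.mp hS with h | h
  · exact mem_union_left _ (hA g hg S h)
  · exact mem_union_right _ (hB g hg S h)

theorem tree_step_of (Γ : Subgroup (Equiv.Perm X)) (q b : ℝ) (hq : 0 < q) (hb : 10000 ≤ b)
    (hstage : ∀ (s : ℝ) (_ : 0 ≤ s) (gen : Prop) [Decidable gen] (N : Nd X),
      Ok Γ (Real.exp (b / 2) ^ 2 * q) N →
      ∃ (G : Finset (Finset X)) (Ch : Finset (Nd X)), InvF Γ G ∧
        cost q G ≤ Real.exp (-s) + (if gen then 0 else (N.u : ℝ) ^ 2 * Real.exp (-s / 40)) ∧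
        Ch.card ≤ 8 * (N.u + 1) ^ 3 ∧
        (∀ N' ∈ Ch, Ok Γ (Real.exp (b / 2) ^ 2 * q) N' ∧ N'.u ≤ 2 * N.u) ∧
        ∀ (T : Finset X) (μ : Finset X → ℝ), ¬ Cov G T → IsP T N.u μ → (∀ Y, μ Y ≤ N.a Y) →
          ∃ N' ∈ Ch, ∃ (μ' : Finset X → ℝ) (S : Finset (Finset X)) (x t : ℕ),
            S.Nonempty ∧ (∀ Y ∈ S, μ Y ≠ 0) ∧
            (t : ℝ) ≤ Real.exp (-(Real.log (Real.exp (b / 2))) / 4) * QQ S + 1 ∧
            IsP T N'.u μ' ∧ (∀ Y, μ' Y ≤ N'.a Y) ∧ N'.u + x = 2 * N.u ∧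
            (∀ U, μ' U ≠ 0 → ∃ Y ∈ S, ∃ Y' ∈ S, U = Y ∪ Y' ∧ (Y ∩ Y').card = x) ∧
            N'.D ≤ 2 * (N.D + s) + 6 * t + hh N.u +
              (if gen then 2 * (N.u : ℝ) / Real.exp (b / 2) else 0)) :
    Claim Γ q (Real.exp (b / 2) ^ 4) := by
  intro k w hk h0 hc hinv htot
  have hk' : (1 : ℝ) ≤ k := by exact_mod_cast hk
  obtain ⟨G, hGi, hcost, hG⟩ := tree_core (X := X) q (Real.exp (b / 2) ^ 2 * q) b 6
    (Real.exp (-(Real.log (Real.exp (b / 2))) / 4))
    (fun l u => if l < 12 then 2 * (u : ℝ) / Real.exp (b / 2) else 0) k hq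
    (by positivity) hb hk
    (by norm_num) (by norm_num) (Real.exp_pos _).le
    (by
      rw [Real.exp_le_one_iff, Real.log_exp]
      linarith)
    (InvF Γ) (tree_invF_empty Γ) (tree_invF_union Γ)
    (Ok Γ (Real.exp (b / 2) ^ 2 * q)) (fun _ h => h.2.2.2.1) hh
    (fun l u hu => numH b hb k l u hk hu)
    (by
      intro l N hN hu
      have hs : 0 ≤ sl b k l := by unfold sl; positivity
      obtain ⟨G, Ch, h0', h1, h2, h3, h4⟩ := hstage (sl b k l) hs (l < 12) N hN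
      refine ⟨G, Ch, h0', ?_, h2, fun N' hN' => (h3 N' hN').1, ?_⟩
      · have := numC b hb k l N.u hk hu
        linarith
      · intro T μ hT hμ hle
        exact h4 T μ hT hμ hle)
    w h0 hc
    (by
      refine ⟨hk, h0, hc, ?_, hinv⟩
      show tot w * (Real.exp (b / 2) ^ 2 * q) ^ k ≤ Real.exp (-(k * b))
      have e : (Real.exp (b / 2) ^ 4 * q) ^ k
          = Real.exp (k * b) * (Real.exp (b / 2) ^ 2 * q) ^ k := by
        have e2 : Real.exp b = Real.exp (b / 2) ^ 2 := by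
          rw [← Real.exp_nat_mul]
          congr 1
          push_cast
          ring
        rw [Real.exp_nat_mul, ← mul_pow, e2]
        congr 1
        ring
      rw [e] at htot
      rw [Real.exp_neg]
      have hp : 0 < Real.exp (k * b) := Real.exp_pos _
      rw [← one_div, le_div_iff₀ hp]
      calc tot w * (Real.exp (b / 2) ^ 2 * q) ^ k * Real.exp (k * b)
          = tot w * (Real.exp (k * b) * (Real.exp (b / 2) ^ 2 * q) ^ k) := by ring
        _ ≤ 1 := htot)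
  refine ⟨G, hGi, ?_, hG⟩
  have e : (Real.exp (b / 2) ^ 4) ^ (-((k : ℝ) / 40)) = Real.exp (-(k * b / 20)) := by
    rw [← Real.exp_nat_mul, ← Real.exp_mul]
    congr 1
    push_cast
    ring
  rw [e]
  exact hcost

end TAL
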