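import Vale.Agent.P034F.StageH9
import Vale.Agent.P034F.TreeOf
import Vale.Agent.P034F.Ind1
import Vale.Agent.P034F.ClaimBase

/-! # P034/P064: the chain from the stage theorem to the claim for all K -/

namespace TAL
namespace H9S
open Finset

variable {X : Type} [Fintype X] [DecidableEq X]

theorem tree_step (Γ : Subgroup (Equiv.Perm X)) (q b : ℝ) (hq : 0 < q) (hb : 10000 ≤ b)
    (hcl : ∀ K'' : ℝ, Real.exp (b / 2) ^ 6 ≤ K'' → Claim Γ q K'') :
    Claim Γ q (Real.exp (b / 2) ^ 4) := by
  refine tree_step_of Γ q b hq hb ?_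
  intro s hs gen inst N hN
  have e : inst = Classical.propDecidable gen := Subsingleton.elim _ _
  subst e
  exact H9S.stage Γ (Real.exp (b / 2)) q s (Real.exp_le_exp.2 (by linarith)) hq hs gen
      (fun _ => hcl) N hN

theorem claim_all (Γ : Subgroup (Equiv.Perm X)) (q K : ℝ) (hq : 0 < q)
    (hK : Real.exp 20000 ≤ K) : Claim Γ q K :=
  claim_all_of_tree Γ q (fun b hb h => tree_step Γ q b hq hb h)
    (fun K hK hX => claim_base Γ q K hq hK hX) K hK

end H9S
end TAL
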