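import Vale.Agent.P034F.Deletion

/-! # P034: the classes of pairs -/

namespace TAL

open Finset

namespace Cls16

variable {X : Type} [Fintype X] [DecidableEq X]

lemma tot_nonneg' {a : Finset X → ℝ} (ha : ∀ Y, 0 ≤ a Y) : 0 ≤ tot a :=
  Finset.sum_nonneg (fun Y _ => ha Y)

open Classical in
/-- generic mass bound for a class of pairs. -/
lemma pm_le_of {a : Finset X → ℝ} (ha : ∀ Y, 0 ≤ a Y) (P S W : Finset X → Finset X → Prop)
    (hP : ∀ Y Y', a Y ≠ 0 → a Y' ≠ 0 → P Y Y' → S Y' (Y ∩ Y') ∧ W Y (Y ∩ Y')) {N m : ℝ} (hm : 0 ≤ m)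
    (hN : ∀ Y', (((univ : Finset (Finset X)).filter (fun Z => S Y' Z)).card : ℝ) ≤ N)
    (hW : ∀ Z, ∑ Y ∈ univ.filter (fun Y => W Y Z), a Y ≤ m) :
    pm a P ≤ tot a * (N * m) := by
  unfold pm tot
  rw [Finset.sum_comm, Finset.sum_mul]
  apply Finset.sum_le_sum
  intro Y' _
  by_cases hY' : a Y' = 0
  · rw [hY', zero_mul]
    apply le_of_eq
    apply Finset.sum_eq_zero
    intro Y _
    simp
  have h1 : ∑ Y, (if P Y Y' then a Y * a Y' else 0)
      = a Y' * ∑ Y, (if P Y Y' then a Y else 0) := by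
    rw [Finset.mul_sum]
    apply Finset.sum_congr rfl
    intro Y _
    split_ifs <;> ring
  rw [h1]
  apply mul_le_mul_of_nonneg_left _ (ha Y')
  calc ∑ Y, (if P Y Y' then a Y else 0)
      ≤ ∑ Y, ∑ Z ∈ (univ : Finset (Finset X)).filter (fun Z => S Y' Z),
          (if W Y Z then a Y else 0) := by
        apply Finset.sum_le_sum
        intro Y _
        have hnn : ∀ Z ∈ (univ : Finset (Finset X)).filter (fun Z => S Y' Z),
            0 ≤ (if W Y Z then a Y else 0) := by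
          intro Z _
          split_ifs
          · exact ha Y
          · exact le_rfl
        split_ifs with hp
        · by_cases hY : a Y = 0
          · rw [hY]
            apply Finset.sum_nonneg
            intro Z _
            split_ifs <;> exact le_rfl
          · have h := hP Y Y' hY hY' hp
            have hmem : (Y ∩ Y') ∈ (univ : Finset (Finset X)).filter (fun Z => S Y' Z) :=
              mem_filter.mpr ⟨mem_univ _, h.1⟩
            refine le_trans ?_ (Finset.single_le_sum hnn hmem)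
            rw [if_pos h.2]
        · exact Finset.sum_nonneg hnn
    _ = ∑ Z ∈ (univ : Finset (Finset X)).filter (fun Z => S Y' Z),
          ∑ Y ∈ univ.filter (fun Y => W Y Z), a Y := by
        rw [Finset.sum_comm]
        apply Finset.sum_congr rfl
        intro Z _
        rw [← Finset.sum_filter]
    _ ≤ ∑ Z ∈ (univ : Finset (Finset X)).filter (fun Z => S Y' Z), m :=
        Finset.sum_le_sum (fun Z _ => hW Z)
    _ = (((univ : Finset (Finset X)).filter (fun Z => S Y' Z)).card : ℝ) * m := by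
        rw [sum_const, nsmul_eq_mul]
    _ ≤ N * m := mul_le_mul_of_nonneg_right (hN Y') hm

lemma nu_pos {B : ℝ} (hB : 2 ≤ B) (j : ℕ) : 0 < nu B j := by
  unfold nu
  positivity

lemma nu_succ (B : ℝ) (j : ℕ) : nu B (j + 1) = nu B j ^ 2 := by
  unfold nu
  rw [← pow_mul, pow_succ]

lemma nu_zero (B : ℝ) : nu B 0 = B := by
  unfold nu
  simp

lemma choose_le_nu {B : ℝ} (hB : 2 ≤ B) (u x : ℕ) : ((u.choose x : ℕ) : ℝ) ≤ nu B u ^ x := by
  rcases Nat.eq_zero_or_pos x with hx | hx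
  · subst hx
    simp
  have h1 : ((u.choose x : ℕ) : ℝ) ≤ 2 ^ u := by
    exact_mod_cast Nat.choose_le_two_pow u x
  have h2 : (2 : ℝ) ^ u ≤ nu B u := by
    unfold nu
    calc (2 : ℝ) ^ u ≤ 2 ^ (2 ^ u) := pow_le_pow_right₀ (by norm_num) Nat.lt_two_pow_self.le
      _ ≤ B ^ (2 ^ u) := pow_le_pow_left₀ (by norm_num) hB _
  have h3 : 1 ≤ nu B u := by
    unfold nu
    exact one_le_pow₀ (by linarith)
  calc ((u.choose x : ℕ) : ℝ) ≤ nu B u := h1.trans h2
    _ = nu B u ^ 1 := (pow_one _).symm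
    _ ≤ nu B u ^ x := pow_le_pow_right₀ h3 hx

open Classical in
/-- the number of `x`-subsets -/
lemma card_sub_le {u x : ℕ} (Y : Finset X) (h : Y.card = u) :
    (((univ : Finset (Finset X)).filter (fun Z => Z ⊆ Y ∧ Z.card = x)).card : ℝ)
      ≤ ((u.choose x : ℕ) : ℝ) := by
  have : (univ : Finset (Finset X)).filter (fun Z => Z ⊆ Y ∧ Z.card = x) = Y.powersetCard x := by
    ext Z
    simp only [mem_filter, mem_univ, true_and, mem_powersetCard]
  rw [this, Finset.card_powersetCard, h]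

open Classical in
/-- double counting for the core. -/
lemma dbl_count {a : Finset X → ℝ} (ha : ∀ Y, 0 ≤ a Y) (R : Finset X → Finset X → Prop)
    (A0 C0 : Finset (Finset X)) {τ N : ℝ}
    (h2 : ∀ Z ∈ C0, τ ≤ ∑ Y ∈ A0.filter (fun Y => R Y Z), a Y)
    (hN : ∀ Y, (((univ : Finset (Finset X)).filter (fun Z => R Y Z)).card : ℝ) ≤ N) :
    (C0.card : ℝ) * τ ≤ tot a * N := by
  calc (C0.card : ℝ) * τ = ∑ Z ∈ C0, τ := by
        rw [sum_const, nsmul_eq_mul]
    _ ≤ ∑ Z ∈ C0, ∑ Y ∈ A0.filter (fun Y => R Y Z), a Y :=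
        Finset.sum_le_sum (fun Z hZ => h2 Z hZ)
    _ ≤ ∑ Z, ∑ Y ∈ univ.filter (fun Y => R Y Z), a Y := by
        refine le_trans (Finset.sum_le_sum (fun Z _ =>
          Finset.sum_le_sum_of_subset_of_nonneg
            (t := univ.filter (fun Y => R Y Z)) ?_ (fun Y _ _ => ha Y))) ?_
        · intro Y hY
          rw [mem_filter] at hY ⊢
          exact ⟨mem_univ _, hY.2⟩
        · apply Finset.sum_le_sum_of_subset_of_nonneg (subset_univ _)
          intro Z _ _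
          exact Finset.sum_nonneg (fun Y _ => ha Y)
    _ = ∑ Y, a Y * (((univ : Finset (Finset X)).filter (fun Z => R Y Z)).card : ℝ) := by
        simp_rw [Finset.sum_filter]
        rw [Finset.sum_comm]
        apply Finset.sum_congr rfl
        intro Y _
        rw [← Finset.sum_filter, sum_const, nsmul_eq_mul, mul_comm]
    _ ≤ ∑ Y, a Y * N :=
        Finset.sum_le_sum (fun Y _ => mul_le_mul_of_nonneg_left (hN Y) (ha Y))
    _ = tot a * N := by
        unfold tot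
        rw [← Finset.sum_mul]

lemma core_card {c t θ σ g n : ℝ} (hθ : 0 < θ) (hn : 0 < n) (ht : t ≤ σ * θ)
    (h : c * (θ * g / n) ≤ t * n) : c * g ≤ σ * (n * n) := by
  have h2 : c * (θ * g / n) ≤ σ * θ * n := h.trans (mul_le_mul_of_nonneg_right ht hn.le)
  have e : c * (θ * g / n) = θ * (c * g / n) := by ring
  rw [e] at h2
  have h3 : c * g / n ≤ σ * n := by
    have h4 : θ * (c * g / n) ≤ θ * (σ * n) := by
      calc _ ≤ σ * θ * n := h2
        _ = _ := by ring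
    exact le_of_mul_le_mul_left h4 hθ
  rw [div_le_iff₀ hn] at h3
  calc _ ≤ σ * n * n := h3
    _ = _ := by ring

open Classical in
/-- mass of a class. -/
lemma mass_of {a : Finset X → ℝ} (ha : ∀ Y, 0 ≤ a Y) {θ c : ℝ}
    (htθ : tot a ≤ θ) (P S W : Finset X → Finset X → Prop) {N m : ℝ} (hm : 0 ≤ m)
    (hc : 0 ≤ c)
    (hP : ∀ Y Y', a Y ≠ 0 → a Y' ≠ 0 → P Y Y' → S Y' (Y ∩ Y') ∧ W Y (Y ∩ Y'))
    (hN : ∀ Y', (((univ : Finset (Finset X)).filter (fun Z => S Y' Z)).card : ℝ) ≤ N)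
    (hW : ∀ Z, ∑ Y ∈ univ.filter (fun Y => W Y Z), a Y ≤ m)
    (hNm : N * m ≤ c) :
    pm a P ≤ θ * c := by
  refine (pm_le_of ha P S W hP hm hN hW).trans ?_
  calc tot a * (N * m) ≤ tot a * c := mul_le_mul_of_nonneg_left hNm (tot_nonneg' ha)
    _ ≤ θ * c := mul_le_mul_of_nonneg_right htθ hc

lemma pm_false (a : Finset X → ℝ) (P : Finset X → Finset X → Prop) (h : ∀ Y Y', ¬ P Y Y') :
    pm a P = 0 := by
  classical
  unfold pm
  apply Finset.sum_eq_zero
  intro Y _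
  apply Finset.sum_eq_zero
  intro Y' _
  rw [if_neg (h Y Y')]

/-- the permutation of the sets induced by a permutation of the points -/
def actE (σ : Equiv.Perm X) : Equiv.Perm (Finset X) := Equiv.finsetCongr σ

lemma actE_apply (σ : Equiv.Perm X) (Y : Finset X) : actE σ Y = act σ Y := rfl

lemma act_inter (σ : Equiv.Perm X) (Y Y' : Finset X) : act σ (Y ∩ Y') = act σ Y ∩ act σ Y' := by
  unfold act
  exact Finset.map_inter _ _

lemma act_card (σ : Equiv.Perm X) (Y : Finset X) : (act σ Y).card = Y.card := by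
  unfold act
  exact Finset.card_map _

lemma act_subset (σ : Equiv.Perm X) (Y Y' : Finset X) : act σ Y ⊆ act σ Y' ↔ Y ⊆ Y' := by
  unfold act
  exact Finset.map_subset_map

open Classical in
/-- the spread bound for one set `Z`. -/
lemma spr_bound {Γ : Subgroup (Equiv.Perm X)} {a : Finset X → ℝ} {θ q M : ℝ} {x : ℕ}
    (hq : 0 < q) (hθ : 0 < θ) (hM : 0 ≤ M) (hspr : Spr Γ a θ q) (R : Finset X → Finset X → Prop)
    (hR : InvR Γ R) (hb : ∀ Y Z, R Y Z → Z ⊆ Y ∧ Z.card = x)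
    (hN : ∀ Y, (((univ : Finset (Finset X)).filter (fun Z => R Y Z)).card : ℝ) ≤ M) (Z : Finset X) :
    ∑ Y ∈ univ.filter (fun Y => R Y Z), a Y ≤ M * (θ * q ^ x) := by
  by_cases hZ : Z.card = x
  · have h := hspr M R hR (fun Y Z h => (hb Y Z h).1) (fun Y => by convert hN Y) Z
    rw [hZ] at h
    convert h
  · have : (univ : Finset (Finset X)).filter (fun Y => R Y Z) = ∅ := by
      ext Y
      simp only [mem_filter, mem_univ, true_and, notMem_empty, iff_false]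
      intro h
      exact hZ (hb Y Z h).2
    rw [this, sum_empty]
    positivity

open Classical in
/-- the levels. -/
lemma levels (Γ : Subgroup (Equiv.Perm X)) (B r θ : ℝ) (u x : ℕ) (a : Finset X → ℝ) (hB : 2 ≤ B)
    (hr : 0 < r) (hθ : 0 < θ) (ha : ∀ Y, 0 ≤ a Y) (hcard : ∀ Y, a Y ≠ 0 → Y.card = u)
    (hinv : InvW Γ a) :
    ∃ (R t2 : ℕ → Finset X → Finset X → Prop) (Ac Cc : ℕ → Finset (Finset X)),
      (∀ j, j ≤ u → ∀ Y Z, R j Y Z → a Y ≠ 0 ∧ Z ⊆ Y ∧ Z.card = x) ∧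
      (∀ Y Z, a Y ≠ 0 → Z ⊆ Y → Z.card = x → R u Y Z) ∧
      (∀ j, j ≤ u → ∀ Y,
        (((univ : Finset (Finset X)).filter (fun Z => R j Y Z)).card : ℝ) ≤ nu B j ^ x) ∧
      (∀ j, j < u → ∀ Y ∈ Ac j, nu B j ^ x ≤ (((Cc j).filter (fun Z => R (j + 1) Y Z)).card : ℝ)) ∧
      (∀ j, j < u → ∀ Z ∈ Cc j, θ * r ^ x / nu B (j + 1) ^ x
        ≤ ∑ Y ∈ (Ac j).filter (fun Y => R (j + 1) Y Z), a Y) ∧
      (∀ j, j < u → ∀ Y Z, R (j + 1) Y Z → R j Y Z ∨ Y ∈ Ac j ∨ t2 j Y Z) ∧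
      (∀ j, j < u → ∀ Z, ∑ Y ∈ univ.filter (fun Y => t2 j Y Z), a Y
        ≤ θ * r ^ x / nu B (j + 1) ^ x) ∧
      (∀ j, j ≤ u → InvR Γ (R j)) ∧ (∀ j, j < u → InvR Γ (t2 j)) ∧
      (∀ j, j < u → InvF Γ (Ac j)) ∧ (∀ j, j < u → InvF Γ (Cc j)) := by
  have hB0 : 0 < B := by linarith
  have hM0 : ∀ j, 0 ≤ nu B j ^ x := fun j => pow_nonneg (nu_pos hB j).le x
  have hτ0 : ∀ j, 0 < θ * r ^ x / nu B (j + 1) ^ x := fun j =>
    div_pos (mul_pos hθ (pow_pos hr x)) (pow_pos (nu_pos hB _) x)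
  have del := fun (j : ℕ) (R : Finset X → Finset X → Prop) =>
    deletion (univ : Finset (Finset X)) (univ : Finset (Finset X)) R a ha (nu B j ^ x)
      (θ * r ^ x / nu B (j + 1) ^ x) (hM0 j) (hτ0 j).le
  choose Ac Cc t1 hAc hCc hc1 hc2 ht1 ht2 ht3 hdi using del
  obtain ⟨R0, hR0⟩ : ∃ R0 : Finset X → Finset X → Prop, ∀ Y Z, R0 Y Z ↔
    (a Y ≠ 0 ∧ Z ⊆ Y ∧ Z.card = x) := ⟨_, fun _ _ => Iff.rfl⟩
  obtain ⟨R, hRu, hRs⟩ : ∃ R : ℕ → Finset X → Finset X → Prop, R u = R0 ∧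
      ∀ j, j < u → R j = t1 j (R (j + 1)) := by
    let Rel : ℕ → Finset X → Finset X → Prop := fun i =>
      Nat.rec R0 (fun i R => t1 (u - i - 1) R) i
    refine ⟨fun j => Rel (u - j), ?_, ?_⟩
    · simp only [Nat.sub_self]
      rfl
    · intro j hj
      have e1 : u - j = (u - (j + 1)) + 1 := by omega
      have e2 : u - (u - (j + 1)) - 1 = j := by omega
      show Rel (u - j) = t1 j (Rel (u - (j + 1)))
      rw [e1]
      show t1 (u - (u - (j + 1)) - 1) (Rel (u - (j + 1))) = _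
      rw [e2]
  have hmono : ∀ j, j < u → ∀ Y Z, R j Y Z → R (j + 1) Y Z := by
    intro j hj Y Z h
    rw [hRs j hj] at h
    exact (ht3 j (R (j + 1)) Y Z h).2.2
  have hmono' : ∀ i j, i ≤ j → j ≤ u → ∀ Y Z, R i Y Z → R j Y Z := by
    intro i j hij
    induction j, hij using Nat.le_induction with
    | base => intro _ Y Z h; exact h
    | succ j hij ih => intro hju Y Z h; exact hmono j (by omega) Y Z (ih (by omega) Y Z h)
  have hbase : ∀ j, j ≤ u → ∀ Y Z, R j Y Z → a Y ≠ 0 ∧ Z ⊆ Y ∧ Z.card = x := by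
    intro j hj Y Z h
    have := hmono' j u hj le_rfl Y Z h
    rw [hRu, hR0] at this
    exact this
  -- invariance
  have hRinv : ∀ i, i ≤ u → ∀ σ ∈ Γ, ∀ Y Z, R (u - i) (act σ Y) (act σ Z) ↔ R (u - i) Y Z := by
    intro i
    induction i with
    | zero =>
      intro _ σ hσ Y Z
      rw [Nat.sub_zero, hRu, hR0, hR0, hinv σ hσ, act_subset, act_card]
    | succ i ih =>
      intro hi σ hσ Y Z
      have e1 : u - i = (u - (i + 1)) + 1 := by omega
      have ih' := ih (by omega) σ hσ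
      rw [e1] at ih'
      rw [hRs (u - (i + 1)) (by omega)]
      have h := (hdi (u - (i + 1)) (R (u - (i + 1) + 1)) (actE σ) (actE σ) (fun _ => by simp)
        (fun _ => by simp) (fun y z => ih' y z) (fun y => hinv σ hσ y)).2.2 Y Z
      exact h
  have hRinv' : ∀ j, j ≤ u → ∀ σ ∈ Γ, ∀ Y Z, R j (act σ Y) (act σ Z) ↔ R j Y Z := by
    intro j hj σ hσ Y Z
    have h := hRinv (u - j) (by omega) σ hσ Y Z
    have e : u - (u - j) = j := by omega
    rwa [e] at h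
  have hdi' : ∀ j, j < u → ∀ σ ∈ Γ,
      (∀ Y, act σ Y ∈ Ac j (R (j + 1)) ↔ Y ∈ Ac j (R (j + 1))) ∧
      (∀ Z, act σ Z ∈ Cc j (R (j + 1)) ↔ Z ∈ Cc j (R (j + 1))) ∧
      (∀ Y Z, t1 j (R (j + 1)) (act σ Y) (act σ Z) ↔ t1 j (R (j + 1)) Y Z) := by
    intro j hj σ hσ
    exact hdi j (R (j + 1)) (actE σ) (actE σ) (fun _ => by simp) (fun _ => by simp)
      (fun y z => hRinv' (j + 1) (by omega) σ hσ y z) (fun y => hinv σ hσ y)
  obtain ⟨t2, ht2def⟩ : ∃ t2 : ℕ → Finset X → Finset X → Prop, ∀ j Y Z, t2 j Y Z ↔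
      (R (j + 1) Y Z ∧ ¬ t1 j (R (j + 1)) Y Z ∧
        ¬ (Y ∈ Ac j (R (j + 1)) ∧ Z ∈ Cc j (R (j + 1)))) := ⟨_, fun _ _ _ => Iff.rfl⟩
  refine ⟨R, t2, fun j => Ac j (R (j + 1)), fun j => Cc j (R (j + 1)), hbase, ?_, ?_,
    fun j _ => hc1 j (R (j + 1)), fun j _ => hc2 j (R (j + 1)), ?_, ?_, ?_, ?_, ?_, ?_⟩
  · intro Y Z h1 h2 h3
    rw [hRu, hR0]
    exact ⟨h1, h2, h3⟩
  · intro j hj Y
    rcases Nat.lt_or_ge j u with hlt | hge
    · rw [hRs j hlt]
      exact ht1 j (R (j + 1)) Y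
    · have : j = u := le_antisymm hj hge
      subst this
      by_cases hY : a Y = 0
      · have : (univ : Finset (Finset X)).filter (fun Z => R j Y Z) = ∅ := by
          ext Z
          simp only [mem_filter, mem_univ, true_and, notMem_empty, iff_false]
          intro h
          exact (hbase j le_rfl Y Z h).1 hY
        rw [this]
        simp only [card_empty, Nat.cast_zero]
        exact pow_nonneg (nu_pos hB j).le x
      · refine le_trans ?_ (choose_le_nu hB j x)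
        refine le_trans ?_ (card_sub_le (x := x) Y (hcard Y hY))
        norm_cast
        apply Finset.card_le_card
        intro Z hZ
        rw [mem_filter] at hZ ⊢
        exact ⟨hZ.1, (hbase j le_rfl Y Z hZ.2).2⟩
  · intro j hj Y Z h
    rw [hRs j hj]
    by_cases h1 : t1 j (R (j + 1)) Y Z
    · exact Or.inl h1
    · by_cases h2 : Y ∈ Ac j (R (j + 1)) ∧ Z ∈ Cc j (R (j + 1))
      · exact Or.inr (Or.inl h2.1)
      · exact Or.inr (Or.inr ((ht2def j Y Z).mpr ⟨h, h1, h2⟩))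
  · intro j _ Z
    refine le_trans (le_of_eq ?_) (ht2 j (R (j + 1)) Z)
    apply Finset.sum_congr _ (fun _ _ => rfl)
    ext Y
    simp only [mem_filter, mem_univ, true_and, ht2def]
  · intro j hj σ hσ Y Z h
    exact (hRinv' j hj σ hσ Y Z).mpr h
  · intro j hj σ hσ Y Z h
    rw [ht2def] at h ⊢
    have hd := hdi' j hj σ hσ
    rw [hRinv' (j + 1) (by omega) σ hσ, hd.2.2, hd.1, hd.2.1]
    exact h
  · intro j hj σ hσ Y h
    exact ((hdi' j hj σ hσ).1 Y).mpr h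
  · intro j hj σ hσ Y h
    exact ((hdi' j hj σ hσ).2.1 Y).mpr h

end Cls16

open Cls16

variable {X : Type} [Fintype X] [DecidableEq X]

open Classical in
/-- [CLS] classes of pairs. -/
theorem classes (Γ : Subgroup (Equiv.Perm X)) (B q θ σ : ℝ) (u x : ℕ) (a : Finset X → ℝ)
    (hB : 2 ≤ B) (hq : 0 < q)
    (hθ : 0 < θ) (hσ : 0 < σ) (hσ1 : σ ≤ 1) (ha : ∀ Y, 0 ≤ a Y) (hcard : ∀ Y, a Y ≠ 0 → Y.card = u)
    (hinv : InvW Γ a) (hspr : Spr Γ a θ q) (htot : tot a ≤ σ * θ) (hxu : x ≤ u) :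
    ∃ (C D : ℕ → Finset X → Finset X → Prop) (Ys Zs : ℕ → Finset (Finset X)),
      (∀ Y Y', a Y ≠ 0 → a Y' ≠ 0 → (Y ∩ Y').card = x →
        (∃ j ≤ u, C j Y Y' ∨ C j Y' Y) ∨ (∃ j < u, D j Y Y' ∨ D j Y' Y)) ∧
      (∀ j Y Y', C j Y Y' → (Y ∩ Y').card = x) ∧
      (∀ j Y Y', D j Y Y' → (Y ∩ Y').card = x ∧ Y ∈ Ys j) ∧
      (∀ j, pm a (C j) ≤ θ ^ 2 * (B ^ 2 * q) ^ x) ∧
      (∀ j, pm a (D j) ≤ θ ^ 2 * (B ^ 2 * q) ^ x * (nu B j) ^ (4 * x)) ∧
      (∀ j, ∀ Y ∈ Ys j, (nu B j) ^ x ≤ (((Zs j).filter (fun Z => Z ⊆ Y)).card : ℝ)) ∧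
      (∀ j, ∀ Z ∈ Zs j, Z.card = x) ∧
      (∀ j, ((Zs j).card : ℝ) * (B ^ 2 * q) ^ x ≤ σ * (nu B (j + 1)) ^ (2 * x)) ∧
      (∀ j, InvF Γ (Zs j)) ∧ (∀ j, InvR Γ (C j)) ∧ (∀ j, InvR Γ (D j)) := by
  have hB0 : 0 < B := by linarith
  have hBq : 0 < B ^ 2 * q := mul_pos (by positivity) hq
  have htθ : tot a ≤ θ := htot.trans (mul_le_of_le_one_left hθ.le hσ1)
  obtain ⟨R, t2, Ac, Cc, hbase, hRu, hcount, hc1, hc2, hsplit, ht2, hRi, ht2i, hAi, hCi⟩ :=
    levels Γ B (B ^ 2 * q) θ u x a hB hBq hθ ha hcard hinv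
  have hτ0 : ∀ j, 0 < θ * (B ^ 2 * q) ^ x / nu B (j + 1) ^ x := fun j =>
    div_pos (mul_pos hθ (pow_pos hBq x)) (pow_pos (nu_pos hB _) x)
  obtain ⟨C, hC⟩ : ∃ C : ℕ → Finset X → Finset X → Prop, ∀ j Y Y', C j Y Y' ↔
      ((Y ∩ Y').card = x ∧ ((j = 0 ∧ R 0 Y (Y ∩ Y') ∧ R 0 Y' (Y ∩ Y')) ∨
        (∃ i, j = i + 1 ∧ i < u ∧ t2 i Y (Y ∩ Y') ∧ R (i + 1) Y' (Y ∩ Y')))) :=
    ⟨_, fun _ _ _ => Iff.rfl⟩
  obtain ⟨D, hD⟩ : ∃ D : ℕ → Finset X → Finset X → Prop, ∀ j Y Y', D j Y Y' ↔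
      ((Y ∩ Y').card = x ∧ j < u ∧ Y ∈ Ac j ∧ R (j + 1) Y (Y ∩ Y') ∧ R (j + 1) Y' (Y ∩ Y')) :=
    ⟨_, fun _ _ _ => Iff.rfl⟩
  obtain ⟨Ys, hYs1, hYs2⟩ : ∃ Ys : ℕ → Finset (Finset X), (∀ j, j < u → Ys j = Ac j) ∧
      (∀ j, ¬ j < u → Ys j = ∅) :=
    ⟨fun j => if j < u then Ac j else ∅, fun j h => if_pos h, fun j h => if_neg h⟩
  obtain ⟨Zs, hZs1, hZs2⟩ : ∃ Zs : ℕ → Finset (Finset X), (∀ j, j < u → Zs j = Cc j) ∧
      (∀ j, ¬ j < u → Zs j = ∅) :=
    ⟨fun j => if j < u then Cc j else ∅, fun j h => if_pos h, fun j h => if_neg h⟩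
  refine ⟨C, D, Ys, Zs, ?_, ?_, ?_, ?_, ?_, ?_, ?_, ?_, ?_, ?_, ?_⟩
  · -- coverage
    intro Y Y' hY hY' hx
    have huY : R u Y (Y ∩ Y') := hRu _ _ hY inter_subset_left hx
    have huY' : R u Y' (Y ∩ Y') := hRu _ _ hY' inter_subset_right hx
    have hex : ∃ j, j ≤ u ∧ R j Y (Y ∩ Y') ∧ R j Y' (Y ∩ Y') := ⟨u, le_rfl, huY, huY'⟩
    obtain ⟨hju, hjY, hjY'⟩ := Nat.find_spec hex
    set j := Nat.find hex with hj
    rcases Nat.eq_zero_or_pos j with h0 | hpos
    · left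
      refine ⟨0, Nat.zero_le _, Or.inl ?_⟩
      rw [hC]
      rw [h0] at hjY hjY'
      exact ⟨hx, Or.inl ⟨rfl, hjY, hjY'⟩⟩
    · obtain ⟨i, hi⟩ : ∃ i, j = i + 1 := ⟨j - 1, by omega⟩
      have hiu : i < u := by omega
      have hmin : ¬ (i ≤ u ∧ R i Y (Y ∩ Y') ∧ R i Y' (Y ∩ Y')) :=
        Nat.find_min hex (by omega)
      rw [hi] at hjY hjY'
      have hcomm : Y' ∩ Y = Y ∩ Y' := inter_comm _ _
      rcases hsplit i hiu Y (Y ∩ Y') hjY with h1 | h1 | h1
      · rcases hsplit i hiu Y' (Y ∩ Y') hjY' with h2 | h2 | h2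
        · exact absurd ⟨hiu.le, h1, h2⟩ hmin
        · right
          refine ⟨i, hiu, Or.inr ?_⟩
          rw [hD, hcomm]
          exact ⟨hx, hiu, h2, hjY', hjY⟩
        · left
          refine ⟨i + 1, by omega, Or.inr ?_⟩
          rw [hC, hcomm]
          exact ⟨hx, Or.inr ⟨i, rfl, hiu, h2, hjY⟩⟩
      · right
        refine ⟨i, hiu, Or.inl ?_⟩
        rw [hD]
        exact ⟨hx, hiu, h1, hjY, hjY'⟩
      · left
        refine ⟨i + 1, by omega, Or.inl ?_⟩
        rw [hC]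
        exact ⟨hx, Or.inr ⟨i, rfl, hiu, h1, hjY'⟩⟩
  · intro j Y Y' h
    rw [hC] at h
    exact h.1
  · intro j Y Y' h
    rw [hD] at h
    refine ⟨h.1, ?_⟩
    rw [hYs1 j h.2.1]
    exact h.2.2.1
  · -- mass of the lossless classes
    intro j
    rw [pow_two, mul_assoc]
    rcases Nat.eq_zero_or_pos j with h0 | hpos
    · subst h0
      have hn0 : 0 ≤ nu B 0 ^ x := pow_nonneg (nu_pos hB 0).le x
      refine mass_of ha htθ (C 0) (R 0) (R 0)
        (N := nu B 0 ^ x) (m := nu B 0 ^ x * (θ * q ^ x)) (by positivity) (by positivity) ?_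
        (fun Y' => hcount 0 (Nat.zero_le _) Y')
        (spr_bound hq hθ hn0 hspr (R 0) (hRi 0 (Nat.zero_le _))
          (fun Y Z h => (hbase 0 (Nat.zero_le _) Y Z h).2) (hcount 0 (Nat.zero_le _))) ?_
      · intro Y Y' _ _ h
        rw [hC] at h
        rcases h with ⟨hx, h | ⟨i, hi, _⟩⟩
        · exact ⟨h.2.2, h.2.1⟩
        · exact absurd hi (by omega)
      · apply le_of_eq
        rw [nu_zero, mul_pow, ← pow_mul, mul_comm 2 x, pow_mul]
        ring
    · obtain ⟨i, rfl⟩ : ∃ i, j = i + 1 := ⟨j - 1, by omega⟩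
      by_cases hiu : i < u
      · refine mass_of ha htθ (C (i + 1)) (R (i + 1)) (t2 i)
          (N := nu B (i + 1) ^ x) (hτ0 i).le (by positivity) ?_
          (fun Y' => hcount (i + 1) (by omega) Y') (ht2 i hiu) ?_
        · intro Y Y' _ _ h
          rw [hC] at h
          rcases h with ⟨hx, h | ⟨i', hi, hi'⟩⟩
          · exact absurd h.1 (by omega)
          · have : i' = i := by omega
            subst this
            exact ⟨hi'.2.2, hi'.2.1⟩
        · apply le_of_eq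
          have hn : nu B (i + 1) ^ x ≠ 0 := (pow_pos (nu_pos hB _) x).ne'
          field_simp
      · rw [pm_false]
        · positivity
        · intro Y Y' h
          rw [hC] at h
          rcases h with ⟨hx, h | ⟨i', hi, hi'⟩⟩
          · exact absurd h.1 (by omega)
          · exact absurd hi'.1 (by omega)
  · -- mass of the core classes
    intro j
    have hnn : 0 ≤ nu B j ^ (4 * x) := pow_nonneg (nu_pos hB j).le _
    rw [pow_two, mul_assoc, mul_assoc]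
    by_cases hju : j < u
    · have hn1 : 0 ≤ nu B (j + 1) ^ x := pow_nonneg (nu_pos hB _).le x
      refine mass_of ha htθ (D j) (R (j + 1)) (R (j + 1))
        (N := nu B (j + 1) ^ x) (m := nu B (j + 1) ^ x * (θ * q ^ x)) (by positivity)
        (by positivity) ?_ (fun Y' => hcount (j + 1) (by omega) Y')
        (spr_bound hq hθ hn1 hspr (R (j + 1)) (hRi (j + 1) (by omega))
          (fun Y Z h => (hbase (j + 1) (by omega) Y Z h).2) (hcount (j + 1) (by omega))) ?_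
      · intro Y Y' _ _ h
        rw [hD] at h
        exact ⟨h.2.2.2.2, h.2.2.2.1⟩
      · have e1 : nu B (j + 1) ^ x * nu B (j + 1) ^ x = nu B j ^ (4 * x) := by
          rw [nu_succ, ← pow_mul, ← pow_add]
          congr 1
          ring
        have hBx : 1 ≤ (B ^ 2) ^ x := one_le_pow₀ (one_le_pow₀ (by linarith))
        calc nu B (j + 1) ^ x * (nu B (j + 1) ^ x * (θ * q ^ x))
            = 1 * (nu B j ^ (4 * x) * (θ * q ^ x)) := by
              rw [← mul_assoc, e1, one_mul]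
          _ ≤ (B ^ 2) ^ x * (nu B j ^ (4 * x) * (θ * q ^ x)) :=
              mul_le_mul_of_nonneg_right hBx (by positivity)
          _ = _ := by rw [mul_pow]; ring
    · rw [pm_false]
      · positivity
      · intro Y Y' h
        rw [hD] at h
        exact absurd h.2.1 hju
  · -- members of the core
    intro j Y hY
    by_cases hju : j < u
    · rw [hYs1 j hju] at hY
      rw [hZs1 j hju]
      refine (hc1 j hju Y hY).trans ?_
      norm_cast
      apply Finset.card_le_card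
      intro Z hZ
      rw [mem_filter] at hZ ⊢
      exact ⟨hZ.1, (hbase (j + 1) (by omega) Y Z hZ.2).2.1⟩
    · rw [hYs2 j hju] at hY
      exact absurd hY (notMem_empty Y)
  · intro j Z hZ
    by_cases hju : j < u
    · rw [hZs1 j hju] at hZ
      have h := hc2 j hju Z hZ
      by_contra hne
      have hempty : (Ac j).filter (fun Y => R (j + 1) Y Z) = ∅ := by
        ext Y
        simp only [mem_filter, notMem_empty, iff_false]
        rintro ⟨_, hR⟩
        exact hne (hbase (j + 1) (by omega) Y Z hR).2.2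
      rw [hempty, sum_empty] at h
      exact absurd (hτ0 j) (not_lt.mpr h)
    · rw [hZs2 j hju] at hZ
      exact absurd hZ (notMem_empty Z)
  · -- double counting
    intro j
    by_cases hju : j < u
    · rw [hZs1 j hju]
      have hnp : 0 < nu B (j + 1) ^ x := pow_pos (nu_pos hB _) x
      have h1 := dbl_count ha (R (j + 1)) (Ac j) (Cc j) (hc2 j hju) (hcount (j + 1) (by omega))
      have h2 := core_card hθ hnp htot h1
      rwa [← pow_add, ← two_mul] at h2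
    · rw [hZs2 j hju]
      simp only [card_empty, Nat.cast_zero, zero_mul]
      have hnn : 0 ≤ nu B (j + 1) ^ (2 * x) := pow_nonneg (nu_pos hB _).le _
      positivity
  · intro j τ hτ Z hZ
    by_cases hju : j < u
    · rw [hZs1 j hju] at hZ ⊢
      exact hCi j hju τ hτ Z hZ
    · rw [hZs2 j hju] at hZ
      exact absurd hZ (notMem_empty Z)
  · intro j τ hτ Y Y' h
    rw [hC] at h ⊢
    rw [← act_inter, act_card]
    refine ⟨h.1, ?_⟩
    rcases h.2 with h2 | ⟨i, hi, hiu, h2, h3⟩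
    · exact Or.inl ⟨h2.1, hRi 0 (Nat.zero_le _) τ hτ _ _ h2.2.1,
        hRi 0 (Nat.zero_le _) τ hτ _ _ h2.2.2⟩
    · exact Or.inr ⟨i, hi, hiu, ht2i i hiu τ hτ _ _ h2, hRi (i + 1) (by omega) τ hτ _ _ h3⟩
  · intro j τ hτ Y Y' h
    rw [hD] at h ⊢
    rw [← act_inter, act_card]
    exact ⟨h.1, h.2.1, hAi j h.2.1 τ hτ _ h.2.2.1,
      hRi (j + 1) (by omega) τ hτ _ _ h.2.2.2.1, hRi (j + 1) (by omega) τ hτ _ _ h.2.2.2.2⟩

end TAL
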