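import Vale.Agent.P034F.Base

/-! # P034: the deletion process on a finite bipartite graph -/

namespace TAL

open Finset

open Classical in
lemma card_nb_inv {α β : Type} {C : Finset β} {R : α → β → Prop} (f : Equiv.Perm α)
    (g : Equiv.Perm β) (hg : ∀ z, g z ∈ C ↔ z ∈ C) (hR : ∀ y z, R (f y) (g z) ↔ R y z) (y : α) :
    (C.filter (fun z => R (f y) z)).card = (C.filter (fun z => R y z)).card := by
  symm
  apply Finset.card_bij (fun z _ => g z)
  · intro z hz
    rw [mem_filter] at hz ⊢
    exact ⟨(hg z).mpr hz.1, (hR y z).mpr hz.2⟩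
  · intro z1 _ z2 _ h
    exact g.injective h
  · intro z hz
    rw [mem_filter] at hz
    refine ⟨g.symm z, ?_, g.apply_symm_apply z⟩
    rw [mem_filter]
    refine ⟨?_, ?_⟩
    · rw [← hg, g.apply_symm_apply]
      exact hz.1
    · rw [← hR, g.apply_symm_apply]
      exact hz.2

open Classical in
lemma sum_nb_inv {α β : Type} {A : Finset α} {R : α → β → Prop} {a : α → ℝ} (f : Equiv.Perm α)
    (g : Equiv.Perm β) (hf : ∀ y, f y ∈ A ↔ y ∈ A) (hR : ∀ y z, R (f y) (g z) ↔ R y z)
    (ha : ∀ y, a (f y) = a y) (z : β) :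
    ∑ y ∈ A.filter (fun y => R y (g z)), a y = ∑ y ∈ A.filter (fun y => R y z), a y := by
  symm
  apply Finset.sum_bij (fun y _ => f y)
  · intro y hy
    rw [mem_filter] at hy ⊢
    exact ⟨(hf y).mpr hy.1, (hR y z).mpr hy.2⟩
  · intro y1 _ y2 _ h
    exact f.injective h
  · intro y hy
    rw [mem_filter] at hy
    refine ⟨f.symm y, ?_, f.apply_symm_apply y⟩
    rw [mem_filter]
    refine ⟨?_, ?_⟩
    · rw [← hf, f.apply_symm_apply]
      exact hy.1
    · rw [← hR, f.apply_symm_apply]
      exact hy.2
  · intro y _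
    rw [ha]

open Classical in
/-- [DEL] canonical deletion process on a finite bipartite graph. -/
theorem deletion {α β : Type} (A : Finset α) (C : Finset β) (R : α → β → Prop)
    (a : α → ℝ) (ha : ∀ y, 0 ≤ a y) (M θ : ℝ) (hM : 0 ≤ M) (hθ : 0 ≤ θ) :
    ∃ (A0 : Finset α) (C0 : Finset β) (t1 : α → β → Prop), A0 ⊆ A ∧ C0 ⊆ C ∧
      (∀ y ∈ A0, M ≤ ((C0.filter (fun z => R y z)).card : ℝ)) ∧
      (∀ z ∈ C0, θ ≤ ∑ y ∈ A0.filter (fun y => R y z), a y) ∧
      (∀ y, ((C.filter (fun z => t1 y z)).card : ℝ) ≤ M) ∧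
      (∀ z, ∑ y ∈ A.filter (fun y => z ∈ C ∧ R y z ∧ ¬ t1 y z ∧ ¬ (y ∈ A0 ∧ z ∈ C0)), a y ≤ θ) ∧
      (∀ y z, t1 y z → y ∈ A ∧ z ∈ C ∧ R y z) ∧
      (∀ (f : Equiv.Perm α) (g : Equiv.Perm β), (∀ y, f y ∈ A ↔ y ∈ A) → (∀ z, g z ∈ C ↔ z ∈ C) →
        (∀ y z, R (f y) (g z) ↔ R y z) → (∀ y, a (f y) = a y) →
        (∀ y, f y ∈ A0 ↔ y ∈ A0) ∧ (∀ z, g z ∈ C0 ↔ z ∈ C0) ∧ (∀ y z, t1 (f y) (g z) ↔ t1 y z)) := by
  -- induction on the total size
  obtain ⟨n, hn⟩ : ∃ n, A.card + C.card ≤ n := ⟨_, le_rfl⟩
  induction n generalizing A C with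
  | zero =>
    have hA : A = ∅ := by
      rw [← Finset.card_eq_zero]; omega
    have hC : C = ∅ := by
      rw [← Finset.card_eq_zero]; omega
    subst hA
    subst hC
    refine ⟨∅, ∅, fun _ _ => False, Subset.rfl, Subset.rfl, ?_, ?_, ?_, ?_, ?_, ?_⟩
    · intro y hy; exact absurd hy (notMem_empty y)
    · intro z hz; exact absurd hz (notMem_empty z)
    · intro y; simpa using hM
    · intro z; simpa using hθ
    · intro y z h; exact h.elim
    · intro f g hf hg _ _
      exact ⟨hf, hg, fun _ _ => Iff.rfl⟩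
  | succ n ih =>
    by_cases h1 : ∃ y ∈ A, ((C.filter (fun z => R y z)).card : ℝ) < M
    · -- remove all bad `y`, all their incidences are of type 1
      obtain ⟨y0, hy0, hlt⟩ := h1
      obtain ⟨A', hA'⟩ : ∃ A' : Finset α, ∀ y, y ∈ A' ↔
        (y ∈ A ∧ M ≤ ((C.filter (fun z => R y z)).card : ℝ)) :=
        ⟨A.filter (fun y => M ≤ ((C.filter (fun z => R y z)).card : ℝ)), fun y => mem_filter⟩
      have hA'sub : A' ⊆ A := fun y hy => ((hA' y).mp hy).1
      have hA'lt : A'.card < A.card := by
        apply Finset.card_lt_card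
        refine ⟨hA'sub, fun h => ?_⟩
        exact absurd ((hA' y0).mp (h hy0)).2 (not_le.mpr hlt)
      obtain ⟨A0, C0, t1, hA0, hC0, hc1, hc2, ht1, ht2, ht3, hinv⟩ := ih A' C (by omega)
      obtain ⟨t, htdef⟩ : ∃ t : α → β → Prop, ∀ y z, t y z ↔
          ((y ∈ A ∧ y ∉ A' ∧ z ∈ C ∧ R y z) ∨ (y ∈ A' ∧ t1 y z)) := ⟨_, fun _ _ => Iff.rfl⟩
      refine ⟨A0, C0, t, hA0.trans hA'sub, hC0, hc1, hc2, ?_, ?_, ?_, ?_⟩
      · intro y
        by_cases hy : y ∈ A'
        · have : C.filter (fun z => t y z) = C.filter (fun z => t1 y z) := by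
            ext z
            simp only [mem_filter, htdef]
            tauto
          rw [this]
          exact ht1 y
        · by_cases hyA : y ∈ A
          · have : C.filter (fun z => t y z) = C.filter (fun z => R y z) := by
              ext z
              simp only [mem_filter, htdef]
              tauto
            rw [this]
            have hb : ¬ M ≤ ((C.filter (fun z => R y z)).card : ℝ) := fun h =>
              hy ((hA' y).mpr ⟨hyA, h⟩)
            exact (not_le.mp hb).le
          · have : C.filter (fun z => t y z) = ∅ := by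
              ext z
              simp only [mem_filter, htdef, notMem_empty]
              tauto
            rw [this]
            simpa using hM
      · intro z
        refine le_trans (Finset.sum_le_sum_of_subset_of_nonneg ?_ (fun y _ _ => ha y)) (ht2 z)
        intro y hy
        rw [mem_filter] at hy
        obtain ⟨hyA, hzC, hR, hnt, hnc⟩ := hy
        rw [htdef] at hnt
        rw [mem_filter]
        have hyA' : y ∈ A' := by
          by_contra h
          exact hnt (Or.inl ⟨hyA, h, hzC, hR⟩)
        exact ⟨hyA', hzC, hR, fun h => hnt (Or.inr ⟨hyA', h⟩), hnc⟩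
      · intro y z h
        rw [htdef] at h
        rcases h with ⟨h1, _, h2, h3⟩ | ⟨_, h2⟩
        · exact ⟨h1, h2, h3⟩
        · have := ht3 y z h2
          exact ⟨hA'sub this.1, this.2⟩
      · intro f g hf hg hR haf
        have hfA' : ∀ y, f y ∈ A' ↔ y ∈ A' := by
          intro y
          rw [hA', hA', hf, card_nb_inv f g hg hR y]
        obtain ⟨i1, i2, i3⟩ := hinv f g hfA' hg hR haf
        refine ⟨i1, i2, ?_⟩
        intro y z
        rw [htdef, htdef, hf, hfA', hg, hR, i3]
    · by_cases h2 : ∃ z ∈ C, ∑ y ∈ A.filter (fun y => R y z), a y < θ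
      · -- remove all bad `z`, all their incidences are of type 2
        obtain ⟨z0, hz0, hlt⟩ := h2
        obtain ⟨C', hC'⟩ : ∃ C' : Finset β, ∀ z, z ∈ C' ↔
          (z ∈ C ∧ θ ≤ ∑ y ∈ A.filter (fun y => R y z), a y) :=
          ⟨C.filter (fun z => θ ≤ ∑ y ∈ A.filter (fun y => R y z), a y), fun z => mem_filter⟩
        have hC'sub : C' ⊆ C := fun z hz => ((hC' z).mp hz).1
        have hC'lt : C'.card < C.card := by
          apply Finset.card_lt_card
          refine ⟨hC'sub, fun h => ?_⟩
          exact absurd ((hC' z0).mp (h hz0)).2 (not_le.mpr hlt)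
        obtain ⟨A0, C0, t1, hA0, hC0, hc1, hc2, ht1, ht2, ht3, hinv⟩ := ih A C' (by omega)
        refine ⟨A0, C0, t1, hA0, hC0.trans hC'sub, hc1, hc2, ?_, ?_, ?_, ?_⟩
        · intro y
          refine le_trans ?_ (ht1 y)
          have : C.filter (fun z => t1 y z) = C'.filter (fun z => t1 y z) := by
            ext z
            simp only [mem_filter]
            constructor
            · rintro ⟨hz, ht⟩
              exact ⟨(ht3 y z ht).2.1, ht⟩
            · rintro ⟨hz, ht⟩
              exact ⟨hC'sub hz, ht⟩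
          rw [this]
        · intro z
          by_cases hz : z ∈ C'
          · refine le_trans (Finset.sum_le_sum_of_subset_of_nonneg ?_ (fun y _ _ => ha y)) (ht2 z)
            intro y hy
            rw [mem_filter] at hy ⊢
            obtain ⟨hyA, hzC, hR, hnt, hnc⟩ := hy
            exact ⟨hyA, hz, hR, hnt, hnc⟩
          · by_cases hzC : z ∈ C
            · have hb : ¬ θ ≤ ∑ y ∈ A.filter (fun y => R y z), a y := fun h =>
                hz ((hC' z).mpr ⟨hzC, h⟩)
              refine le_trans (Finset.sum_le_sum_of_subset_of_nonneg ?_ (fun y _ _ => ha y))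
                (not_le.mp hb).le
              intro y hy
              rw [mem_filter] at hy ⊢
              exact ⟨hy.1, hy.2.2.1⟩
            · have : A.filter (fun y => z ∈ C ∧ R y z ∧ ¬ t1 y z ∧ ¬ (y ∈ A0 ∧ z ∈ C0)) = ∅ := by
                ext y
                simp only [mem_filter, notMem_empty, iff_false]
                tauto
              rw [this]
              simpa using hθ
        · intro y z h
          have := ht3 y z h
          exact ⟨this.1, hC'sub this.2.1, this.2.2⟩
        · intro f g hf hg hR haf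
          have hgC' : ∀ z, g z ∈ C' ↔ z ∈ C' := by
            intro z
            rw [hC', hC', hg, sum_nb_inv f g hf hR haf z]
          exact hinv f g hf hgC' hR haf
      · -- core
        push Not at h1 h2
        obtain ⟨t, htdef⟩ : ∃ t : α → β → Prop, ∀ y z, ¬ t y z :=
          ⟨fun _ _ => False, fun _ _ h => h⟩
        refine ⟨A, C, t, Subset.rfl, Subset.rfl, h1, h2, ?_, ?_, ?_, ?_⟩
        · intro y
          have : C.filter (fun z => t y z) = ∅ := by
            ext z
            simp only [mem_filter, notMem_empty, iff_false, htdef]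
            tauto
          rw [this]
          simpa using hM
        · intro z
          have : A.filter (fun y => z ∈ C ∧ R y z ∧ ¬ t y z ∧ ¬ (y ∈ A ∧ z ∈ C)) = ∅ := by
            ext y
            simp only [mem_filter, notMem_empty, iff_false]
            tauto
          rw [this]
          simpa using hθ
        · intro y z h
          exact absurd h (htdef y z)
        · intro f g hf hg _ _
          refine ⟨hf, hg, fun y z => ?_⟩
          exact ⟨fun h => absurd h (htdef _ _), fun h => absurd h (htdef _ _)⟩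

end TAL
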