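import Vale.Agent.P034F.Base

/-!
# The down move
-/

namespace TAL
open Finset

variable {X : Type} [Fintype X] [DecidableEq X]

omit [Fintype X] [DecidableEq X] in
theorem act_inv_act_dwn (σ : Equiv.Perm X) (Y : Finset X) : act σ⁻¹ (act σ Y) = Y := by
  unfold act
  rw [map_map]
  ext y
  simp

/-- [DWN] down move: the claim for larger `K''` covers all `T` with many members of `Zs`.
`b = 1/N` on `Zs`, `N = ν_j^(8x)`, `K'' = ν_j^4 B^2 e^(s/x) ≥ B^6`. -/
theorem down_move (Γ : Subgroup (Equiv.Perm X)) (B q s : ℝ) (hB : Real.exp 100 ≤ B) (hq : 0 < q)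
    (hs : 0 ≤ s)
    (hcl : ∀ K'' : ℝ, B ^ 6 ≤ K'' → Claim Γ q K'') (x j : ℕ) (hx : 1 ≤ x)
    (Zs : Finset (Finset X)) (hZ : ∀ Z ∈ Zs, Z.card = x) (hinv : InvF Γ Zs)
    (hcard : ((Zs.card : ℝ)) * (B ^ 2 * q) ^ x ≤ Real.exp (-s) * (nu B (j + 1)) ^ (2 * x)) :
    ∃ G : Finset (Finset X), InvF Γ G ∧ cost q G ≤ Real.exp (-s / 40) ∧
      ∀ T : Finset X, (nu B j) ^ (8 * x) ≤ ((Zs.filter (fun Z => Z ⊆ T)).card : ℝ) → Cov G T := by
  classical
  have hB1 : 1 ≤ B := le_trans (Real.one_le_exp (by norm_num)) hB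
  have hB0 : 0 < B := by linarith
  have hxR : (0 : ℝ) < x := by exact_mod_cast hx
  have hnu : B ≤ nu B j := by
    unfold nu
    exact le_self_pow₀ hB1 (by positivity)
  have hnu0 : 0 < nu B j := by linarith
  have hnu2 : nu B (j + 1) = nu B j ^ 2 := by
    unfold nu
    rw [pow_succ 2 j, pow_mul]
  have hN0 : 0 < (nu B j) ^ (8 * x) := by positivity
  set N : ℝ := (nu B j) ^ (8 * x) with hN
  set K : ℝ := B ^ 6 * Real.exp (s / x) with hK
  have hKge : B ^ 6 ≤ K := by
    have h1 : 1 ≤ Real.exp (s / x) := Real.one_le_exp (by positivity)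
    have h2 : 0 < B ^ 6 := by positivity
    nlinarith
  have hK0 : 0 < K := lt_of_lt_of_le (by positivity) hKge
  have hKx : K ^ x = B ^ (6 * x) * Real.exp s := by
    rw [hK, mul_pow, ← pow_mul, ← Real.exp_nat_mul]
    congr 2
    field_simp
  let w : Finset X → ℝ := fun Z => if Z ∈ Zs then 1 / N else 0
  have hw0 : ∀ S, 0 ≤ w S := by
    intro S
    simp only [w]
    split_ifs
    · positivity
    · exact le_rfl
  have hwc : ∀ S, w S ≠ 0 → S.card = x := by
    intro S hS
    by_cases h : S ∈ Zs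
    · exact hZ S h
    · exact absurd (by simp [w, h]) hS
  have hwinv : InvW Γ w := by
    intro σ hσ Y
    have h1 : act σ Y ∈ Zs ↔ Y ∈ Zs := by
      constructor
      · intro h
        have h2 := hinv σ⁻¹ (Γ.inv_mem hσ) _ h
        rwa [act_inv_act_dwn] at h2
      · exact fun h => hinv σ hσ Y h
    simp only [w, h1]
  have htot : tot w = Zs.card / N := by
    unfold tot
    simp only [w]
    rw [sum_ite_mem, univ_inter, sum_const, nsmul_eq_mul]
    ring
  have h1 : tot w * (K * q) ^ x ≤ 1 := by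
    rw [htot, mul_pow, hKx, div_mul_eq_mul_div, div_le_one hN0]
    have h2 : (Zs.card : ℝ) * (B ^ (6 * x) * Real.exp s * q ^ x)
        = (Zs.card : ℝ) * (B ^ 2 * q) ^ x * (B ^ (4 * x) * Real.exp s) := by
      rw [mul_pow, ← pow_mul]
      have : B ^ (6 * x) = B ^ (2 * x) * B ^ (4 * x) := by rw [← pow_add]; congr 1; ring
      rw [this]
      ring
    rw [h2]
    have h3 : (Zs.card : ℝ) * (B ^ 2 * q) ^ x * (B ^ (4 * x) * Real.exp s)
        ≤ Real.exp (-s) * (nu B (j + 1)) ^ (2 * x) * (B ^ (4 * x) * Real.exp s) :=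
      mul_le_mul_of_nonneg_right hcard (by positivity)
    refine h3.trans ?_
    have h4 : Real.exp (-s) * (nu B (j + 1)) ^ (2 * x) * (B ^ (4 * x) * Real.exp s)
        = (nu B j) ^ (4 * x) * B ^ (4 * x) := by
      have h5 : Real.exp (-s) * Real.exp s = 1 := by rw [← Real.exp_add]; simp
      have h6 : (nu B (j + 1)) ^ (2 * x) = (nu B j) ^ (4 * x) := by
        rw [hnu2, ← pow_mul]; congr 1; ring
      rw [h6]
      calc Real.exp (-s) * (nu B j) ^ (4 * x) * (B ^ (4 * x) * Real.exp s)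
          = (Real.exp (-s) * Real.exp s) * ((nu B j) ^ (4 * x) * B ^ (4 * x)) := by ring
        _ = _ := by rw [h5, one_mul]
    rw [h4, hN]
    have h7 : B ^ (4 * x) ≤ (nu B j) ^ (4 * x) := pow_le_pow_left₀ hB0.le hnu _
    have h8 : (nu B j) ^ (8 * x) = (nu B j) ^ (4 * x) * (nu B j) ^ (4 * x) := by
      rw [← pow_add]; congr 1; ring
    rw [h8]
    exact mul_le_mul_of_nonneg_left h7 (by positivity)
  obtain ⟨G, hGinv, hG, hcov⟩ := hcl K hKge x w hx hw0 hwc hwinv h1
  refine ⟨G, hGinv, hG.trans ?_, fun T hT => hcov T ?_⟩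
  · rw [Real.rpow_def_of_pos hK0]
    refine Real.exp_le_exp.mpr ?_
    have h9 : Real.log K = 6 * Real.log B + s / x := by
      rw [hK, Real.log_mul (by positivity) (Real.exp_pos _).ne', Real.log_pow, Real.log_exp]
      norm_num
    rw [h9]
    have h10 : 0 ≤ Real.log B := Real.log_nonneg hB1
    have h11 : (6 * Real.log B + s / x) * -((x : ℝ) / 40)
        = -s / 40 - 6 * Real.log B * (x / 40) := by
      field_simp
      ring
    rw [h11]
    have : 0 ≤ 6 * Real.log B * ((x : ℝ) / 40) := by positivity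
    linarith
  · unfold ins
    simp only [w]
    have h12 : ∑ Y ∈ T.powerset, (if Y ∈ Zs then 1 / N else 0)
        = ((Zs.filter (fun Z => Z ⊆ T)).card : ℝ) / N := by
      rw [sum_ite_mem, sum_const, nsmul_eq_mul]
      have : T.powerset ∩ Zs = Zs.filter (fun Z => Z ⊆ T) := by
        ext Z
        simp only [mem_inter, mem_powerset, mem_filter]
        tauto
      rw [this]
      ring
    rw [h12, one_le_div hN0]
    exact hT

end TAL
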