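import Vale.Agent.P034F.Base

/-! # P034 / P064: greedy extraction of exceptional orbits (piece EXC) -/

namespace TALExc

open Finset TAL

variable {X : Type} [Fintype X] [DecidableEq X]

theorem kill_nonneg (G : Finset (Finset X)) (a : Finset X → ℝ) (ha : ∀ Y, 0 ≤ a Y) (Y : Finset X) :
    0 ≤ kill G a Y := by
  unfold kill
  split_ifs
  · exact le_rfl
  · exact ha Y

theorem kill_le (G : Finset (Finset X)) (a : Finset X → ℝ) (ha : ∀ Y, 0 ≤ a Y) (Y : Finset X) :
    kill G a Y ≤ a Y := by
  unfold kill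
  split_ifs
  · exact ha Y
  · exact le_rfl

theorem actE_one (Y : Finset X) : act (1 : Equiv.Perm X) Y = Y := by
  unfold act
  ext x
  rw [mem_map]
  constructor
  · rintro ⟨y, hy, rfl⟩
    exact hy
  · intro hx
    exact ⟨x, hx, rfl⟩

theorem actE_mul (g h : Equiv.Perm X) (Y : Finset X) : act (g * h) Y = act g (act h Y) := by
  unfold act
  rw [map_map]
  congr 1

theorem actE_inv_act (g : Equiv.Perm X) (Y : Finset X) : act g⁻¹ (act g Y) = Y := by
  rw [← actE_mul, inv_mul_cancel, actE_one]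

theorem actE_act_inv (g : Equiv.Perm X) (Y : Finset X) : act g (act g⁻¹ Y) = Y := by
  rw [← actE_mul, mul_inv_cancel, actE_one]

theorem actE_sub (g : Equiv.Perm X) {Y Z : Finset X} : act g Z ⊆ act g Y ↔ Z ⊆ Y := by
  unfold act
  exact map_subset_map

theorem actE_card (g : Equiv.Perm X) (Y : Finset X) : (act g Y).card = Y.card := card_map _

/-- the action as a permutation of the sets -/
def actE (g : Equiv.Perm X) : Equiv.Perm (Finset X) where
  toFun := act g
  invFun := act g⁻¹
  left_inv := actE_inv_act g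
  right_inv := actE_act_inv g

open Classical in
/-- the orbit of a set -/
noncomputable def orb (Γ : Subgroup (Equiv.Perm X)) (Z : Finset X) : Finset (Finset X) :=
  univ.filter (fun W => ∃ g ∈ Γ, act g Z = W)

theorem mem_orb {Γ : Subgroup (Equiv.Perm X)} {Z W : Finset X} :
    W ∈ orb Γ Z ↔ ∃ g ∈ Γ, act g Z = W := by
  unfold orb
  simp

theorem self_mem_orb (Γ : Subgroup (Equiv.Perm X)) (Z : Finset X) : Z ∈ orb Γ Z :=
  mem_orb.2 ⟨1, Γ.one_mem, actE_one Z⟩

theorem orb_card_pos (Γ : Subgroup (Equiv.Perm X)) (Z : Finset X) : 0 < (orb Γ Z).card :=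
  card_pos.2 ⟨Z, self_mem_orb Γ Z⟩

theorem orb_mem_card {Γ : Subgroup (Equiv.Perm X)} {Z W : Finset X} (h : W ∈ orb Γ Z) :
    W.card = Z.card := by
  obtain ⟨g, _, rfl⟩ := mem_orb.1 h
  exact actE_card g Z

theorem orb_inv (Γ : Subgroup (Equiv.Perm X)) (Z : Finset X) : InvF Γ (orb Γ Z) := by
  intro g hg S hS
  obtain ⟨h, hh, rfl⟩ := mem_orb.1 hS
  exact mem_orb.2 ⟨g * h, Γ.mul_mem hg hh, actE_mul g h Z⟩

theorem orb_sub {Γ : Subgroup (Equiv.Perm X)} {G : Finset (Finset X)} (hG : InvF Γ G)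
    {Z W : Finset X} (hW : W ∈ orb Γ Z) (hWG : W ∈ G) : orb Γ Z ⊆ G := by
  intro V hV
  obtain ⟨g, hg, rfl⟩ := mem_orb.1 hW
  obtain ⟨h, hh, rfl⟩ := mem_orb.1 hV
  have := hG (h * g⁻¹) (Γ.mul_mem hh (Γ.inv_mem hg)) _ hWG
  rwa [actE_mul, actE_inv_act] at this

theorem kill_inv {Γ : Subgroup (Equiv.Perm X)} {G : Finset (Finset X)} (hG : InvF Γ G)
    {a : Finset X → ℝ} (ha : InvW Γ a) : InvW Γ (kill G a) := by
  classical
  intro g hg Y
  unfold kill
  have h : Cov G (act g Y) ↔ Cov G Y := by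
    constructor
    · rintro ⟨Z, hZ, hZY⟩
      refine ⟨act g⁻¹ Z, hG _ (Γ.inv_mem hg) _ hZ, ?_⟩
      rw [← actE_inv_act g Y]
      exact (actE_sub g⁻¹).2 hZY
    · rintro ⟨Z, hZ, hZY⟩
      exact ⟨act g Z, hG _ hg _ hZ, (actE_sub g).2 hZY⟩
  by_cases h1 : Cov G Y
  · rw [if_pos h1, if_pos (h.2 h1)]
  · rw [if_neg h1, if_neg (fun h2 => h1 (h.1 h2)), ha g hg Y]

theorem kill_union (G O : Finset (Finset X)) (a : Finset X → ℝ) (Y : Finset X)
    [Decidable (Cov O Y)] : kill (G ∪ O) a Y = if Cov O Y then 0 else kill G a Y := by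
  classical
  by_cases h1 : Cov O Y
  · rw [if_pos h1]
    unfold kill
    rw [if_pos]
    obtain ⟨Z, hZ, hZY⟩ := h1
    exact ⟨Z, mem_union_right _ hZ, hZY⟩
  · rw [if_neg h1]
    unfold kill
    by_cases h2 : Cov G Y
    · rw [if_pos h2, if_pos]
      obtain ⟨W, hW, hWY⟩ := h2
      exact ⟨W, mem_union_left _ hW, hWY⟩
    · rw [if_neg h2, if_neg]
      rintro ⟨W, hW, hWY⟩
      rcases mem_union.1 hW with h3 | h3
      · exact h2 ⟨W, h3, hWY⟩
      · exact h1 ⟨W, h3, hWY⟩

open Classical in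
/-- weight of the sets containing some member of the orbit of `Z` -/
noncomputable def degO (Γ : Subgroup (Equiv.Perm X)) (a : Finset X → ℝ) (Z : Finset X) : ℝ :=
  ∑ Y ∈ univ.filter (fun Y => Cov (orb Γ Z) Y), a Y

/-- extraction of exceptional orbits. -/
theorem exc_orb (Γ : Subgroup (Equiv.Perm X)) (q θ : ℝ) (hq : 0 < q) (hθ : 0 < θ)
    (a : Finset X → ℝ) (ha : ∀ Y, 0 ≤ a Y) :
    ∃ G : Finset (Finset X), InvF Γ G ∧ cost q G * θ ≤ tot a ∧
      ∀ Z : Finset X, Z.Nonempty →
        degO Γ (kill G a) Z ≤ θ * q ^ Z.card * (orb Γ Z).card := by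
  classical
  let P : Finset (Finset (Finset X)) :=
    univ.filter (fun G => InvF Γ G ∧ cost q G * θ + tot (kill G a) ≤ tot a)
  have hne : P.Nonempty := by
    refine ⟨∅, ?_⟩
    rw [mem_filter]
    refine ⟨mem_univ _, ?_, ?_⟩
    · intro g _ S hS
      simp at hS
    · have h1 : kill (∅ : Finset (Finset X)) a = a := by
        funext Y
        unfold kill Cov
        simp
      rw [h1]
      simp [cost]
  obtain ⟨G, hG, hmax⟩ := exists_max_image P (fun G => G.card) hne
  obtain ⟨hGi, hG'⟩ : InvF Γ G ∧ cost q G * θ + tot (kill G a) ≤ tot a := (mem_filter.1 hG).2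
  refine ⟨G, hGi, ?_, ?_⟩
  · have h0 : 0 ≤ tot (kill G a) := sum_nonneg fun Y _ => kill_nonneg G a ha Y
    linarith
  · intro Z _
    by_contra hc
    have hc := not_le.1 hc
    have hO : (0 : ℝ) < (orb Γ Z).card := by exact_mod_cast orb_card_pos Γ Z
    have hdisj : Disjoint G (orb Γ Z) := by
      rw [Finset.disjoint_left]
      intro W hW hWO
      have hsub := orb_sub hGi hWO hW
      have h0 : degO Γ (kill G a) Z = 0 := by
        unfold degO
        refine sum_eq_zero fun Y hY => ?_
        obtain ⟨V, hV, hVY⟩ := (mem_filter.1 hY).2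
        unfold kill
        rw [if_pos]
        exact ⟨V, hsub hV, hVY⟩
      rw [h0] at hc
      have : 0 < θ * q ^ Z.card * (orb Γ Z).card := by positivity
      linarith
    have h2 : G ∪ orb Γ Z ∈ P := by
      rw [mem_filter]
      refine ⟨mem_univ _, ?_, ?_⟩
      · intro g hg S hS
        rcases mem_union.1 hS with h | h
        · exact mem_union_left _ (hGi g hg S h)
        · exact mem_union_right _ (orb_inv Γ Z g hg S h)
      · have h3 : tot (kill (G ∪ orb Γ Z) a) + degO Γ (kill G a) Z = tot (kill G a) := by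
          unfold tot degO
          rw [sum_filter, ← sum_add_distrib]
          refine sum_congr rfl fun Y _ => ?_
          rw [kill_union]
          by_cases h : Cov (orb Γ Z) Y
          · simp only [h, if_true, zero_add]
          · simp only [h, if_false, add_zero]
        have h4 : cost q (G ∪ orb Γ Z) = cost q G + (orb Γ Z).card * q ^ Z.card := by
          unfold cost
          rw [sum_union hdisj]
          congr 1
          rw [sum_congr rfl (fun W hW => by rw [orb_mem_card hW]), sum_const, nsmul_eq_mul]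
        rw [h4]
        nlinarith
    have h5 := hmax _ h2
    rw [card_union_of_disjoint hdisj] at h5
    have := orb_card_pos Γ Z
    omega

open Classical in
/-- mass of an invariant relation with bounded degree. -/
theorem mass_rel (Γ : Subgroup (Equiv.Perm X)) (q θ M : ℝ) (a : Finset X → ℝ)
    (ha : ∀ Y, 0 ≤ a Y) (hai : InvW Γ a) (hM : 0 ≤ M) (R : Finset X → Finset X → Prop)
    (hR : InvR Γ R) (hsub : ∀ Y Z, R Y Z → Z ⊆ Y) (Z : Finset X)
    (hdeg : degO Γ a Z ≤ θ * q ^ Z.card * (orb Γ Z).card)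
    (hcnt : ∀ Y, ((univ.filter (fun Z => R Y Z)).card : ℝ) ≤ M) :
    ∑ Y ∈ univ.filter (fun Y => R Y Z), a Y ≤ M * (θ * q ^ Z.card) := by
  have hO : (0 : ℝ) < (orb Γ Z).card := by exact_mod_cast orb_card_pos Γ Z
  -- all members of the orbit have the same mass
  have hsame : ∀ W ∈ orb Γ Z, ∑ Y ∈ univ.filter (fun Y => R Y W), a Y =
      ∑ Y ∈ univ.filter (fun Y => R Y Z), a Y := by
    intro W hW
    obtain ⟨g, hg, rfl⟩ := mem_orb.1 hW
    rw [sum_filter, sum_filter]
    rw [← Equiv.sum_comp (actE g) (fun Y => if R Y (act g Z) then a Y else 0)]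
    refine sum_congr rfl fun Y _ => ?_
    have h1 : R (act g Y) (act g Z) ↔ R Y Z := by
      constructor
      · intro h
        have := hR g⁻¹ (Γ.inv_mem hg) _ _ h
        rwa [actE_inv_act, actE_inv_act] at this
      · exact hR g hg Y Z
    change (if R (act g Y) (act g Z) then a (act g Y) else 0) = _
    by_cases h : R Y Z
    · rw [if_pos h, if_pos (h1.2 h), hai g hg Y]
    · rw [if_neg h, if_neg (fun h' => h (h1.1 h'))]
  have h1 : ((orb Γ Z).card : ℝ) * ∑ Y ∈ univ.filter (fun Y => R Y Z), a Y ≤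
      M * (θ * q ^ Z.card * (orb Γ Z).card) := by
    calc ((orb Γ Z).card : ℝ) * ∑ Y ∈ univ.filter (fun Y => R Y Z), a Y
        = ∑ W ∈ orb Γ Z, ∑ Y ∈ univ.filter (fun Y => R Y W), a Y := by
          rw [sum_congr rfl hsame, sum_const, nsmul_eq_mul]
      _ = ∑ W ∈ orb Γ Z, ∑ Y, if R Y W then a Y else 0 := by
          refine sum_congr rfl fun W _ => ?_
          rw [sum_filter]
      _ = ∑ Y, ∑ W ∈ orb Γ Z, if R Y W then a Y else 0 := sum_comm
      _ ≤ ∑ Y, if Cov (orb Γ Z) Y then M * a Y else 0 := by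
          refine sum_le_sum fun Y _ => ?_
          by_cases hC : Cov (orb Γ Z) Y
          · rw [if_pos hC, ← sum_filter, sum_const, nsmul_eq_mul]
            refine mul_le_mul_of_nonneg_right ?_ (ha Y)
            refine le_trans ?_ (hcnt Y)
            have : (orb Γ Z).filter (fun W => R Y W) ⊆ univ.filter (fun Z => R Y Z) := by
              intro W hW
              rw [mem_filter] at hW ⊢
              exact ⟨mem_univ _, hW.2⟩
            exact_mod_cast card_le_card this
          · rw [if_neg hC]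
            refine (sum_eq_zero fun W hW => ?_).le
            rw [if_neg]
            intro h
            exact hC ⟨W, hW, hsub Y W h⟩
      _ = M * degO Γ a Z := by
          unfold degO
          rw [sum_filter, mul_sum]
          refine sum_congr rfl fun Y _ => ?_
          by_cases hC : Cov (orb Γ Z) Y
          · simp only [hC, if_true]
          · simp only [hC, if_false, mul_zero]
      _ ≤ M * (θ * q ^ Z.card * (orb Γ Z).card) := mul_le_mul_of_nonneg_left hdeg hM
  have h2 : M * (θ * q ^ Z.card * (orb Γ Z).card) = (orb Γ Z).card * (M * (θ * q ^ Z.card)) := by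
    ring
  rw [h2] at h1
  exact le_of_mul_le_mul_left h1 hO

end TALExc

namespace TAL

open Finset TALExc

variable {X : Type} [Fintype X] [DecidableEq X]

/-- [EXC] greedy extraction of exceptional orbits. -/
theorem exc (Γ : Subgroup (Equiv.Perm X)) (q θ : ℝ) (hq : 0 < q) (hθ : 0 < θ) (a : Finset X → ℝ)
    (ha : ∀ Y, 0 ≤ a Y) (hinv : InvW Γ a) (htot : tot a ≤ θ) :
    ∃ G : Finset (Finset X), InvF Γ G ∧ cost q G * θ ≤ tot a ∧ Spr Γ (kill G a) θ q := by
  classical
  obtain ⟨G, hG, hcost, hdeg⟩ := exc_orb Γ q θ hq hθ a ha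
  refine ⟨G, hG, hcost, ?_⟩
  intro M R hR hsub hcnt Z
  have hM : 0 ≤ M := le_trans (by positivity) (hcnt ∅)
  rcases Finset.eq_empty_or_nonempty Z with hZ | hZ
  · subst hZ
    by_cases hex : ∃ Y, R Y ∅
    · obtain ⟨Y0, hY0⟩ := hex
      have h1 : (1 : ℝ) ≤ M := by
        refine le_trans ?_ (hcnt Y0)
        have : 0 < (univ.filter (fun Z => R Y0 Z)).card :=
          card_pos.2 ⟨∅, mem_filter.2 ⟨mem_univ _, hY0⟩⟩
        exact_mod_cast this
      calc _ ≤ tot (kill G a) := by
            unfold tot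
            exact sum_le_sum_of_subset_of_nonneg (filter_subset _ _)
              (fun Y _ _ => kill_nonneg G a ha Y)
        _ ≤ tot a := sum_le_sum fun Y _ => kill_le G a ha Y
        _ ≤ θ := htot
        _ ≤ M * (θ * q ^ (∅ : Finset X).card) := by
            rw [card_empty, pow_zero, mul_one]
            nlinarith
    · have h2 : (univ.filter (fun Y => R Y ∅) : Finset (Finset X)) = ∅ := by
        rw [Finset.filter_eq_empty_iff]
        intro Y _ hY
        exact hex ⟨Y, hY⟩
      rw [h2, sum_empty]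
      positivity
  · exact mass_rel Γ q θ M (kill G a) (kill_nonneg G a ha) (kill_inv hG hinv) hM R hR hsub Z
      (hdeg Z hZ) hcnt


end TAL
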