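import Vale.Agent.P034F.Statement

/-! # P034: from the homogeneous claim to the theorem -/

namespace ExpThr

open Finset

/-- The homogeneous claim. -/
def Claim (K0 : ℝ) : Prop :=
  ∀ (K : ℝ), K0 ≤ K → ∀ (X : Type) [Fintype X] [DecidableEq X] (k : ℕ), 1 ≤ k →
    ∀ q : ℝ, 0 < q → ∀ w : Finset X → ℝ, (∀ S, 0 ≤ w S) → (∀ S, w S ≠ 0 → S.card = k) →
    ∑ S, w S ≤ ((K * q) ^ k)⁻¹ →
    ∃ G : Finset (Finset X), (∀ T : Finset X, 1 ≤ ∑ S ∈ T.powerset, w S → ∃ S ∈ G, S ⊆ T) ∧
      ∑ S ∈ G, q ^ S.card ≤ K ^ (-(k : ℝ) / 40)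

variable {X : Type} [Fintype X] [DecidableEq X]

theorem zero_mem_smallSet {F : Set (Finset X)} (hF : IsFamily F) : (0 : ℝ) ∈ smallSet F := by
  classical
  refine ⟨le_refl _, zero_le_one, Finset.univ.filter (fun S => S ≠ ∅), ?_, ?_⟩
  · intro H hH
    refine ⟨H, ?_, subset_refl _⟩
    simp only [Finset.mem_filter, Finset.mem_univ, true_and]
    intro h
    exact hF.proper (h ▸ hH)
  · unfold cost
    rw [Finset.sum_eq_zero]
    · norm_num
    · intro S hS
      simp only [Finset.mem_filter, Finset.mem_univ, true_and] at hS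
      exact zero_pow (by rw [Finset.card_ne_zero]; exact Finset.nonempty_iff_ne_empty.2 hS)

theorem smallSet_bdd (F : Set (Finset X)) : BddAbove (smallSet F) :=
  ⟨1, fun _ hp => hp.2.1⟩

theorem le_q {F : Set (Finset X)} {p : ℝ} (hp : p ∈ smallSet F) : p ≤ q F :=
  le_csSup (smallSet_bdd F) hp

/-- A nonnegative sequence summing to at least `1/2` exceeds `2^(-k-1)` somewhere. -/
theorem exists_level {n : ℕ} {a : ℕ → ℝ} (h : 1 / 2 ≤ ∑ k ∈ Finset.range n, a k) :
    ∃ k, k < n ∧ (1 / 2 : ℝ) ^ (k + 2) ≤ a k := by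
  by_contra hcon
  push Not at hcon
  rcases Nat.eq_zero_or_pos n with h0 | h0
  · subst h0
    norm_num at h
  have h1 : ∑ k ∈ Finset.range n, a k < ∑ k ∈ Finset.range n, (1 / 2 : ℝ) ^ (k + 2) := by
    refine Finset.sum_lt_sum_of_nonempty ⟨0, Finset.mem_range.2 h0⟩ ?_
    intro k hk
    exact hcon k (Finset.mem_range.1 hk)
  have h2 : ∑ k ∈ Finset.range n, (1 / 2 : ℝ) ^ (k + 2) ≤ 1 / 2 := by
    have h3 : ∀ m : ℕ, ∑ k ∈ Finset.range m, (1 / 2 : ℝ) ^ (k + 2) = 1 / 2 - (1 / 2) ^ (m + 1) := by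
      intro m
      induction m with
      | zero => norm_num
      | succ m ih =>
        rw [Finset.sum_range_succ, ih]
        ring
    rw [h3]
    have : (0 : ℝ) < (1 / 2) ^ (n + 1) := by positivity
    linarith
  linarith

theorem sum_biUnion_le_aux {ι α : Type} [DecidableEq ι] [DecidableEq α] (s : Finset ι)
    (t : ι → Finset α) {f : α → ℝ} (hf : ∀ x, 0 ≤ f x) :
    ∑ x ∈ s.biUnion t, f x ≤ ∑ i ∈ s, ∑ x ∈ t i, f x := by
  induction s using Finset.induction_on with
  | empty => simp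
  | insert a s ha ih =>
    rw [Finset.biUnion_insert, Finset.sum_insert ha]
    have h1 := Finset.sum_union_inter (s₁ := t a) (s₂ := s.biUnion t) (f := f)
    have h2 : 0 ≤ ∑ x ∈ t a ∩ s.biUnion t, f x := Finset.sum_nonneg fun x _ => hf x
    linarith

/-- From the homogeneous claim to the comparison of the thresholds. -/
theorem frac_le {K0 : ℝ} (hK : Claim K0) {K : ℝ} (hK0 : K0 ≤ K) (hK3 : (3 : ℝ) ^ 40 ≤ K)
    {F : Set (Finset X)} (hF : IsFamily F) {p : ℝ} (hp : p ∈ fracSmallSet F) :
    p ≤ 2 * K * q F := by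
  classical
  obtain ⟨hp0, hp1, g, ⟨hg, hcov⟩, hcost⟩ := hp
  have hKpos : 0 < K := lt_of_lt_of_le (by positivity) hK3
  have hq0 : 0 ≤ q F := le_q (zero_mem_smallSet hF)
  rcases hp0.eq_or_lt with h0 | h0
  · rw [← h0]
    positivity
  set r : ℝ := p / (2 * K) with hr
  have hr0 : 0 < r := by positivity
  have hr1 : r ≤ 1 := by
    rw [hr, div_le_one (by positivity)]
    have : (1 : ℝ) ≤ K := le_trans (by norm_num) hK3
    linarith
  suffices h : r ∈ smallSet F by
    have h1 := le_q h
    rw [hr, div_le_iff₀ (by positivity)] at h1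
    linarith
  -- the weights
  set w : ℕ → Finset X → ℝ := fun k S => if S.card = k then 2 ^ (k + 1) * g S else 0 with hw
  have hempty : g ∅ ≤ 1 / 2 := by
    have h1 : g ∅ * p ^ (∅ : Finset X).card ≤ fracCost g p := by
      unfold fracCost
      exact Finset.single_le_sum (f := fun S : Finset X => g S * p ^ S.card)
        (fun S _ => mul_nonneg (hg S).1 (pow_nonneg hp0 _)) (Finset.mem_univ _)
    simp only [Finset.card_empty, pow_zero, mul_one] at h1
    linarith
  have hex : ∀ k : ℕ, 1 ≤ k → ∃ G : Finset (Finset X),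
      (∀ T : Finset X, 1 ≤ ∑ S ∈ T.powerset, w k S → ∃ S ∈ G, S ⊆ T) ∧
      ∑ S ∈ G, r ^ S.card ≤ K ^ (-(k : ℝ) / 40) := by
    intro k hk
    refine hK K hK0 X k hk r hr0 (w k) ?_ ?_ ?_
    · intro S
      simp only [hw]
      split_ifs
      · exact mul_nonneg (by positivity) (hg S).1
      · exact le_refl _
    · intro S hS
      simp only [hw] at hS
      by_contra h
      exact hS (if_neg h)
    · have h1 : K * r = p / 2 := by
        rw [hr]
        field_simp
      rw [h1]
      have h2 : ∀ S : Finset X, w k S ≤ 2 ^ (k + 1) * (g S * p ^ S.card) * (p ^ k)⁻¹ := by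
        intro S
        simp only [hw]
        split_ifs with h
        · rw [h]
          have : p ^ k ≠ 0 := by positivity
          rw [mul_assoc, mul_assoc, mul_inv_cancel₀ this, mul_one]
        · have := (hg S).1
          positivity
      calc ∑ S, w k S ≤ ∑ S : Finset X, 2 ^ (k + 1) * (g S * p ^ S.card) * (p ^ k)⁻¹ :=
            Finset.sum_le_sum fun S _ => h2 S
        _ = 2 ^ (k + 1) * fracCost g p * (p ^ k)⁻¹ := by
            rw [← Finset.sum_mul, ← Finset.mul_sum]
            rfl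
        _ ≤ 2 ^ (k + 1) * (1 / 2) * (p ^ k)⁻¹ := by
            gcongr
        _ = ((p / 2) ^ k)⁻¹ := by
            rw [div_pow, inv_div, pow_succ]
            field_simp
  choose! G hG1 hG2 using hex
  set n := Fintype.card X with hn
  refine ⟨hr0.le, hr1, (Finset.range n).biUnion (fun k => G (k + 1)), ?_, ?_⟩
  · intro H hH
    have h1 := hcov H hH
    -- split off the empty set and group by size
    have h2 : ∑ S ∈ H.powerset, g S =
        g ∅ + ∑ k ∈ Finset.range n, ∑ S ∈ H.powerset.filter (fun S => S.card = k + 1), g S := by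
      have h3 : ∑ S ∈ H.powerset, g S = ∑ k ∈ Finset.range (n + 1),
          ∑ S ∈ H.powerset.filter (fun S => S.card = k), g S := by
        rw [Finset.sum_fiberwise_of_maps_to]
        intro S _
        rw [Finset.mem_range]
        exact Nat.lt_succ_of_le (Finset.card_le_univ S)
      rw [h3, Finset.sum_range_succ', add_comm]
      congr 1
      have h4 : H.powerset.filter (fun S => S.card = 0) = {∅} := by
        ext S
        simp only [Finset.mem_filter, Finset.mem_powerset, Finset.card_eq_zero,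
          Finset.mem_singleton]
        constructor
        · exact fun h => h.2
        · rintro rfl
          exact ⟨Finset.empty_subset _, rfl⟩
      rw [h4, Finset.sum_singleton]
    have h3 : 1 / 2 ≤ ∑ k ∈ Finset.range n,
        ∑ S ∈ H.powerset.filter (fun S => S.card = k + 1), g S := by linarith
    obtain ⟨k, hk, hk2⟩ := exists_level h3
    have h4 : 1 ≤ ∑ S ∈ H.powerset, w (k + 1) S := by
      have h5 : ∑ S ∈ H.powerset, w (k + 1) S =
          2 ^ (k + 2) * ∑ S ∈ H.powerset.filter (fun S => S.card = k + 1), g S := by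
        rw [Finset.mul_sum, Finset.sum_filter]
      rw [h5]
      calc (1 : ℝ) = 2 ^ (k + 2) * (1 / 2) ^ (k + 2) := by
            rw [← mul_pow]
            norm_num
        _ ≤ _ := by gcongr
    obtain ⟨S, hS, hSH⟩ := hG1 (k + 1) (by omega) H h4
    exact ⟨S, Finset.mem_biUnion.2 ⟨k, Finset.mem_range.2 hk, hS⟩, hSH⟩
  · unfold cost
    have h1 : ∑ S ∈ (Finset.range n).biUnion (fun k => G (k + 1)), r ^ S.card ≤
        ∑ k ∈ Finset.range n, ∑ S ∈ G (k + 1), r ^ S.card := by
      exact sum_biUnion_le_aux _ _ fun S => pow_nonneg hr0.le _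
    have h2 : ∀ k ∈ Finset.range n, ∑ S ∈ G (k + 1), r ^ S.card ≤ (1 / 3 : ℝ) ^ (k + 1) := by
      intro k _
      refine (hG2 (k + 1) (by omega)).trans ?_
      have h3 : (3 : ℝ) ≤ K ^ (1 / 40 : ℝ) := by
        have h4 : ((3 : ℝ) ^ 40) ^ (1 / 40 : ℝ) ≤ K ^ (1 / 40 : ℝ) :=
          Real.rpow_le_rpow (by positivity) hK3 (by norm_num)
        rw [← Real.rpow_natCast, ← Real.rpow_mul (by norm_num)] at h4
        norm_num at h4
        linarith
      have h5 : K ^ (-((k + 1 : ℕ) : ℝ) / 40) = (K ^ (1 / 40 : ℝ))⁻¹ ^ (k + 1) := by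
        rw [inv_pow, ← Real.rpow_natCast, ← Real.rpow_mul hKpos.le, ← Real.rpow_neg hKpos.le]
        congr 1
        ring
      rw [h5]
      refine pow_le_pow_left₀ (by positivity) ?_ _
      have h6 := inv_anti₀ (by norm_num) h3
      rw [one_div (3 : ℝ)]
      exact h6
    refine h1.trans ((Finset.sum_le_sum h2).trans ?_)
    have h3 : ∀ m : ℕ, ∑ k ∈ Finset.range m, (1 / 3 : ℝ) ^ (k + 1) = 1 / 2 - (1 / 3) ^ m / 2 := by
      intro m
      induction m with
      | zero => norm_num
      | succ m ih =>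
        rw [Finset.sum_range_succ, ih]
        ring
    rw [h3]
    have : (0 : ℝ) < (1 / 3) ^ n := by positivity
    linarith

/-- [TOP] -/
theorem top {K0 : ℝ} (hK : Claim K0) : ∃ K : ℝ, 0 < K ∧
    ∀ (X : Type) [Fintype X] [DecidableEq X] [Nonempty X] (F : Set (Finset X)),
      IsFamily F → qf F ≤ K * q F := by
  refine ⟨2 * max K0 (3 ^ 40), by positivity, fun X _ _ _ F hF => ?_⟩
  have hq0 : 0 ≤ q F := le_q (zero_mem_smallSet hF)
  refine Real.sSup_le (fun p hp => frac_le hK (le_max_left _ _) (le_max_right _ _) hF hp) ?_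
  positivity

end ExpThr
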