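import Vale.Agent.P034F.Base
import Vale.Agent.P034F.Top

/-! # P034: the bridge from the homogeneous claim to the final statement -/

namespace ExpThr

open Finset

theorem act_one {X : Type} [Fintype X] [DecidableEq X] (Y : Finset X) :
    TAL.act (1 : Equiv.Perm X) Y = Y := by
  show Y.map (Function.Embedding.refl X) = Y
  exact Finset.map_refl

/-- The bridge (trivial group). -/
theorem claim_bridge
    (h : ∀ (X : Type) [Fintype X] [DecidableEq X] (q K : ℝ), 0 < q → Real.exp 20000 ≤ K →
      TAL.Claim (⊥ : Subgroup (Equiv.Perm X)) q K) : Claim (Real.exp 20000) := by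
  intro K hK X _ _ k hk q hq w hw hcard hsum
  have hK0 : (0 : ℝ) < K := lt_of_lt_of_le (Real.exp_pos _) hK
  have hpos : (0 : ℝ) < (K * q) ^ k := by positivity
  obtain ⟨G, -, hG, hcov⟩ := h X q K hq hK k w hk hw hcard (by
    intro σ hσ Y
    rw [Subgroup.mem_bot] at hσ
    subst hσ
    rw [act_one]) (by
    have h1 : (∑ S, w S) * (K * q) ^ k ≤ ((K * q) ^ k)⁻¹ * (K * q) ^ k :=
      mul_le_mul_of_nonneg_right hsum hpos.le
    rw [inv_mul_cancel₀ hpos.ne'] at h1
    exact h1)
  refine ⟨G, fun T hT => hcov T hT, ?_⟩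
  have h2 : -(k : ℝ) / 40 = -((k : ℝ) / 40) := by ring
  rw [h2]
  exact hG

end ExpThr
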