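import Vale.Agent.P034F.Base

/-!
# Generic merging
-/

namespace TAL
open Finset

variable {X : Type} [Fintype X] [DecidableEq X]

theorem choose_mul_le_exp (B : ℝ) (hB : 0 < B) (u x : ℕ) :
    (u.choose x : ℝ) ≤ B ^ x * Real.exp ((u : ℝ) / B) := by
  by_cases hxu : x ≤ u
  · have h1 : (1 / B + 1) ^ u = ∑ m ∈ range (u + 1), (1 / B) ^ m * (u.choose m : ℝ) := by
      rw [add_pow]
      simp
    have h2 : (1 / B) ^ x * (u.choose x : ℝ) ≤ (1 / B + 1) ^ u := by
      rw [h1]
      exact single_le_sum (f := fun m => (1 / B) ^ m * (u.choose m : ℝ))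
        (fun i _ => by positivity) (mem_range.mpr (by omega))
    have h3 : (1 / B + 1) ^ u ≤ Real.exp ((u : ℝ) / B) := by
      have h4 : 1 / B + 1 ≤ Real.exp (1 / B) := Real.add_one_le_exp _
      calc (1 / B + 1) ^ u ≤ Real.exp (1 / B) ^ u := pow_le_pow_left₀ (by positivity) h4 u
        _ = Real.exp ((u : ℝ) / B) := by rw [← Real.exp_nat_mul]; congr 1; ring
    have h5 : (u.choose x : ℝ) = B ^ x * ((1 / B) ^ x * (u.choose x : ℝ)) := by
      rw [one_div, inv_pow]
      field_simp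
    rw [h5]
    exact mul_le_mul_of_nonneg_left (h2.trans h3) (by positivity)
  · rw [Nat.choose_eq_zero_of_lt (by omega)]
    simp only [Nat.cast_zero]
    positivity

open Classical in
theorem pm_le_of_deg (Δ : ℝ) (u x : ℕ) (a : Finset X → ℝ)
    (ha : ∀ Y, 0 ≤ a Y) (hcard : ∀ Y, a Y ≠ 0 → Y.card = u)
    (hdeg : ∀ Z, Z.card = x → deg a Z ≤ Δ) :
    pm a (fun Y Y' => (Y ∩ Y').card = x) ≤ tot a * ((u.choose x : ℝ) * Δ) := by
  have h1 : ∀ Y : Finset X, (∑ Y', if (Y ∩ Y').card = x then a Y * a Y' else 0)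
      ≤ a Y * ((u.choose x : ℝ) * Δ) := by
    intro Y
    by_cases hY : a Y = 0
    · simp [hY]
    have hYu := hcard Y hY
    have h2 : (∑ Y', if (Y ∩ Y').card = x then a Y * a Y' else 0)
        = a Y * ∑ Y', if (Y ∩ Y').card = x then a Y' else 0 := by
      rw [mul_sum]
      exact sum_congr rfl fun Y' _ => by split_ifs <;> simp
    rw [h2]
    refine mul_le_mul_of_nonneg_left ?_ (ha Y)
    have h3 : (∑ Y', if (Y ∩ Y').card = x then a Y' else 0)
        ≤ ∑ Y', ∑ Z ∈ Y.powersetCard x, if Z ⊆ Y' then a Y' else 0 := by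
      refine sum_le_sum fun Y' _ => ?_
      split_ifs with h
      · have h4 : Y ∩ Y' ∈ Y.powersetCard x := by
          rw [mem_powersetCard]
          exact ⟨inter_subset_left, h⟩
        have h5 : a Y' = if Y ∩ Y' ⊆ Y' then a Y' else 0 := by
          rw [if_pos inter_subset_right]
        rw [h5]
        have h6 := single_le_sum (f := fun Z => if Z ⊆ Y' then a Y' else 0)
          (s := Y.powersetCard x) (fun i _ => by split_ifs <;> simp [ha Y']) h4
        simpa using h6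
      · exact sum_nonneg fun Z _ => by split_ifs <;> simp [ha Y']
    refine h3.trans ?_
    rw [sum_comm]
    have h7 : ∀ Z ∈ Y.powersetCard x, (∑ Y', if Z ⊆ Y' then a Y' else 0) ≤ Δ := by
      intro Z hZ
      rw [mem_powersetCard] at hZ
      have h8 := hdeg Z hZ.2
      unfold deg at h8
      rw [sum_filter] at h8
      convert h8 using 3
    refine (sum_le_sum h7).trans ?_
    rw [sum_const, card_powersetCard, hYu, nsmul_eq_mul]
  unfold pm
  have h9 : (∑ Y, ∑ Y', if (Y ∩ Y').card = x then a Y * a Y' else 0)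
      ≤ ∑ Y, a Y * ((u.choose x : ℝ) * Δ) := sum_le_sum fun Y _ => h1 Y
  rw [← sum_mul] at h9
  refine (le_of_eq ?_).trans h9
  refine sum_congr rfl fun Y _ => sum_congr rfl fun Y' _ => ?_
  congr

omit [Fintype X] [DecidableEq X] in
theorem card_act (σ : Equiv.Perm X) (Y : Finset X) : (act σ Y).card = Y.card := by
  unfold act
  rw [card_map]

omit [Fintype X] [DecidableEq X] in
theorem act_subset_act {σ : Equiv.Perm X} {Y Z : Finset X} (h : Z ⊆ Y) : act σ Z ⊆ act σ Y := by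
  unfold act
  exact map_subset_map.mpr h

open Classical in
/-- [GEN] generic merging (stages `l < 12`): all pairs with `|Y ∩ Y'| = x`.
`pm ≤ tot a * C(u,x)^2 θ q^x` (Spr with `R Y Z : a Y ≠ 0 ∧ Z ⊆ Y ∧ |Z| = x`),
`C(u,x) B^-x ≤ (1 + 1/B)^u ≤ e^(u/B)`. -/
theorem generic_mass (Γ : Subgroup (Equiv.Perm X)) (B q θ : ℝ) (u x : ℕ) (a : Finset X → ℝ)
    (hB : 2 ≤ B) (hq : 0 < q)
    (hθ : 0 < θ) (ha : ∀ Y, 0 ≤ a Y) (hcard : ∀ Y, a Y ≠ 0 → Y.card = u)
    (hinv : InvW Γ a) (hspr : Spr Γ a θ q) (htot : tot a ≤ θ) :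
    pm a (fun Y Y' => (Y ∩ Y').card = x) ≤ θ ^ 2 * (B ^ 2 * q) ^ x * Real.exp (2 * (u : ℝ) / B) := by
  have hB0 : 0 < B := by linarith
  have hdeg : ∀ Z : Finset X, Z.card = x → deg a Z ≤ (u.choose x : ℝ) * (θ * q ^ x) := by
    intro Z hZ
    have h1 := hspr (u.choose x : ℝ) (fun Y Z => a Y ≠ 0 ∧ Z ⊆ Y ∧ Z.card = x) ?_ ?_ ?_ Z
    · rw [hZ] at h1
      refine le_trans ?_ h1
      unfold deg
      rw [sum_filter, sum_filter]
      refine sum_le_sum fun Y _ => ?_
      by_cases h2 : a Y = 0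
      · rw [h2]
        split_ifs <;> exact le_rfl
      · by_cases h3 : Z ⊆ Y <;> simp [h2, h3]
    · rintro σ hσ Y Z ⟨h1, h2, h3⟩
      refine ⟨?_, act_subset_act h2, ?_⟩
      · rw [hinv σ hσ Y]
        exact h1
      · rw [card_act]
        exact h3
    · exact fun Y Z h => h.2.1
    · intro Y
      by_cases hY : a Y = 0
      · refine le_trans (Nat.cast_le.mpr (card_le_card (t := ∅) ?_)) (by simp)
        intro Z hZ2
        simp only [mem_filter] at hZ2
        exact absurd hY hZ2.2.1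
      · refine le_trans (Nat.cast_le.mpr (card_le_card (t := Y.powersetCard x) ?_)) ?_
        · intro Z hZ2
          simp only [mem_filter] at hZ2
          rw [mem_powersetCard]
          exact hZ2.2.2
        · rw [card_powersetCard, hcard Y hY]
  have h1 := pm_le_of_deg ((u.choose x : ℝ) * (θ * q ^ x)) u x a ha hcard hdeg
  refine h1.trans ?_
  have h11 := choose_mul_le_exp B hB0 u x
  have h12 : (0 : ℝ) ≤ (u.choose x : ℝ) := by positivity
  have h13 : (u.choose x : ℝ) ^ 2 ≤ (B ^ x * Real.exp ((u : ℝ) / B)) ^ 2 :=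
    pow_le_pow_left₀ h12 h11 2
  have h14 : (B ^ x * Real.exp ((u : ℝ) / B)) ^ 2 = (B ^ 2) ^ x * Real.exp (2 * (u : ℝ) / B) := by
    rw [mul_pow, ← pow_mul, ← pow_mul, mul_comm x 2, ← Real.exp_nat_mul]
    congr 2
    push_cast
    ring
  calc tot a * ((u.choose x : ℝ) * ((u.choose x : ℝ) * (θ * q ^ x)))
      ≤ θ * ((u.choose x : ℝ) * ((u.choose x : ℝ) * (θ * q ^ x))) :=
        mul_le_mul_of_nonneg_right htot (by positivity)
    _ = θ ^ 2 * q ^ x * (u.choose x : ℝ) ^ 2 := by ring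
    _ ≤ θ ^ 2 * q ^ x * ((B ^ 2) ^ x * Real.exp (2 * (u : ℝ) / B)) := by
        rw [← h14]
        exact mul_le_mul_of_nonneg_left h13 (by positivity)
    _ = _ := by
        rw [mul_pow]
        ring

end TAL
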