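import Vale.Agent.P034F.Tree
import Vale.Agent.P034F.ClaimBase
import Vale.Agent.P034F.Ind1

/-! # [IND] the claim for all large density ratios -/

namespace TAL

open Finset

variable {X : Type} [Fintype X] [DecidableEq X]

/-- [IND] the main claim. -/
theorem claim_all (Γ : Subgroup (Equiv.Perm X)) (q K : ℝ) (hq : 0 < q) (hK : Real.exp 20000 ≤ K) :
    Claim Γ q K :=
  claim_all_of_tree Γ q (fun b hb h => tree_step Γ q b hq hb h)
    (fun K hK hX => claim_base Γ q K hq hK hX) K hK

end TAL
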