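import Vale.Agent.P034F.Base
import Vale.Agent.P034F.Account

/-!
P034F, piece POT: the potential inequalities for `TAL.QQ`.
-/

namespace TAL

open Finset

variable {X : Type} [Fintype X] [DecidableEq X]

theorem mm_eq_vmin (S : Finset (Finset X)) (V : Finset X) : mm S V = P034F.vmin S V := rfl

theorem term_eq (v n c : ℝ) (hv : 0 ≤ v) (hn : 0 ≤ n) (hc : 0 ≤ c) :
    v * (v / n) ^ c = v ^ (1 + c) * n ^ (-c) := by
  rw [Real.div_rpow hv hn, P034F.rpow_one_add' hv hc, Real.rpow_neg hn]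
  ring

theorem QQ_eq (S : Finset (Finset X)) : QQ S = P034F.QQ ((1 : ℝ) / 56) S := by
  unfold QQ P034F.QQ
  apply Finset.sup'_congr _ rfl
  intro V _
  rw [mm_eq_vmin]
  exact term_eq _ _ _ (Nat.cast_nonneg _) (Nat.cast_nonneg _) (by norm_num)

/-- [POT1] -/
theorem QQ_mono (S S' : Finset (Finset X)) (h : S' ⊆ S) (hne : S'.Nonempty) : QQ S ≤ QQ S' := by
  rw [QQ_eq, QQ_eq]
  exact P034F.QQ_anti (by norm_num) hne h

/-- [POT2] -/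
theorem QQ_le (S : Finset (Finset X)) (u : ℕ) (hne : S.Nonempty) (hc : ∀ Y ∈ S, Y.card = u) :
    QQ S ≤ u ∧ 0 ≤ QQ S := by
  rw [QQ_eq]
  exact ⟨P034F.QQ_le (by norm_num) hne hc, P034F.QQ_nonneg _ _⟩

theorem QQ_nonneg (S : Finset (Finset X)) : 0 ≤ QQ S := by
  rw [QQ_eq]
  exact P034F.QQ_nonneg _ _

/-- lower bound of `QQ` from one set `V` -/
theorem le_QQ (S : Finset (Finset X)) (hne : S.Nonempty) (V : Finset X) (y : ℝ) (hy : 0 ≤ y)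
    (h : ∀ Y ∈ S, y ≤ ((Y ∩ V).card : ℝ)) :
    y ^ (1 + (1 : ℝ) / 56) * (V.card : ℝ) ^ (-((1 : ℝ) / 56)) ≤ QQ S := by
  rw [QQ_eq]
  exact P034F.le_QQ (by norm_num) hne hy h

/-- [POT3] local potential inequality (same `V`, `v' ≥ 2v - x`, convexity). -/
theorem QQ_merge (S S' : Finset (Finset X)) (x : ℕ) (hne : S.Nonempty) (hne' : S'.Nonempty)
    (h : ∀ U ∈ S', ∃ Y ∈ S, ∃ Y' ∈ S, U = Y ∪ Y' ∧ (Y ∩ Y').card = x) :
    (2 : ℝ) * (1 + 1 / 100) * QQ S - 2 * x ≤ QQ S' := by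
  have h1 := P034F.QQ_double (c := (1 : ℝ) / 56) (by norm_num) P034F.c_ok hne' h
  rw [← QQ_eq, ← QQ_eq] at h1
  have h2 := P034F.c_gain
  have h3 : (2 : ℝ) ^ (1 + (1 : ℝ) / 56) = 2 * 2 ^ ((1 : ℝ) / 56) :=
    P034F.rpow_one_add' (by norm_num) (by norm_num)
  have h4 := QQ_nonneg S
  rw [h3] at h1
  have h5 : (2 : ℝ) * (1 + 1 / 100) ≤ 2 * 2 ^ ((1 : ℝ) / 56) := by linarith
  have h6 : (2 : ℝ) * (1 + 1 / 100) * QQ S ≤ 2 * 2 ^ ((1 : ℝ) / 56) * QQ S :=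
    mul_le_mul_of_nonneg_right h5 h4
  linarith

end TAL
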