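import Mathlib

/-! # P034: the promise lemma (piece 5), abstract form -/

namespace P034F

open Finset

section Telescope

variable {α : Type} [Fintype α] [DecidableEq α]

/-- One step of the telescoping: sets of size `i + 1` against sets of size `i`. -/
theorem level_step {M : Finset α → ℝ} (hM : ∀ A, 0 ≤ M A)
    (hanti : ∀ A B, A ⊆ B → M B ≤ M A) {δ H p : ℝ} (hδ : 0 < δ) (i : ℕ)
    (hH : ∀ A : Finset α, A.card = i → δ ≤ M A →
      ∑ v ∈ univ \ A, (M (insert v A) / M A) ^ p ≤ H) :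
    ((i : ℝ) + 1) * ∑ B ∈ univ.filter (fun B : Finset α => B.card = i + 1 ∧ δ ≤ M B), M B ^ p
      ≤ H * ∑ A ∈ univ.filter (fun A : Finset α => A.card = i ∧ δ ≤ M A), M A ^ p := by
  classical
  have h1 : ((i : ℝ) + 1) * ∑ B ∈ univ.filter (fun B : Finset α => B.card = i + 1 ∧ δ ≤ M B),
      M B ^ p = ∑ q ∈ (univ.filter (fun B : Finset α => B.card = i + 1 ∧ δ ≤ M B)).sigma
        (fun B => B), M q.1 ^ p := by
    rw [sum_sigma, mul_sum]
    apply sum_congr rfl
    intro B hB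
    rw [mem_filter] at hB
    simp only [sum_const, nsmul_eq_mul, hB.2.1]
    push_cast
    ring
  have h2 : ∑ q ∈ (univ.filter (fun B : Finset α => B.card = i + 1 ∧ δ ≤ M B)).sigma
        (fun B => B), M q.1 ^ p
      = ∑ q ∈ (univ.filter (fun A : Finset α => A.card = i)).sigma
        (fun A => (univ \ A).filter (fun v => δ ≤ M (insert v A))), M (insert q.2 q.1) ^ p := by
    apply sum_nbij' (fun q => (⟨q.1.erase q.2, q.2⟩ : (_ : Finset α) × α))
      (fun q => (⟨insert q.2 q.1, q.2⟩ : (_ : Finset α) × α))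
    · rintro ⟨B, v⟩ hq
      simp only [mem_sigma, mem_filter, mem_univ, true_and, mem_sdiff] at hq ⊢
      obtain ⟨⟨hc, hd⟩, hv⟩ := hq
      refine ⟨?_, ?_, ?_⟩
      · rw [card_erase_of_mem hv, hc]; rfl
      · exact notMem_erase v B
      · rw [insert_erase hv]; exact hd
    · rintro ⟨A, v⟩ hq
      simp only [mem_sigma, mem_filter, mem_univ, true_and, mem_sdiff] at hq ⊢
      obtain ⟨hc, hv, hd⟩ := hq
      refine ⟨⟨?_, hd⟩, mem_insert_self v A⟩
      rw [card_insert_of_notMem hv, hc]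
    · rintro ⟨B, v⟩ hq
      simp only [mem_sigma, mem_filter, mem_univ, true_and] at hq
      simp only [insert_erase hq.2]
    · rintro ⟨A, v⟩ hq
      simp only [mem_sigma, mem_filter, mem_univ, true_and, mem_sdiff] at hq
      simp only [erase_insert hq.2.1]
    · rintro ⟨B, v⟩ hq
      simp only [mem_sigma, mem_filter, mem_univ, true_and] at hq
      simp only [insert_erase hq.2]
  rw [h1, h2, sum_sigma, mul_sum]
  have h3 : ∀ A ∈ univ.filter (fun A : Finset α => A.card = i),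
      ∑ v ∈ (univ \ A).filter (fun v => δ ≤ M (insert v A)), M (insert v A) ^ p
      ≤ if δ ≤ M A then H * M A ^ p else 0 := by
    intro A hA
    rw [mem_filter] at hA
    split_ifs with hd
    · have hpos : 0 < M A := lt_of_lt_of_le hδ hd
      have e1 : ∑ v ∈ (univ \ A).filter (fun v => δ ≤ M (insert v A)), M (insert v A) ^ p
          ≤ ∑ v ∈ univ \ A, M (insert v A) ^ p := by
        apply sum_le_sum_of_subset_of_nonneg (filter_subset _ _)
        intro v _ _
        exact Real.rpow_nonneg (hM _) _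
      have e2 : ∑ v ∈ univ \ A, M (insert v A) ^ p
          = (∑ v ∈ univ \ A, (M (insert v A) / M A) ^ p) * M A ^ p := by
        rw [sum_mul]
        apply sum_congr rfl
        intro v _
        rw [Real.div_rpow (hM _) (hM _), div_mul_cancel₀]
        exact (Real.rpow_pos_of_pos hpos p).ne'
      rw [e2] at e1
      exact e1.trans (mul_le_mul_of_nonneg_right (hH A hA.2 hd)
        (Real.rpow_nonneg (hM _) _))
    · have : (univ \ A).filter (fun v => δ ≤ M (insert v A)) = ∅ := by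
        apply filter_eq_empty_iff.2
        intro v _ hv
        exact hd (hv.trans (hanti A _ (subset_insert v A)))
      rw [this, sum_empty]
  refine (sum_le_sum h3).trans ?_
  rw [← sum_filter, filter_filter]

/-- The telescoping bound. -/
theorem level_bound {M : Finset α → ℝ} (hM : ∀ A, 0 ≤ M A)
    (hanti : ∀ A B, A ⊆ B → M B ≤ M A) (h0 : M ∅ ≤ 1) {δ H p : ℝ} (hδ : 0 < δ) (hp : 0 ≤ p)
    (hH0 : 0 ≤ H) (x : ℕ)
    (hH : ∀ A : Finset α, A.card < x → δ ≤ M A →
      ∑ v ∈ univ \ A, (M (insert v A) / M A) ^ p ≤ H) :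
    ∀ i : ℕ, i ≤ x →
    (∑ B ∈ univ.filter (fun B : Finset α => B.card = i ∧ δ ≤ M B), M B ^ p)
      ≤ H ^ i / (i.factorial : ℝ) := by
  intro i
  induction i with
  | zero =>
    intro _
    simp only [pow_zero, Nat.factorial_zero, Nat.cast_one, div_one]
    have hsub : univ.filter (fun B : Finset α => B.card = 0 ∧ δ ≤ M B) ⊆ {∅} := by
      intro B hB
      rw [mem_filter] at hB
      rw [mem_singleton]
      exact card_eq_zero.1 hB.2.1
    calc ∑ B ∈ univ.filter (fun B : Finset α => B.card = 0 ∧ δ ≤ M B), M B ^ p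
        ≤ ∑ B ∈ ({∅} : Finset (Finset α)), M B ^ p :=
          sum_le_sum_of_subset_of_nonneg hsub fun B _ _ => Real.rpow_nonneg (hM _) _
      _ = M ∅ ^ p := sum_singleton _ _
      _ ≤ 1 := Real.rpow_le_one (hM _) h0 hp
  | succ i ih =>
    intro hi
    have h1 := ih (by omega)
    have h2 := level_step hM hanti hδ (p := p) (H := H) i
      (fun A hA hd => hH A (by omega) hd)
    have h3 : (0 : ℝ) < (i : ℝ) + 1 := by positivity
    have h4 : H * ∑ A ∈ univ.filter (fun A : Finset α => A.card = i ∧ δ ≤ M A), M A ^ p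
        ≤ H * (H ^ i / (i.factorial : ℝ)) := mul_le_mul_of_nonneg_left h1 hH0
    have h5 : H ^ (i + 1) / ((i + 1).factorial : ℝ)
        = (H * (H ^ i / (i.factorial : ℝ))) / ((i : ℝ) + 1) := by
      rw [Nat.factorial_succ]
      push_cast
      have : (i.factorial : ℝ) ≠ 0 := by positivity
      field_simp
      ring
    rw [h5, le_div_iff₀ h3, mul_comm]
    exact h2.trans h4

end Telescope

section Mass

variable {α : Type} [DecidableEq α]

/-- Mass of the sets of `S` containing `A`. -/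
noncomputable def mass (S : Finset (Finset α)) (μ : Finset α → ℝ) (A : Finset α) : ℝ :=
  ∑ Y ∈ S.filter (fun Y => A ⊆ Y), μ Y

theorem mass_nonneg {S : Finset (Finset α)} {μ : Finset α → ℝ} (hμ : ∀ Y, 0 ≤ μ Y)
    (A : Finset α) : 0 ≤ mass S μ A :=
  sum_nonneg fun Y _ => hμ Y

theorem mass_anti {S : Finset (Finset α)} {μ : Finset α → ℝ} (hμ : ∀ Y, 0 ≤ μ Y)
    {A B : Finset α} (h : A ⊆ B) : mass S μ B ≤ mass S μ A := by
  unfold mass
  apply sum_le_sum_of_subset_of_nonneg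
  · intro Y hY
    rw [mem_filter] at hY ⊢
    exact ⟨hY.1, h.trans hY.2⟩
  · intro Y _ _
    exact hμ Y

theorem mass_empty (S : Finset (Finset α)) (μ : Finset α → ℝ) :
    mass S μ ∅ = ∑ Y ∈ S, μ Y := by
  unfold mass
  rw [filter_true_of_mem]
  intro Y _
  exact empty_subset Y

/-- Double counting of the members of `ZZ` inside the sets of `S`. -/
theorem sum_mass (S : Finset (Finset α)) (μ : Finset α → ℝ) (ZZ : Finset (Finset α)) :
    ∑ Z ∈ ZZ, mass S μ Z = ∑ Y ∈ S, μ Y * ((ZZ.filter (fun Z => Z ⊆ Y)).card : ℝ) := by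
  unfold mass
  simp_rw [sum_filter]
  rw [sum_comm]
  apply sum_congr rfl
  intro Y _
  rw [← sum_filter, sum_const, nsmul_eq_mul, mul_comm]

/-- Double counting of the elements of `V` inside the sets of `S` containing `A`. -/
theorem sum_mass_insert (S : Finset (Finset α)) (μ : Finset α → ℝ) (A V : Finset α) :
    ∑ v ∈ V, mass S μ (insert v A)
      = ∑ Y ∈ S.filter (fun Y => A ⊆ Y), μ Y * ((Y ∩ V).card : ℝ) := by
  have h1 : ∀ v, mass S μ (insert v A)
      = ∑ Y ∈ S.filter (fun Y => A ⊆ Y), if v ∈ Y then μ Y else 0 := by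
    intro v
    unfold mass
    rw [← sum_filter, filter_filter]
    apply sum_congr _ (fun _ _ => rfl)
    ext Y
    simp only [mem_filter, insert_subset_iff]
    tauto
  simp_rw [h1]
  rw [sum_comm]
  apply sum_congr rfl
  intro Y _
  rw [← sum_filter, sum_const, nsmul_eq_mul, mul_comm]
  congr 2
  congr 1
  ext v
  simp only [mem_filter, mem_inter]
  tauto

end Mass

section Dyadic

/-- The ratio `2^(-1/56)`. -/
noncomputable def rr : ℝ := (1 / 2 : ℝ) ^ (1 / 56 : ℝ)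

theorem rr_pos : 0 < rr := Real.rpow_pos_of_pos (by norm_num) _

theorem rr_pow : rr ^ 56 = 1 / 2 := by
  unfold rr
  rw [← Real.rpow_natCast, ← Real.rpow_mul (by norm_num)]
  norm_num

theorem rr_le : rr ≤ 99 / 100 := by
  by_contra h
  push Not at h
  have h1 : ((99 : ℝ) / 100) ^ 56 < rr ^ 56 := pow_lt_pow_left₀ h (by norm_num) (by norm_num)
  rw [rr_pow] at h1
  norm_num at h1

theorem rr_sq : 1 / 2 ≤ rr ^ 2 := by
  rw [← rr_pow]
  exact pow_le_pow_of_le_one rr_pos.le (rr_le.trans (by norm_num)) (by norm_num)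

theorem half_rpow (n : ℕ) : ((1 / 2 : ℝ) ^ n) ^ (1 / 56 : ℝ) = rr ^ n := by
  unfold rr
  rw [← Real.rpow_natCast, ← Real.rpow_mul (by norm_num), mul_comm,
    Real.rpow_mul (by norm_num), Real.rpow_natCast]

variable {α : Type} [DecidableEq α]

/-- Extraction of a dyadic level. -/
theorem dyadic (W : Finset α) (f : α → ℝ) (h0 : ∀ v ∈ W, 0 ≤ f v) (h1 : ∀ v ∈ W, f v ≤ 1)
    (L : ℝ) (hL : 0 < L) (hs : L < ∑ v ∈ W, f v ^ (29 / 28 : ℝ)) :
    ∃ (V : Finset α) (i : ℕ), V ⊆ W ∧ V.Nonempty ∧ (∀ v ∈ V, (1 / 2 : ℝ) ^ (i + 1) < f v) ∧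
      L / 100 ≤ (V.card : ℝ) * (1 / 2) ^ i * rr ^ i := by
  classical
  have hidx : ∀ v, ∃ n : ℕ, v ∈ W → 0 < f v →
      (1 / 2 : ℝ) ^ (n + 1) < f v ∧ f v ≤ (1 / 2 : ℝ) ^ n := by
    intro v
    by_cases hv : v ∈ W ∧ 0 < f v
    · obtain ⟨n, hn⟩ := exists_nat_pow_near_of_lt_one hv.2 (h1 v hv.1)
        (show (0 : ℝ) < 1 / 2 by norm_num) (by norm_num)
      exact ⟨n, fun _ _ => hn⟩
    · exact ⟨0, fun a b => absurd ⟨a, b⟩ hv⟩
  choose idx hidx using hidx
  set W' := W.filter (fun v => 0 < f v) with hW'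
  set I := W'.sup idx + 1 with hI
  have hmaps : ∀ v ∈ W', idx v ∈ range I := by
    intro v hv
    rw [mem_range, hI]
    exact Nat.lt_succ_of_le (le_sup hv)
  have hsum : ∑ v ∈ W, f v ^ (29 / 28 : ℝ) = ∑ v ∈ W', f v ^ (29 / 28 : ℝ) := by
    rw [hW', sum_filter]
    apply sum_congr rfl
    intro v hv
    split_ifs with h
    · rfl
    · have : f v = 0 := le_antisymm (not_lt.1 h) (h0 v hv)
      rw [this, Real.zero_rpow (by norm_num)]
  by_contra hcon
  push Not at hcon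
  have hsmall : ∀ i, (((W'.filter (fun v => idx v = i)).card : ℝ)) * (1 / 2) ^ i * rr ^ i
      ≤ L / 100 := by
    intro i
    by_cases hne : (W'.filter (fun v => idx v = i)).Nonempty
    · apply le_of_lt
      apply hcon _ i _ hne
      · intro v hv
        rw [mem_filter, hW', mem_filter] at hv
        have := (hidx v hv.1.1 hv.1.2).1
        rwa [hv.2] at this
      · intro v hv
        rw [mem_filter, hW', mem_filter] at hv
        exact hv.1.1
    · rw [not_nonempty_iff_eq_empty] at hne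
      rw [hne]
      simp only [card_empty, Nat.cast_zero, zero_mul]
      positivity
  have hfib : ∀ i ∈ range I, ∑ v ∈ W'.filter (fun v => idx v = i), f v ^ (29 / 28 : ℝ)
      ≤ L / 100 * rr ^ i := by
    intro i _
    have hb : ∀ v ∈ W'.filter (fun v => idx v = i), f v ^ (29 / 28 : ℝ)
        ≤ (1 / 2) ^ i * (rr ^ i * rr ^ i) := by
      intro v hv
      rw [mem_filter, hW', mem_filter] at hv
      have h2 := (hidx v hv.1.1 hv.1.2).2
      rw [hv.2] at h2
      have h3 : f v ^ (29 / 28 : ℝ) ≤ ((1 / 2 : ℝ) ^ i) ^ (29 / 28 : ℝ) :=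
        Real.rpow_le_rpow (h0 v hv.1.1) h2 (by norm_num)
      refine h3.trans (le_of_eq ?_)
      have hp : (0 : ℝ) < (1 / 2 : ℝ) ^ i := by positivity
      rw [show (29 / 28 : ℝ) = 1 + (1 / 56 + 1 / 56) by norm_num, Real.rpow_add hp,
        Real.rpow_add hp, Real.rpow_one, half_rpow]
    calc ∑ v ∈ W'.filter (fun v => idx v = i), f v ^ (29 / 28 : ℝ)
        ≤ ∑ v ∈ W'.filter (fun v => idx v = i), (1 / 2 : ℝ) ^ i * (rr ^ i * rr ^ i) :=
          sum_le_sum hb
      _ = (((W'.filter (fun v => idx v = i)).card : ℝ) * (1 / 2) ^ i * rr ^ i) * rr ^ i := by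
          rw [sum_const, nsmul_eq_mul]; ring
      _ ≤ L / 100 * rr ^ i :=
          mul_le_mul_of_nonneg_right (hsmall i) (pow_nonneg rr_pos.le i)
  have htot : ∑ v ∈ W', f v ^ (29 / 28 : ℝ) ≤ L := by
    rw [← sum_fiberwise_of_maps_to hmaps]
    refine (sum_le_sum hfib).trans ?_
    rw [← mul_sum]
    have hg := geom_sum_mul_neg rr I
    have hge : (∑ i ∈ range I, rr ^ i) * (1 / 100) ≤ 1 := by
      have hnn : 0 ≤ ∑ i ∈ range I, rr ^ i := sum_nonneg fun i _ => pow_nonneg rr_pos.le i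
      have : (∑ i ∈ range I, rr ^ i) * (1 / 100) ≤ (∑ i ∈ range I, rr ^ i) * (1 - rr) :=
        mul_le_mul_of_nonneg_left (by linarith [rr_le]) hnn
      have h5 : 0 ≤ rr ^ I := pow_nonneg rr_pos.le I
      linarith
    nlinarith
  rw [hsum] at hs
  exact absurd hs (not_lt.2 htot)

end Dyadic

section Main

variable {α : Type} [Fintype α] [DecidableEq α]

/-- If no prefix has a large power sum, the promise is impossible. -/
theorem exists_prefix (S : Finset (Finset α)) (μ : Finset α → ℝ)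
    (hμ : ∀ Y, 0 ≤ μ Y) (hsum : ∑ Y ∈ S, μ Y = 1) (x : ℕ) (hx : 1 ≤ x)
    (ZZ : Finset (Finset α)) (hZ : ∀ Z ∈ ZZ, Z.card = x) (t : ℝ) (ht : 31 ≤ t)
    (hmany : ∀ Y ∈ S, t ^ (4 * x) ≤ ((ZZ.filter (fun Z => Z ⊆ Y)).card : ℝ))
    (hZZ : (ZZ.card : ℝ) ≤ t ^ (32 * x)) :
    ∃ A : Finset α, (t ^ (28 * x))⁻¹ / 2 ≤ mass S μ A ∧
      x * t ^ 2 < ∑ v ∈ univ \ A, (mass S μ (insert v A) / mass S μ A) ^ (29 / 28 : ℝ) := by
  classical
  have ht0 : 0 < t := by linarith
  have htx : 0 < t ^ x := pow_pos ht0 x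
  set δ : ℝ := (t ^ (28 * x))⁻¹ / 2 with hδdef
  have hδ : 0 < δ := by positivity
  set M : Finset α → ℝ := fun A => mass S μ A with hMdef
  have hM : ∀ A, 0 ≤ M A := fun A => mass_nonneg hμ A
  have hanti : ∀ A B, A ⊆ B → M B ≤ M A := fun A B h => mass_anti hμ h
  have hM0 : M ∅ ≤ 1 := by
    rw [hMdef]
    simp only [mass_empty, hsum, le_refl]
  by_contra hcon
  push Not at hcon
  have hlev := level_bound hM hanti hM0 hδ (p := (29 / 28 : ℝ)) (by norm_num)
    (H := x * t ^ 2) (by positivity) x (fun A _ hd => hcon A hd) x le_rfl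
  have hup : (x * t ^ 2 : ℝ) ^ x / (x.factorial : ℝ) ≤ (Real.exp 1 * t ^ 2) ^ x := by
    have h1 := Real.pow_div_factorial_le_exp (x : ℝ) (by positivity) x
    have h2 : Real.exp (x : ℝ) = Real.exp 1 ^ x := by
      rw [← Real.exp_nat_mul, mul_one]
    rw [h2] at h1
    calc (x * t ^ 2 : ℝ) ^ x / (x.factorial : ℝ) = ((x : ℝ) ^ x / (x.factorial : ℝ)) * (t ^ 2) ^ x := by
          rw [mul_pow]; ring
      _ ≤ Real.exp 1 ^ x * (t ^ 2) ^ x := mul_le_mul_of_nonneg_right h1 (by positivity)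
      _ = (Real.exp 1 * t ^ 2) ^ x := (mul_pow _ _ _).symm
  -- lower bound
  have hZsum : t ^ (4 * x) ≤ ∑ Z ∈ ZZ, M Z := by
    rw [hMdef]
    simp only
    rw [sum_mass]
    calc t ^ (4 * x) = ∑ Y ∈ S, μ Y * t ^ (4 * x) := by rw [← sum_mul, hsum, one_mul]
      _ ≤ _ := sum_le_sum fun Y hY => mul_le_mul_of_nonneg_left (hmany Y hY) (hμ Y)
  have hsplit := sum_filter_add_sum_filter_not ZZ (fun Z => δ ≤ M Z) M
  have hlow : ∑ Z ∈ ZZ.filter (fun Z => ¬ δ ≤ M Z), M Z ≤ t ^ (4 * x) / 2 := by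
    calc ∑ Z ∈ ZZ.filter (fun Z => ¬ δ ≤ M Z), M Z
        ≤ ∑ Z ∈ ZZ.filter (fun Z => ¬ δ ≤ M Z), δ := by
          apply sum_le_sum
          intro Z hZ'
          rw [mem_filter] at hZ'
          exact (not_le.1 hZ'.2).le
      _ = ((ZZ.filter (fun Z => ¬ δ ≤ M Z)).card : ℝ) * δ := by
          rw [sum_const, nsmul_eq_mul]
      _ ≤ (ZZ.card : ℝ) * δ := by
          apply mul_le_mul_of_nonneg_right _ hδ.le
          exact_mod_cast card_filter_le _ _
      _ ≤ t ^ (32 * x) * δ := mul_le_mul_of_nonneg_right hZZ hδ.le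
      _ = t ^ (4 * x) / 2 := by
          rw [hδdef, show 32 * x = 4 * x + 28 * x by ring, pow_add]
          have : t ^ (28 * x) ≠ 0 := by positivity
          field_simp
  have hhigh : t ^ (4 * x) / 2 ≤ ∑ Z ∈ ZZ.filter (fun Z => δ ≤ M Z), M Z := by
    linarith
  have hδp : (t ^ x)⁻¹ / 2 ≤ δ ^ (1 / 28 : ℝ) := by
    have h1 : ((t ^ x)⁻¹ / 2) ^ 28 ≤ δ := by
      rw [hδdef, div_pow, inv_pow, ← pow_mul, mul_comm x 28]
      apply div_le_div_of_nonneg_left (by positivity) (by norm_num) (by norm_num)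
    have h2 : (((t ^ x)⁻¹ / 2) ^ 28) ^ (1 / 28 : ℝ) ≤ δ ^ (1 / 28 : ℝ) :=
      Real.rpow_le_rpow (by positivity) h1 (by norm_num)
    have h3 : (((t ^ x)⁻¹ / 2) ^ 28) ^ (1 / 28 : ℝ) = (t ^ x)⁻¹ / 2 := by
      rw [← Real.rpow_natCast, ← Real.rpow_mul (by positivity)]
      norm_num
    rwa [h3] at h2
  have hpow : (t ^ x)⁻¹ / 2 * (t ^ (4 * x) / 2)
      ≤ ∑ Z ∈ ZZ.filter (fun Z => δ ≤ M Z), M Z ^ (29 / 28 : ℝ) := by
    calc (t ^ x)⁻¹ / 2 * (t ^ (4 * x) / 2)
        ≤ δ ^ (1 / 28 : ℝ) * ∑ Z ∈ ZZ.filter (fun Z => δ ≤ M Z), M Z :=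
          mul_le_mul hδp hhigh (by positivity) (by positivity)
      _ = ∑ Z ∈ ZZ.filter (fun Z => δ ≤ M Z), δ ^ (1 / 28 : ℝ) * M Z := mul_sum _ _ _
      _ ≤ _ := by
          apply sum_le_sum
          intro Z hZ'
          rw [mem_filter] at hZ'
          have hpos : 0 < M Z := lt_of_lt_of_le hδ hZ'.2
          rw [show (29 / 28 : ℝ) = 1 / 28 + 1 by norm_num, Real.rpow_add hpos, Real.rpow_one]
          exact mul_le_mul_of_nonneg_right
            (Real.rpow_le_rpow hδ.le hZ'.2 (by norm_num)) hpos.le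
  have hsub : ∑ Z ∈ ZZ.filter (fun Z => δ ≤ M Z), M Z ^ (29 / 28 : ℝ)
      ≤ ∑ B ∈ univ.filter (fun B : Finset α => B.card = x ∧ δ ≤ M B), M B ^ (29 / 28 : ℝ) := by
    apply sum_le_sum_of_subset_of_nonneg
    · intro Z hZ'
      rw [mem_filter] at hZ' ⊢
      exact ⟨mem_univ _, hZ Z hZ'.1, hZ'.2⟩
    · intro B _ _
      exact Real.rpow_nonneg (hM B) _
  have hfin : (t ^ x)⁻¹ / 2 * (t ^ (4 * x) / 2) ≤ (Real.exp 1 * t ^ 2) ^ x :=
    hpow.trans (hsub.trans (hlev.trans hup))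
  have e1 : (t ^ x)⁻¹ / 2 * (t ^ (4 * x) / 2) = (t ^ x * (t ^ 2) ^ x) / 4 := by
    rw [show 4 * x = x + (x + 2 * x) by ring, pow_add, pow_add, pow_mul]
    field_simp
    ring
  rw [e1, mul_pow] at hfin
  have h2x : 0 < (t ^ 2) ^ x := by positivity
  have hfin2 : t ^ x / 4 ≤ Real.exp 1 ^ x := by
    by_contra hh
    push Not at hh
    have := mul_lt_mul_of_pos_right hh h2x
    linarith
  have he : Real.exp 1 < 2.7182818286 := Real.exp_one_lt_d9
  have h4e : t ^ x ≤ (4 * Real.exp 1) ^ x := by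
    rw [mul_pow]
    have h4 : (4 : ℝ) ≤ 4 ^ x := by
      calc (4 : ℝ) = 4 ^ 1 := (pow_one _).symm
        _ ≤ 4 ^ x := pow_le_pow_right₀ (by norm_num) hx
    have h5 : 0 < Real.exp 1 ^ x := by positivity
    nlinarith
  have h6 : t ≤ 4 * Real.exp 1 :=
    le_of_pow_le_pow_left₀ (by omega) (by positivity) h4e
  linarith

/-- The promise lemma. -/
theorem promise (S : Finset (Finset α)) (μ : Finset α → ℝ)
    (hμ : ∀ Y, 0 ≤ μ Y) (hsum : ∑ Y ∈ S, μ Y = 1) (u x : ℕ) (hx : 1 ≤ x)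
    (hu : ∀ Y ∈ S, Y.card = u) (ZZ : Finset (Finset α)) (hZ : ∀ Z ∈ ZZ, Z.card = x)
    (ν : ℝ) (hν : 10 ^ 6 ≤ ν)
    (hmany : ∀ Y ∈ S, ν ^ x ≤ ((ZZ.filter (fun Z => Z ⊆ Y)).card : ℝ))
    (hZZ : (ZZ.card : ℝ) ≤ ν ^ (8 * x)) :
    ∃ (V : Finset α) (y : ℝ), V.Nonempty ∧ 0 < y ∧
      (ν ^ (7 * x))⁻¹ / (4 * u) ≤ ∑ Y ∈ S.filter (fun Y => y ≤ ((Y ∩ V).card : ℝ)), μ Y ∧
      x * Real.sqrt ν / 800 ≤ y ^ (57 / 56 : ℝ) * (V.card : ℝ) ^ (-(1 / 56) : ℝ) := by
  classical
  have hν0 : 0 ≤ ν := le_trans (by norm_num) hν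
  set t : ℝ := Real.sqrt (Real.sqrt ν) with htdef
  have ht2 : t ^ 2 = Real.sqrt ν := Real.sq_sqrt (Real.sqrt_nonneg ν)
  have ht4 : t ^ 4 = ν := by
    rw [show (4 : ℕ) = 2 * 2 by norm_num, pow_mul, ht2, Real.sq_sqrt hν0]
  have ht0' : 0 ≤ t := Real.sqrt_nonneg _
  have ht : 31 ≤ t := by
    by_contra h
    push Not at h
    have : t ^ 4 < 31 ^ 4 := pow_lt_pow_left₀ h ht0' (by norm_num)
    rw [ht4] at this
    norm_num at this
    linarith
  have hsq : 1000 ≤ Real.sqrt ν := by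
    apply Real.le_sqrt_of_sq_le
    linarith
  have ht0 : 0 < t := by linarith
  obtain ⟨A, hAδ, hAL⟩ := exists_prefix S μ hμ hsum x hx ZZ hZ t ht
    (by intro Y hY; rw [pow_mul, ht4]; exact hmany Y hY)
    (by rw [show 32 * x = 4 * (8 * x) by ring, pow_mul, ht4]; exact hZZ)
  have hδ : 0 < (t ^ (28 * x))⁻¹ / 2 := by positivity
  have hMA : 0 < mass S μ A := lt_of_lt_of_le hδ hAδ
  have hxr : (1 : ℝ) ≤ x := by exact_mod_cast hx
  have hLpos : 0 < (x : ℝ) * t ^ 2 := by positivity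
  obtain ⟨V, i, hVW, hVne, hVf, hVL⟩ := dyadic (univ \ A)
    (fun v => mass S μ (insert v A) / mass S μ A)
    (fun v _ => div_nonneg (mass_nonneg hμ _) (mass_nonneg hμ _))
    (fun v _ => by
      rw [div_le_one hMA]
      exact mass_anti hμ (subset_insert v A)) _ hLpos hAL
  have hVc : (0 : ℝ) < V.card := by exact_mod_cast card_pos.2 hVne
  have hhalf : (0 : ℝ) < (1 / 2 : ℝ) ^ i := by positivity
  set y : ℝ := (V.card : ℝ) * (1 / 2) ^ (i + 2) with hy
  have hypos : 0 < y := by positivity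
  have hrri : rr ^ i ≤ 1 := pow_le_one₀ rr_pos.le (rr_le.trans (by norm_num))
  have hLbig : 1000 ≤ (x : ℝ) * t ^ 2 := by rw [ht2]; nlinarith
  have hVbig : 10 ≤ (V.card : ℝ) * (1 / 2) ^ i := by
    have h1 : (V.card : ℝ) * (1 / 2) ^ i * rr ^ i ≤ (V.card : ℝ) * (1 / 2) ^ i * 1 :=
      mul_le_mul_of_nonneg_left hrri (by positivity)
    linarith
  have hyb : 1 / 2 ≤ y := by
    rw [hy, pow_add]
    norm_num
    linarith
  refine ⟨V, y, hVne, hypos, ?_, ?_⟩
  · -- the mass of the event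
    set E := S.filter (fun Y => y ≤ ((Y ∩ V).card : ℝ)) with hE
    have h1 : 2 * y * mass S μ A ≤ ∑ v ∈ V, mass S μ (insert v A) := by
      calc 2 * y * mass S μ A = ∑ v ∈ V, (1 / 2 : ℝ) ^ (i + 1) * mass S μ A := by
            rw [sum_const, nsmul_eq_mul, hy]
            ring
        _ ≤ _ := by
            apply sum_le_sum
            intro v hv
            have := hVf v hv
            rw [lt_div_iff₀ hMA] at this
            exact this.le
    rw [sum_mass_insert] at h1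
    have h2 : ∑ Y ∈ S.filter (fun Y => A ⊆ Y), μ Y * ((Y ∩ V).card : ℝ)
        ≤ y * mass S μ A + u * ∑ Y ∈ E, μ Y := by
      have h3 := sum_filter_add_sum_filter_not (S.filter (fun Y => A ⊆ Y))
        (fun Y => y ≤ ((Y ∩ V).card : ℝ)) (fun Y => μ Y * ((Y ∩ V).card : ℝ))
      rw [← h3, add_comm]
      apply add_le_add
      · calc ∑ Y ∈ (S.filter (fun Y => A ⊆ Y)).filter (fun Y => ¬ y ≤ ((Y ∩ V).card : ℝ)),
              μ Y * ((Y ∩ V).card : ℝ)
            ≤ ∑ Y ∈ (S.filter (fun Y => A ⊆ Y)).filter (fun Y => ¬ y ≤ ((Y ∩ V).card : ℝ)),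
              μ Y * y := by
              apply sum_le_sum
              intro Y hY
              rw [mem_filter] at hY
              exact mul_le_mul_of_nonneg_left (not_le.1 hY.2).le (hμ Y)
          _ ≤ ∑ Y ∈ S.filter (fun Y => A ⊆ Y), μ Y * y :=
              sum_le_sum_of_subset_of_nonneg (filter_subset _ _)
                fun Y _ _ => mul_nonneg (hμ Y) hypos.le
          _ = y * mass S μ A := by rw [← sum_mul, mul_comm]; rfl
      · calc ∑ Y ∈ (S.filter (fun Y => A ⊆ Y)).filter (fun Y => y ≤ ((Y ∩ V).card : ℝ)),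
              μ Y * ((Y ∩ V).card : ℝ)
            ≤ ∑ Y ∈ (S.filter (fun Y => A ⊆ Y)).filter (fun Y => y ≤ ((Y ∩ V).card : ℝ)),
              μ Y * u := by
              apply sum_le_sum
              intro Y hY
              rw [mem_filter, mem_filter] at hY
              apply mul_le_mul_of_nonneg_left _ (hμ Y)
              have := card_le_card (inter_subset_left : Y ∩ V ⊆ Y)
              rw [hu Y hY.1.1] at this
              exact_mod_cast this
          _ ≤ ∑ Y ∈ E, μ Y * u := by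
              apply sum_le_sum_of_subset_of_nonneg
              · intro Y hY
                rw [mem_filter, mem_filter] at hY
                rw [hE, mem_filter]
                exact ⟨hY.1.1, hY.2⟩
              · intro Y _ _
                exact mul_nonneg (hμ Y) (Nat.cast_nonneg u)
          _ = u * ∑ Y ∈ E, μ Y := by rw [← sum_mul, mul_comm]
    have h4 : y * mass S μ A ≤ u * ∑ Y ∈ E, μ Y := by linarith
    have h5 : (ν ^ (7 * x))⁻¹ / 4 ≤ y * mass S μ A := by
      have h6 : ν ^ (7 * x) = t ^ (28 * x) := by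
        rw [← ht4, ← pow_mul]; ring_nf
      rw [h6]
      have h7 : (1 / 2) * ((t ^ (28 * x))⁻¹ / 2) ≤ y * mass S μ A :=
        mul_le_mul hyb hAδ hδ.le hypos.le
      linarith
    have hupos : (0 : ℝ) < u := by
      rcases Nat.eq_zero_or_pos u with h0 | h0
      · exfalso
        rw [h0] at h4
        have h8 : 0 < y * mass S μ A := by positivity
        simp only [Nat.cast_zero, zero_mul] at h4
        linarith
      · exact_mod_cast h0
    rw [div_mul_eq_div_div, div_le_iff₀ hupos]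
    linarith
  · have hq : y ^ (57 / 56 : ℝ) * (V.card : ℝ) ^ (-(1 / 56) : ℝ) = y * rr ^ (i + 2) := by
      rw [show (57 / 56 : ℝ) = 1 + 1 / 56 by norm_num, Real.rpow_add hypos, Real.rpow_one]
      have h1 : y ^ (1 / 56 : ℝ) = (V.card : ℝ) ^ (1 / 56 : ℝ) * rr ^ (i + 2) := by
        rw [hy, Real.mul_rpow hVc.le (by positivity), half_rpow]
      rw [h1, Real.rpow_neg hVc.le]
      have h2 : (V.card : ℝ) ^ (1 / 56 : ℝ) ≠ 0 := (Real.rpow_pos_of_pos hVc _).ne'
      field_simp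
    rw [hq, hy, ← ht2]
    have h3 : (V.card : ℝ) * (1 / 2) ^ (i + 2) * rr ^ (i + 2)
        = ((V.card : ℝ) * (1 / 2) ^ i * rr ^ i) * (rr ^ 2 / 4) := by ring
    rw [h3]
    have h4 := rr_sq
    have h5 : (x : ℝ) * t ^ 2 / 100 * (1 / 8)
        ≤ ((V.card : ℝ) * (1 / 2) ^ i * rr ^ i) * (rr ^ 2 / 4) := by
      apply mul_le_mul hVL _ (by norm_num) _
      · linarith
      · have := pow_pos rr_pos i
        positivity
    linarith

end Main

end P034F
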