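import Vale.Agent.P034F.Base
import Vale.Agent.P034F.PromiseCore

/-! # P034: the promise lemma in the form of the skeleton -/

namespace TAL

open Finset

variable {X : Type} [Fintype X] [DecidableEq X]

theorem le_QQ_of (S : Finset (Finset X)) (hne : S.Nonempty) (V : Finset X) (hV : V.Nonempty)
    (y : ℝ) (hy : 0 < y) (h : ∀ Y ∈ S, y ≤ ((Y ∩ V).card : ℝ)) :
    y ^ (57 / 56 : ℝ) * (V.card : ℝ) ^ (-(1 / 56) : ℝ) ≤ QQ S := by
  have hVc : (0 : ℝ) < V.card := by exact_mod_cast card_pos.2 hV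
  have hmm : y ≤ (mm S V : ℝ) := by
    unfold mm
    rw [dif_pos hne]
    obtain ⟨Y, hY, hYe⟩ := exists_mem_eq_inf' hne (fun Y => (Y ∩ V).card)
    rw [hYe]
    exact h Y hY
  have h1 : (mm S V : ℝ) * ((mm S V : ℝ) / (V.card : ℝ)) ^ ((1 : ℝ) / 56) ≤ QQ S := by
    unfold QQ
    exact le_sup' (fun V => (mm S V : ℝ) * ((mm S V : ℝ) / (V.card : ℝ)) ^ ((1 : ℝ) / 56))
      (mem_univ V)
  refine le_trans ?_ h1
  have h2 : y ^ (57 / 56 : ℝ) * (V.card : ℝ) ^ (-(1 / 56) : ℝ)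
      = y * (y / (V.card : ℝ)) ^ ((1 : ℝ) / 56) := by
    rw [show (57 / 56 : ℝ) = 1 + 1 / 56 by norm_num, Real.rpow_add hy, Real.rpow_one,
      Real.div_rpow hy.le hVc.le, Real.rpow_neg hVc.le]
    have h3 : (V.card : ℝ) ^ (1 / 56 : ℝ) ≠ 0 := (Real.rpow_pos_of_pos hVc _).ne'
    field_simp
  rw [h2]
  apply mul_le_mul hmm _ (by positivity) (by positivity)
  apply Real.rpow_le_rpow (by positivity) _ (by norm_num)
  exact div_le_div_of_nonneg_right hmm hVc.le

theorem num_exp (L : ℝ) (hL : 100 ≤ L) : 7200 * L ≤ Real.exp (L / 4) := by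
  have h1 : Real.exp (L / 4) = Real.exp 25 * Real.exp ((L - 100) / 4) := by
    rw [← Real.exp_add]; ring_nf
  have h2 : (L - 100) / 4 + 1 ≤ Real.exp ((L - 100) / 4) := Real.add_one_le_exp _
  have h3 : (33554432 : ℝ) ≤ Real.exp 25 := by
    have h4 : Real.exp 25 = Real.exp 1 ^ 25 := by
      rw [← Real.exp_nat_mul]; norm_num
    rw [h4]
    have h5 : (2 : ℝ) ≤ Real.exp 1 := by
      have := Real.add_one_le_exp (1 : ℝ)
      linarith
    calc (33554432 : ℝ) = 2 ^ 25 := by norm_num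
      _ ≤ Real.exp 1 ^ 25 := pow_le_pow_left₀ (by norm_num) h5 25
  rw [h1]
  have h6 : 0 ≤ (L - 100) / 4 := by linarith
  have h7 : (33554432 : ℝ) * ((L - 100) / 4 + 1) ≤ Real.exp 25 * Real.exp ((L - 100) / 4) :=
    mul_le_mul h3 h2 (by linarith) (by positivity)
  linarith

/-- [PRM] promise lemma. -/
theorem promise (u x : ℕ) (ν : ℝ) (μ : Finset X → ℝ) (Zs : Finset (Finset X)) (hx : 1 ≤ x)
    (hν : Real.exp 100 ≤ ν) (h0 : ∀ Y, 0 ≤ μ Y) (hc : ∀ Y, μ Y ≠ 0 → Y.card = u) (h1 : tot μ = 1)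
    (hZ : ∀ Z ∈ Zs, Z.card = x)
    (hcount : ∀ Y, μ Y ≠ 0 → ν ^ x ≤ ((Zs.filter (fun Z => Z ⊆ Y)).card : ℝ))
    (hZs : (Zs.card : ℝ) ≤ ν ^ (8 * x)) :
    ∃ S : Finset (Finset X), (∀ Y ∈ S, μ Y ≠ 0) ∧
      1 ≤ (∑ Y ∈ S, μ Y) * (ν ^ (7 * x) * (4 * (u : ℝ))) ∧
      9 * (x : ℝ) * Real.log ν ≤ Real.exp (-(Real.log ν) / 4) * QQ S := by
  classical
  have hν0 : 0 < ν := lt_of_lt_of_le (Real.exp_pos _) hν
  have hlog : 100 ≤ Real.log ν := by
    rw [Real.le_log_iff_exp_le hν0]; exact hν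
  have hν6 : (10 : ℝ) ^ 6 ≤ ν := by
    refine le_trans ?_ hν
    have h4 : Real.exp 100 = Real.exp 1 ^ 100 := by
      rw [← Real.exp_nat_mul]; norm_num
    rw [h4]
    have h5 : (2 : ℝ) ≤ Real.exp 1 := by
      have := Real.add_one_le_exp (1 : ℝ)
      linarith
    calc (10 : ℝ) ^ 6 ≤ 2 ^ 100 := by norm_num
      _ ≤ Real.exp 1 ^ 100 := pow_le_pow_left₀ (by norm_num) h5 100
  set S0 : Finset (Finset X) := univ.filter (fun Y => μ Y ≠ 0) with hS0
  have hS0sum : ∑ Y ∈ S0, μ Y = 1 := by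
    rw [hS0, sum_filter_ne_zero]; exact h1
  obtain ⟨V, y, hV, hy, hmass, hQ⟩ := P034F.promise S0 μ h0 hS0sum u x hx
    (by intro Y hY; rw [hS0, mem_filter] at hY; exact hc Y hY.2) Zs hZ ν hν6
    (by intro Y hY; rw [hS0, mem_filter] at hY; exact hcount Y hY.2) hZs
  set S := S0.filter (fun Y => y ≤ ((Y ∩ V).card : ℝ)) with hS
  have hu0 : 0 < u := by
    rcases Nat.eq_zero_or_pos u with h | h
    · exfalso
      have hne : S0.Nonempty := by
        by_contra hh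
        rw [not_nonempty_iff_eq_empty] at hh
        rw [hh] at hS0sum
        simp at hS0sum
      obtain ⟨Y, hY⟩ := hne
      rw [hS0, mem_filter] at hY
      have hYc := hc Y hY.2
      rw [h, card_eq_zero] at hYc
      have h2 := hcount Y hY.2
      have h3 : Zs.filter (fun Z => Z ⊆ Y) = ∅ := by
        apply filter_eq_empty_iff.2
        intro Z hZm hsub
        rw [hYc] at hsub
        have := hZ Z hZm
        rw [subset_empty.1 hsub, card_empty] at this
        omega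
      rw [h3, card_empty, Nat.cast_zero] at h2
      have : 0 < ν ^ x := by positivity
      linarith
    · exact h
  have hur : (0 : ℝ) < u := by exact_mod_cast hu0
  have hpow : 0 < ν ^ (7 * x) := by positivity
  have hmpos : 0 < ∑ Y ∈ S, μ Y := lt_of_lt_of_le (by positivity) hmass
  have hSne : S.Nonempty := by
    by_contra hh
    rw [not_nonempty_iff_eq_empty] at hh
    rw [hh] at hmpos
    simp at hmpos
  refine ⟨S, ?_, ?_, ?_⟩
  · intro Y hY
    rw [hS, mem_filter, hS0, mem_filter] at hY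
    exact hY.1.2
  · have h2 := mul_le_mul_of_nonneg_right hmass (show 0 ≤ ν ^ (7 * x) * (4 * (u : ℝ)) by positivity)
    have h3 : (ν ^ (7 * x))⁻¹ / (4 * (u : ℝ)) * (ν ^ (7 * x) * (4 * (u : ℝ))) = 1 := by
      field_simp
    rw [h3] at h2
    exact h2
  · have h2 := le_QQ_of S hSne V hV y hy (by
      intro Y hY
      rw [hS, mem_filter] at hY
      exact hY.2)
    have h3 : (x : ℝ) * Real.sqrt ν / 800 ≤ QQ S := hQ.trans h2
    have h4 : Real.sqrt ν = Real.exp (Real.log ν / 2) := by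
      rw [Real.exp_half, Real.exp_log hν0]
    have h5 : Real.exp (-(Real.log ν) / 4) * ((x : ℝ) * Real.sqrt ν / 800)
        ≤ Real.exp (-(Real.log ν) / 4) * QQ S :=
      mul_le_mul_of_nonneg_left h3 (Real.exp_pos _).le
    refine le_trans ?_ h5
    have h6 : Real.exp (-(Real.log ν) / 4) * ((x : ℝ) * Real.sqrt ν / 800)
        = (x : ℝ) / 800 * Real.exp (Real.log ν / 4) := by
      rw [h4, show Real.exp (-(Real.log ν) / 4) * ((x : ℝ) * Real.exp (Real.log ν / 2) / 800)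
        = (x : ℝ) / 800 * (Real.exp (-(Real.log ν) / 4) * Real.exp (Real.log ν / 2)) by ring,
        ← Real.exp_add]
      ring_nf
    rw [h6]
    have h7 := num_exp (Real.log ν) hlog
    have h8 : (x : ℝ) / 800 * (7200 * Real.log ν) ≤ (x : ℝ) / 800 * Real.exp (Real.log ν / 4) :=
      mul_le_mul_of_nonneg_left h7 (by positivity)
    linarith

end TAL
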