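import Vale.Agent.P034F.Base
import Vale.Agent.P034F.Promise
import Vale.Agent.P034F.Pot

/-! # P034, piece TST: extremal conditioning and the step for a fixed set T -/

namespace TAL
open Finset

variable {X : Type} [Fintype X] [DecidableEq X]

/-- elementary lower bound for the scales -/
lemma le_nu_base (B : ℝ) (hB : 1 ≤ B) (j : ℕ) : B ≤ nu B j := by
  unfold nu
  exact le_self_pow₀ hB (by positivity)

open Classical in
/-- Extremal event: maximizes `QQ` among the sets of supports `S` with `exp (-ε QQ S) ≤ μ S`. -/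
lemma exists_max_event (ε : ℝ) (hε : 0 ≤ ε) (u : ℕ) (μ : Finset X → ℝ)
    (h0 : ∀ Y, 0 ≤ μ Y) (hc : ∀ Y, μ Y ≠ 0 → Y.card = u) (h1 : tot μ = 1) :
    ∃ S : Finset (Finset X), S.Nonempty ∧ (∀ Y ∈ S, μ Y ≠ 0) ∧
      Real.exp (-(ε * QQ S)) ≤ ∑ Y ∈ S, μ Y ∧
      ∀ S' : Finset (Finset X), S'.Nonempty → (∀ Y ∈ S', μ Y ≠ 0) →
        Real.exp (-(ε * QQ S')) ≤ ∑ Y ∈ S', μ Y → QQ S' ≤ QQ S := by
  set S0 : Finset (Finset X) := univ.filter (fun Y => μ Y ≠ 0) with hS0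
  have hS0sum : ∑ Y ∈ S0, μ Y = 1 := by
    rw [← h1, tot, hS0, Finset.sum_filter]
    refine Finset.sum_congr rfl fun Y _ => ?_
    split_ifs with h
    · rfl
    · exact (not_not.mp h).symm
  have hS0ne : S0.Nonempty := by
    by_contra h
    rw [Finset.not_nonempty_iff_eq_empty] at h
    rw [h] at hS0sum
    simp at hS0sum
  set C : Finset (Finset (Finset X)) := S0.powerset.filter
    (fun E => E.Nonempty ∧ Real.exp (-(ε * QQ E)) ≤ ∑ Y ∈ E, μ Y) with hC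
  have hCne : C.Nonempty := by
    refine ⟨S0, ?_⟩
    rw [hC, Finset.mem_filter]
    refine ⟨Finset.mem_powerset_self _, hS0ne, ?_⟩
    rw [hS0sum]
    apply Real.exp_le_one_iff.mpr
    have hq := (QQ_le S0 u hS0ne (fun Y hY => hc Y (Finset.mem_filter.mp hY).2)).2
    have := mul_nonneg hε hq
    linarith
  obtain ⟨E, hEC, hEmax⟩ := Finset.exists_max_image C QQ hCne
  rw [hC, Finset.mem_filter, Finset.mem_powerset] at hEC
  obtain ⟨hES0, hEne, hEexp⟩ := hEC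
  refine ⟨E, hEne, fun Y hY => (Finset.mem_filter.mp (hES0 hY)).2, hEexp, ?_⟩
  intro S' hne hS' hexp
  apply hEmax
  rw [hC, Finset.mem_filter, Finset.mem_powerset]
  refine ⟨fun Y hY => ?_, hne, hexp⟩
  rw [hS0, Finset.mem_filter]
  exact ⟨Finset.mem_univ _, hS' Y hY⟩

open Classical in
/-- The key consequence of extremality: a popular core level has small scale. -/
lemma core_small (B : ℝ) (hB : Real.exp 100 ≤ B) (ν : ℝ) (hν : B ≤ ν) (u : ℕ) (hu : 1 ≤ u)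
    (μ : Finset X → ℝ) (T : Finset X) (hμ : IsP T u μ) (S : Finset (Finset X))
    (hSne : S.Nonempty) (hSμ : ∀ Y ∈ S, μ Y ≠ 0)
    (hexp : Real.exp (-(Real.exp (-(Real.log B) / 4) * QQ S)) ≤ ∑ Y ∈ S, μ Y)
    (hmax : ∀ S' : Finset (Finset X), S'.Nonempty → (∀ Y ∈ S', μ Y ≠ 0) →
        Real.exp (-(Real.exp (-(Real.log B) / 4) * QQ S')) ≤ ∑ Y ∈ S', μ Y → QQ S' ≤ QQ S)
    (t : ℕ) (ht : Real.exp (-(Real.log B) / 4) * QQ S ≤ t)
    (x : ℕ) (hx : 1 ≤ x) (Zs Ys : Finset (Finset X)) (hZ : ∀ Z ∈ Zs, Z.card = x)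
    (hY : ∀ Y ∈ Ys, ν ^ x ≤ ((Zs.filter (fun Z => Z ⊆ Y)).card : ℝ))
    (hT : ((Zs.filter (fun Z => Z ⊆ T)).card : ℝ) ≤ ν ^ (8 * x))
    (hpop : ∑ Y ∈ S, μ Y ≤ 4 * ((u : ℝ) + 1) ^ 2 * ∑ Y ∈ S.filter (fun Y => Y ∈ Ys), μ Y) :
    ν ^ x ≤ Real.exp t * (16 * ((u : ℝ) + 1) ^ 3) := by
  obtain ⟨h0, hc, h1⟩ := hμ
  by_contra hcon
  push Not at hcon
  set ε : ℝ := Real.exp (-(Real.log B) / 4) with hε
  have hε0 : 0 < ε := Real.exp_pos _
  have hB0 : 0 < B := lt_of_lt_of_le (Real.exp_pos _) hB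
  have hν0 : 0 < ν := lt_of_lt_of_le hB0 hν
  have hu1 : (1:ℝ) ≤ u := by exact_mod_cast hu
  have hEpos : 0 < ∑ Y ∈ S, μ Y := lt_of_lt_of_le (Real.exp_pos _) hexp
  set G := S.filter (fun Y => Y ∈ Ys) with hG
  set mG := ∑ Y ∈ G, μ Y with hmG
  have hmG0 : 0 < mG := by
    by_contra h
    push Not at h
    have : 4 * ((u : ℝ) + 1) ^ 2 * mG ≤ 0 := mul_nonpos_of_nonneg_of_nonpos (by positivity) h
    linarith
  -- normalized measure on `G`
  set μ' : Finset X → ℝ := fun Y => if Y ∈ G then μ Y / mG else 0 with hμ'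
  have hμ'0 : ∀ Y, 0 ≤ μ' Y := by
    intro Y
    simp only [hμ']
    split_ifs
    · exact div_nonneg (h0 Y) hmG0.le
    · exact le_rfl
  have hμ'G : ∀ Y, μ' Y ≠ 0 → Y ∈ G := by
    intro Y hY'
    by_contra h
    exact hY' (by simp only [hμ', if_neg h])
  have hμ'sum : ∀ S' ⊆ G, ∑ Y ∈ S', μ' Y = (∑ Y ∈ S', μ Y) / mG := by
    intro S' hS'
    rw [Finset.sum_div]
    refine Finset.sum_congr rfl fun Y hY' => ?_
    simp only [hμ', if_pos (hS' hY')]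
  have hμ'1 : tot μ' = 1 := by
    have : tot μ' = ∑ Y ∈ G, μ' Y := by
      unfold tot
      symm
      apply Finset.sum_subset (Finset.subset_univ _)
      intro Y _ hY'
      simp only [hμ', if_neg hY']
    rw [this, hμ'sum G (Finset.Subset.refl _)]
    exact div_self hmG0.ne'
  have hZT : ∀ Z ∈ Zs.filter (fun Z => Z ⊆ T), Z.card = x := fun Z hZ' =>
    hZ Z (Finset.mem_filter.mp hZ').1
  obtain ⟨S', hS'μ, hS'mass, hS'Q⟩ := promise u x ν μ' (Zs.filter (fun Z => Z ⊆ T)) hx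
    (hB.trans hν) hμ'0 (fun Y hY' => (hc Y (hSμ Y (Finset.mem_filter.mp (hμ'G Y hY')).1)).1) hμ'1 hZT
    (by
      intro Y hY'
      have hYG := Finset.mem_filter.mp (hμ'G Y hY')
      have hYT : Y ⊆ T := (hc Y (hSμ Y hYG.1)).2
      have heq : (Zs.filter (fun Z => Z ⊆ T)).filter (fun Z => Z ⊆ Y)
          = Zs.filter (fun Z => Z ⊆ Y) := by
        ext Z
        simp only [Finset.mem_filter]
        constructor
        · rintro ⟨⟨h1, _⟩, h2⟩
          exact ⟨h1, h2⟩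
        · rintro ⟨h1, h2⟩
          exact ⟨⟨h1, h2.trans hYT⟩, h2⟩
      rw [heq]
      exact hY Y hYG.2) hT
  have hS'G : S' ⊆ G := fun Y hY' => hμ'G Y (hS'μ Y hY')
  rw [hμ'sum S' hS'G] at hS'mass
  set mS' := ∑ Y ∈ S', μ Y with hmS'
  have hνpow : 0 < ν ^ (7 * x) := by positivity
  have hmass : mG ≤ mS' * (ν ^ (7 * x) * (4 * (u:ℝ))) := by
    have : mS' / mG * (ν ^ (7 * x) * (4 * (u:ℝ))) = mS' * (ν ^ (7 * x) * (4 * (u:ℝ))) / mG := by
      ring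
    rw [this, le_div_iff₀ hmG0, one_mul] at hS'mass
    exact hS'mass
  have hmS'0 : 0 < mS' := by
    by_contra h
    push Not at h
    have : mS' * (ν ^ (7 * x) * (4 * (u:ℝ))) ≤ 0 :=
      mul_nonpos_of_nonpos_of_nonneg h (by positivity)
    linarith
  have hS'ne : S'.Nonempty := by
    by_contra h
    rw [Finset.not_nonempty_iff_eq_empty] at h
    rw [hmS', h] at hmS'0
    simp at hmS'0
  set L := (x:ℝ) * Real.log ν with hL
  have hx1 : (1:ℝ) ≤ x := by exact_mod_cast hx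
  have hlogν : 100 ≤ Real.log ν := by
    rw [Real.le_log_iff_exp_le hν0]
    exact hB.trans hν
  have hexpL : Real.exp L = ν ^ x := by
    rw [hL, mul_comm, ← Real.rpow_def_of_pos hν0, Real.rpow_natCast]
  have hL0 : 0 < L := by positivity
  have hexpL7 : Real.exp (7 * L) = ν ^ (7 * x) := by
    rw [show (7:ℝ) * L = ((7:ℕ):ℝ) * L by norm_num, Real.exp_nat_mul, hexpL, ← pow_mul]
    ring_nf
  have hpow3 : (16:ℝ) ≤ 16 * ((u : ℝ) + 1) ^ 3 := by
    have : (1:ℝ) ≤ ((u : ℝ) + 1) ^ 3 := one_le_pow₀ (by linarith)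
    linarith
  -- `exp t < exp L / (16 (u+1)^3)`
  have hexpt : Real.exp t * (16 * ((u : ℝ) + 1) ^ 3) < Real.exp L := by rw [hexpL]; exact hcon
  -- mass of `S'`
  have hlow : Real.exp (-(8 * L)) ≤ mS' := by
    have h2 : Real.exp (-(t:ℝ)) ≤ 4 * ((u : ℝ) + 1) ^ 2 * (mS' * (ν ^ (7 * x) * (4 * (u:ℝ)))) := by
      calc Real.exp (-(t:ℝ)) ≤ Real.exp (-(ε * QQ S)) := by
            apply Real.exp_le_exp.mpr; linarith
        _ ≤ ∑ Y ∈ S, μ Y := hexp
        _ ≤ 4 * ((u : ℝ) + 1) ^ 2 * mG := hpop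
        _ ≤ _ := mul_le_mul_of_nonneg_left hmass (by positivity)
    have h3 : 4 * ((u : ℝ) + 1) ^ 2 * (mS' * (ν ^ (7 * x) * (4 * (u:ℝ))))
        ≤ (16 * ((u : ℝ) + 1) ^ 3) * (mS' * Real.exp (7 * L)) := by
      rw [hexpL7]
      have e1 : 4 * ((u : ℝ) + 1) ^ 2 * (mS' * (ν ^ (7 * x) * (4 * (u:ℝ))))
          = 16 * ((u : ℝ) + 1) ^ 2 * (mS' * ν ^ (7 * x)) * u := by ring
      have e2 : (16 * ((u : ℝ) + 1) ^ 3) * (mS' * ν ^ (7 * x))
          = 16 * ((u : ℝ) + 1) ^ 2 * (mS' * ν ^ (7 * x)) * (u + 1) := by ring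
      rw [e1, e2]
      apply mul_le_mul_of_nonneg_left (by linarith) (by positivity)
    have h4 : 1 ≤ (Real.exp t * (16 * ((u : ℝ) + 1) ^ 3)) * (mS' * Real.exp (7 * L)) := by
      have h5 := h2.trans h3
      rw [Real.exp_neg, inv_le_iff_one_le_mul₀ (Real.exp_pos _)] at h5
      calc (1:ℝ) ≤ 16 * ((u : ℝ) + 1) ^ 3 * (mS' * Real.exp (7 * L)) * Real.exp t := h5
        _ = _ := by ring
    have h6 : 1 ≤ Real.exp L * (mS' * Real.exp (7 * L)) :=
      h4.trans (mul_le_mul_of_nonneg_right hexpt.le (by positivity))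
    have h7 : Real.exp L * (mS' * Real.exp (7 * L)) = mS' * Real.exp (8 * L) := by
      rw [show (8:ℝ) * L = L + 7 * L by ring, Real.exp_add]; ring
    rw [h7] at h6
    rw [Real.exp_neg, inv_le_iff_one_le_mul₀ (Real.exp_pos _)]
    exact h6
  -- `9 L ≤ ε QQ S'`
  have hQ9 : 9 * L ≤ ε * QQ S' := by
    have hq := (QQ_le S' u hS'ne (fun Y hY' => (hc Y (hSμ Y
      (Finset.mem_filter.mp (hS'G hY')).1)).1)).2
    have hεν : Real.exp (-(Real.log ν) / 4) ≤ ε := by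
      rw [hε]
      apply Real.exp_le_exp.mpr
      have := Real.log_le_log hB0 hν
      linarith
    calc 9 * L = 9 * (x:ℝ) * Real.log ν := by rw [hL]; ring
      _ ≤ Real.exp (-(Real.log ν) / 4) * QQ S' := hS'Q
      _ ≤ ε * QQ S' := mul_le_mul_of_nonneg_right hεν hq
  have hle := hmax S' hS'ne (fun Y hY' => hSμ Y (Finset.mem_filter.mp (hS'G hY')).1)
    (le_trans (Real.exp_le_exp.mpr (by linarith)) hlow)
  have h8 : ε * QQ S' ≤ t := (mul_le_mul_of_nonneg_left hle hε0.le).trans ht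
  -- `t < L`
  have h9 : (t:ℝ) < L := by
    by_contra h
    push Not at h
    have h10 : Real.exp L ≤ Real.exp t := Real.exp_le_exp.mpr h
    have h11 : Real.exp t ≤ Real.exp t * (16 * ((u : ℝ) + 1) ^ 3) :=
      le_mul_of_one_le_right (Real.exp_pos _).le (by linarith)
    linarith
  linarith

open Classical in
/-- [TST] strong form. -/
theorem tstep' (B : ℝ) (hB : Real.exp 100 ≤ B) (u : ℕ) (hu : 1 ≤ u) (μ : Finset X → ℝ)
    (T : Finset X) (hμ : IsP T u μ)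
    (C D : ℕ → ℕ → Finset X → Finset X → Prop) (Ys Zs : ℕ → ℕ → Finset (Finset X))
    (hcov : ∀ x ≤ u, ∀ Y Y', μ Y ≠ 0 → μ Y' ≠ 0 → (Y ∩ Y').card = x →
        (∃ j ≤ u, C x j Y Y' ∨ C x j Y' Y) ∨ (∃ j < u, D x j Y Y' ∨ D x j Y' Y))
    (hD : ∀ x j Y Y', D x j Y Y' → Y ∈ Ys x j)
    (hY : ∀ x j, ∀ Y ∈ Ys x j, (nu B j) ^ x ≤ (((Zs x j).filter (fun Z => Z ⊆ Y)).card : ℝ))
    (hZ : ∀ x j, ∀ Z ∈ Zs x j, Z.card = x)
    (hT : ∀ x j, 1 ≤ x → x ≤ u → j < u →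
      (((Zs x j).filter (fun Z => Z ⊆ T)).card : ℝ) ≤ (nu B j) ^ (8 * x)) :
    ∃ (S : Finset (Finset X)) (t : ℕ), S.Nonempty ∧ (∀ Y ∈ S, μ Y ≠ 0) ∧
      (t : ℝ) ≤ Real.exp (-(Real.log B) / 4) * QQ S + 1 ∧ t ≤ u + 1 ∧
      Real.exp (-(t : ℝ)) ≤ ∑ Y ∈ S, μ Y ∧
      ∃ x ≤ u,
        (∃ j ≤ u, (∑ Y ∈ S, μ Y) ^ 2 ≤ 4 * ((u : ℝ) + 1) ^ 2 *
            ∑ Y ∈ S, ∑ Y' ∈ S, if C x j Y Y' then μ Y * μ Y' else 0) ∨
        (∃ j < u, (∑ Y ∈ S, μ Y) ^ 2 ≤ 4 * ((u : ℝ) + 1) ^ 2 *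
            (∑ Y ∈ S, ∑ Y' ∈ S, if D x j Y Y' then μ Y * μ Y' else 0) ∧
          (nu B j) ^ x ≤ Real.exp (t : ℝ) * (16 * ((u : ℝ) + 1) ^ 3)) := by
  obtain ⟨h0, hc, h1⟩ := hμ
  set ε : ℝ := Real.exp (-(Real.log B) / 4) with hε
  have hε0 : 0 < ε := Real.exp_pos _
  have hB0 : 0 < B := lt_of_lt_of_le (Real.exp_pos _) hB
  have hB1 : 1 ≤ B := le_trans (Real.one_le_exp (by norm_num)) hB
  have hε1 : ε ≤ 1 := by
    rw [hε]
    apply Real.exp_le_one_iff.mpr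
    have := Real.log_nonneg hB1
    linarith
  obtain ⟨S, hSne, hSμ, hexp, hmax⟩ := exists_max_event ε hε0.le u μ h0 (fun Y hY' => (hc Y hY').1) h1
  have hQle := QQ_le S u hSne (fun Y hY' => (hc Y (hSμ Y hY')).1)
  set t : ℕ := ⌈ε * QQ S⌉₊ with ht
  have hεQ0 : 0 ≤ ε * QQ S := mul_nonneg hε0.le hQle.2
  have ht1 : ε * QQ S ≤ t := Nat.le_ceil _
  have ht2 : (t:ℝ) ≤ ε * QQ S + 1 := (Nat.ceil_lt_add_one hεQ0).le
  have ht3 : t ≤ u := by
    rw [ht]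
    apply Nat.ceil_le.mpr
    calc ε * QQ S ≤ 1 * QQ S := mul_le_mul_of_nonneg_right hε1 hQle.2
      _ ≤ u := by linarith [hQle.1]
  refine ⟨S, t, hSne, hSμ, ht2, by omega,
    le_trans (Real.exp_le_exp.mpr (by linarith)) hexp, ?_⟩
  -- pigeonhole
  set W : (Finset X → Finset X → Prop) → ℝ := fun R =>
    ∑ Y ∈ S, ∑ Y' ∈ S, if R Y Y' then μ Y * μ Y' else 0 with hW
  have hm0 : 0 < ∑ Y ∈ S, μ Y := lt_of_lt_of_le (Real.exp_pos _) hexp
  have hWswap : ∀ R : Finset X → Finset X → Prop, W (fun Y Y' => R Y' Y) = W R := by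
    intro R
    simp only [hW]
    rw [Finset.sum_comm]
    refine Finset.sum_congr rfl fun Y _ => Finset.sum_congr rfl fun Y' _ => ?_
    split_ifs
    · ring
    · rfl
  have hμμ : ∀ Y Y', 0 ≤ μ Y * μ Y' := fun Y Y' => mul_nonneg (h0 Y) (h0 Y')
  have hpig : (∑ Y ∈ S, μ Y) ^ 2 ≤
      2 * (∑ x ∈ range (u + 1), ∑ j ∈ range (u + 1), W (C x j))
      + 2 * (∑ x ∈ range (u + 1), ∑ j ∈ range u, W (D x j)) := by
    have e1 : (∑ Y ∈ S, μ Y) ^ 2 = ∑ Y ∈ S, ∑ Y' ∈ S, μ Y * μ Y' := by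
      rw [sq, Finset.sum_mul_sum]
    have e2 : 2 * (∑ x ∈ range (u + 1), ∑ j ∈ range (u + 1), W (C x j))
      + 2 * (∑ x ∈ range (u + 1), ∑ j ∈ range u, W (D x j))
      = ∑ Y ∈ S, ∑ Y' ∈ S, ((∑ x ∈ range (u + 1), ∑ j ∈ range (u + 1),
          ((if C x j Y Y' then μ Y * μ Y' else 0) + (if C x j Y' Y then μ Y * μ Y' else 0)))
        + (∑ x ∈ range (u + 1), ∑ j ∈ range u,
          ((if D x j Y Y' then μ Y * μ Y' else 0) + (if D x j Y' Y then μ Y * μ Y' else 0)))) := by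
      have key : ∀ (n : ℕ) (F : ℕ → ℕ → Finset X → Finset X → Prop),
          2 * (∑ x ∈ range (u + 1), ∑ j ∈ range n, W (F x j)) =
          ∑ Y ∈ S, ∑ Y' ∈ S, ∑ x ∈ range (u + 1), ∑ j ∈ range n,
          ((if F x j Y Y' then μ Y * μ Y' else 0) + (if F x j Y' Y then μ Y * μ Y' else 0)) := by
        intro n F
        have k1 : ∑ Y ∈ S, ∑ Y' ∈ S, ∑ x ∈ range (u + 1), ∑ j ∈ range n,
          ((if F x j Y Y' then μ Y * μ Y' else 0) + (if F x j Y' Y then μ Y * μ Y' else 0))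
          = ∑ x ∈ range (u + 1), ∑ j ∈ range n, ∑ Y ∈ S, ∑ Y' ∈ S,
            ((if F x j Y Y' then μ Y * μ Y' else 0) + (if F x j Y' Y then μ Y * μ Y' else 0)) := by
          calc _ = ∑ Y ∈ S, ∑ x ∈ range (u + 1), ∑ Y' ∈ S, ∑ j ∈ range n,
            ((if F x j Y Y' then μ Y * μ Y' else 0) + (if F x j Y' Y then μ Y * μ Y' else 0)) :=
                Finset.sum_congr rfl fun Y _ => Finset.sum_comm
            _ = ∑ x ∈ range (u + 1), ∑ Y ∈ S, ∑ Y' ∈ S, ∑ j ∈ range n,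
            ((if F x j Y Y' then μ Y * μ Y' else 0) + (if F x j Y' Y then μ Y * μ Y' else 0)) :=
                Finset.sum_comm
            _ = ∑ x ∈ range (u + 1), ∑ Y ∈ S, ∑ j ∈ range n, ∑ Y' ∈ S,
            ((if F x j Y Y' then μ Y * μ Y' else 0) + (if F x j Y' Y then μ Y * μ Y' else 0)) :=
                Finset.sum_congr rfl fun x _ => Finset.sum_congr rfl fun Y _ => Finset.sum_comm
            _ = _ := Finset.sum_congr rfl fun x _ => Finset.sum_comm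
        rw [k1, Finset.mul_sum]
        refine Finset.sum_congr rfl fun x _ => ?_
        rw [Finset.mul_sum]
        refine Finset.sum_congr rfl fun j _ => ?_
        have k2 : ∑ Y ∈ S, ∑ Y' ∈ S,
            ((if F x j Y Y' then μ Y * μ Y' else 0) + (if F x j Y' Y then μ Y * μ Y' else 0))
            = W (F x j) + W (fun Y Y' => F x j Y' Y) := by
          simp only [hW]
          rw [← Finset.sum_add_distrib]
          refine Finset.sum_congr rfl fun Y _ => ?_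
          rw [← Finset.sum_add_distrib]
        rw [k2, hWswap]
        ring
      rw [key, key, ← Finset.sum_add_distrib]
      refine Finset.sum_congr rfl fun Y _ => ?_
      rw [← Finset.sum_add_distrib]
    rw [e1, e2]
    refine Finset.sum_le_sum fun Y hYS => Finset.sum_le_sum fun Y' hYS' => ?_
    set x := (Y ∩ Y').card with hx
    have hxu : x ≤ u := by
      rw [hx, ← (hc Y (hSμ Y hYS)).1]
      exact Finset.card_le_card Finset.inter_subset_left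
    have hxmem : x ∈ range (u + 1) := Finset.mem_range.mpr (by omega)
    have hterm : ∀ (p : Prop) [Decidable p], (0:ℝ) ≤ if p then μ Y * μ Y' else 0 := by
      intro p _
      split_ifs
      · exact hμμ _ _
      · exact le_rfl
    have hCnn : (0:ℝ) ≤ ∑ x ∈ range (u + 1), ∑ j ∈ range (u + 1),
          ((if C x j Y Y' then μ Y * μ Y' else 0) + (if C x j Y' Y then μ Y * μ Y' else 0)) :=
      Finset.sum_nonneg fun _ _ => Finset.sum_nonneg fun _ _ => add_nonneg (hterm _) (hterm _)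
    have hDnn : (0:ℝ) ≤ ∑ x ∈ range (u + 1), ∑ j ∈ range u,
          ((if D x j Y Y' then μ Y * μ Y' else 0) + (if D x j Y' Y then μ Y * μ Y' else 0)) :=
      Finset.sum_nonneg fun _ _ => Finset.sum_nonneg fun _ _ => add_nonneg (hterm _) (hterm _)
    have single : ∀ (n : ℕ) (F : ℕ → ℕ → Finset X → Finset X → Prop) (j : ℕ), j ∈ range n →
        (F x j Y Y' ∨ F x j Y' Y) →
        μ Y * μ Y' ≤ ∑ x ∈ range (u + 1), ∑ j ∈ range n,
          ((if F x j Y Y' then μ Y * μ Y' else 0) + (if F x j Y' Y then μ Y * μ Y' else 0)) := by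
      intro n F j hj hF
      calc μ Y * μ Y' ≤ ((if F x j Y Y' then μ Y * μ Y' else 0)
            + (if F x j Y' Y then μ Y * μ Y' else 0)) := by
            rcases hF with hF | hF
            · rw [if_pos hF]
              linarith [hterm (F x j Y' Y)]
            · rw [if_pos hF]
              linarith [hterm (F x j Y Y')]
        _ ≤ ∑ j ∈ range n, ((if F x j Y Y' then μ Y * μ Y' else 0)
            + (if F x j Y' Y then μ Y * μ Y' else 0)) :=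
            Finset.single_le_sum (f := fun j => ((if F x j Y Y' then μ Y * μ Y' else 0)
            + (if F x j Y' Y then μ Y * μ Y' else 0))) (fun _ _ => add_nonneg (hterm _) (hterm _)) hj
        _ ≤ _ := Finset.single_le_sum (f := fun x => ∑ j ∈ range n,
              ((if F x j Y Y' then μ Y * μ Y' else 0)
            + (if F x j Y' Y then μ Y * μ Y' else 0)))
            (fun _ _ => Finset.sum_nonneg fun _ _ => add_nonneg (hterm _) (hterm _)) hxmem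
    rcases hcov x hxu Y Y' (hSμ Y hYS) (hSμ Y' hYS') hx.symm with ⟨j, hj, hC⟩ | ⟨j, hj, hD'⟩
    · have := single (u + 1) C j (Finset.mem_range.mpr (by omega)) hC
      linarith
    · have := single u D j (Finset.mem_range.mpr hj) hD'
      linarith
  -- some class is popular
  by_contra hno
  push Not at hno
  have hCsmall : ∀ x ∈ range (u + 1), ∀ j ∈ range (u + 1),
      W (C x j) ≤ (∑ Y ∈ S, μ Y) ^ 2 / (4 * ((u : ℝ) + 1) ^ 2) := by
    intro x hx j hj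
    have h := (hno x (by have := Finset.mem_range.mp hx; omega)).1 j
      (by have := Finset.mem_range.mp hj; omega)
    rw [le_div_iff₀ (by positivity)]
    have : W (C x j) * (4 * ((u : ℝ) + 1) ^ 2) = 4 * ((u : ℝ) + 1) ^ 2 * W (C x j) := by ring
    rw [this]
    exact h.le
  have hDsmall : ∀ x ∈ range (u + 1), ∀ j ∈ range u,
      W (D x j) < (∑ Y ∈ S, μ Y) ^ 2 / (4 * ((u : ℝ) + 1) ^ 2) := by
    intro x hx j hj
    have hxu : x ≤ u := by have := Finset.mem_range.mp hx; omega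
    have hju : j < u := Finset.mem_range.mp hj
    by_contra hcon
    push Not at hcon
    rw [div_le_iff₀ (by positivity)] at hcon
    have hcon' : (∑ Y ∈ S, μ Y) ^ 2 ≤ 4 * ((u : ℝ) + 1) ^ 2 * W (D x j) := by linarith
    have hbad := (hno x hxu).2 j hju hcon'
    -- contradiction via core_small
    rcases Nat.eq_zero_or_pos x with hx0 | hx0
    · rw [hx0, pow_zero] at hbad
      have h1 : (1:ℝ) ≤ Real.exp t := Real.one_le_exp (by positivity)
      have h2 : (1:ℝ) ≤ ((u : ℝ) + 1) ^ 3 := one_le_pow₀ (by linarith [Nat.cast_nonneg (α := ℝ) u])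
      nlinarith
    · have hpop : ∑ Y ∈ S, μ Y ≤ 4 * ((u : ℝ) + 1) ^ 2 *
          ∑ Y ∈ S.filter (fun Y => Y ∈ Ys x j), μ Y := by
        have hb : W (D x j) ≤ (∑ Y ∈ S.filter (fun Y => Y ∈ Ys x j), μ Y) * ∑ Y ∈ S, μ Y := by
          simp only [hW]
          rw [Finset.sum_filter, Finset.sum_mul]
          refine Finset.sum_le_sum fun Y _ => ?_
          rw [Finset.mul_sum]
          refine Finset.sum_le_sum fun Y' _ => ?_
          by_cases hDY : D x j Y Y'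
          · rw [if_pos hDY, if_pos (hD x j Y Y' hDY)]
          · rw [if_neg hDY]
            split_ifs
            · exact hμμ _ _
            · simp
        have hb2 : (∑ Y ∈ S, μ Y) * (∑ Y ∈ S, μ Y) ≤ (4 * ((u : ℝ) + 1) ^ 2 *
          ∑ Y ∈ S.filter (fun Y => Y ∈ Ys x j), μ Y) * ∑ Y ∈ S, μ Y := by
          calc (∑ Y ∈ S, μ Y) * (∑ Y ∈ S, μ Y) = (∑ Y ∈ S, μ Y) ^ 2 := by ring
            _ ≤ 4 * ((u : ℝ) + 1) ^ 2 * W (D x j) := hcon'
            _ ≤ 4 * ((u : ℝ) + 1) ^ 2 *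
                ((∑ Y ∈ S.filter (fun Y => Y ∈ Ys x j), μ Y) * ∑ Y ∈ S, μ Y) :=
                mul_le_mul_of_nonneg_left hb (by positivity)
            _ = _ := by ring
        exact le_of_mul_le_mul_right hb2 hm0
      have := core_small B hB (nu B j) (le_nu_base B hB1 j) u hu μ T ⟨h0, hc, h1⟩ S hSne hSμ hexp hmax
        t ht1 x hx0 (Zs x j) (Ys x j) (hZ x j) (hY x j) (hT x j hx0 hxu hju) hpop
      linarith
  have hsum1 : ∑ x ∈ range (u + 1), ∑ j ∈ range (u + 1), W (C x j)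
      ≤ ((u:ℝ) + 1) * ((u:ℝ) + 1) * ((∑ Y ∈ S, μ Y) ^ 2 / (4 * ((u : ℝ) + 1) ^ 2)) := by
    calc _ ≤ ∑ x ∈ range (u + 1), ∑ j ∈ range (u + 1),
          ((∑ Y ∈ S, μ Y) ^ 2 / (4 * ((u : ℝ) + 1) ^ 2)) :=
          Finset.sum_le_sum fun x hx => Finset.sum_le_sum fun j hj => hCsmall x hx j hj
      _ = _ := by
          simp only [Finset.sum_const, Finset.card_range, nsmul_eq_mul]
          push_cast
          ring
  have hsum2 : ∑ x ∈ range (u + 1), ∑ j ∈ range u, W (D x j)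
      < ((u:ℝ) + 1) * ((u:ℝ) + 1) * ((∑ Y ∈ S, μ Y) ^ 2 / (4 * ((u : ℝ) + 1) ^ 2)) := by
    have hpos : 0 < (∑ Y ∈ S, μ Y) ^ 2 / (4 * ((u : ℝ) + 1) ^ 2) := by positivity
    calc _ ≤ ∑ x ∈ range (u + 1), ∑ j ∈ range u,
          ((∑ Y ∈ S, μ Y) ^ 2 / (4 * ((u : ℝ) + 1) ^ 2)) :=
          Finset.sum_le_sum fun x hx => Finset.sum_le_sum fun j hj => (hDsmall x hx j hj).le
      _ = ((u:ℝ) + 1) * (u:ℝ) * ((∑ Y ∈ S, μ Y) ^ 2 / (4 * ((u : ℝ) + 1) ^ 2)) := by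
          simp only [Finset.sum_const, Finset.card_range, nsmul_eq_mul]
          push_cast
          ring
      _ < _ := by
          apply mul_lt_mul_of_pos_right _ hpos
          apply mul_lt_mul_of_pos_left (by linarith) (by positivity)
  have hfin : 2 * (((u:ℝ) + 1) * ((u:ℝ) + 1) * ((∑ Y ∈ S, μ Y) ^ 2 / (4 * ((u : ℝ) + 1) ^ 2)))
      + 2 * (((u:ℝ) + 1) * ((u:ℝ) + 1) * ((∑ Y ∈ S, μ Y) ^ 2 / (4 * ((u : ℝ) + 1) ^ 2)))
      = (∑ Y ∈ S, μ Y) ^ 2 := by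
    field_simp
    ring
  linarith

open Classical in
/-- [TST] the step for a fixed set `T` (extremal conditioning). -/
theorem tstep (B : ℝ) (hB : Real.exp 100 ≤ B) (u : ℕ) (hu : 1 ≤ u) (μ : Finset X → ℝ) (T : Finset X)
    (hμ : IsP T u μ)
    (C D : ℕ → ℕ → Finset X → Finset X → Prop) (Ys Zs : ℕ → ℕ → Finset (Finset X))
    (hcov : ∀ x ≤ u, ∀ Y Y', μ Y ≠ 0 → μ Y' ≠ 0 → (Y ∩ Y').card = x →
        (∃ j ≤ u, C x j Y Y' ∨ C x j Y' Y) ∨ (∃ j < u, D x j Y Y' ∨ D x j Y' Y))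
    (hD : ∀ x j Y Y', D x j Y Y' → Y ∈ Ys x j)
    (hY : ∀ x j, ∀ Y ∈ Ys x j, (nu B j) ^ x ≤ (((Zs x j).filter (fun Z => Z ⊆ Y)).card : ℝ))
    (hZ : ∀ x j, ∀ Z ∈ Zs x j, Z.card = x)
    (hT : ∀ x j, 1 ≤ x → x ≤ u → j < u →
      (((Zs x j).filter (fun Z => Z ⊆ T)).card : ℝ) ≤ (nu B j) ^ (8 * x)) :
    ∃ (S : Finset (Finset X)) (t : ℕ), S.Nonempty ∧ (∀ Y ∈ S, μ Y ≠ 0) ∧
      (t : ℝ) ≤ Real.exp (-(Real.log B) / 4) * QQ S + 1 ∧ t ≤ u + 1 ∧
      Real.exp (-(t : ℝ)) ≤ ∑ Y ∈ S, μ Y ∧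
      ∃ x ≤ u,
        (∃ j ≤ u, (∑ Y ∈ S, μ Y) ^ 2 ≤ 4 * ((u : ℝ) + 1) ^ 2 *
            ∑ Y ∈ S, ∑ Y' ∈ S, if C x j Y Y' then μ Y * μ Y' else 0) ∨
        (∃ j < u, (∑ Y ∈ S, μ Y) ^ 2 ≤ 4 * ((u : ℝ) + 1) ^ 2 *
            (∑ Y ∈ S, ∑ Y' ∈ S, if D x j Y Y' then μ Y * μ Y' else 0) ∧
          (nu B j) ^ (2 * x) ≤ Real.exp (2 * (t : ℝ)) * (16 * ((u : ℝ) + 1) ^ 3) ^ 2) := by
  obtain ⟨S, t, hSne, hSμ, ht, htu, hexp, x, hxu, hcase⟩ :=
    tstep' B hB u hu μ T hμ C D Ys Zs hcov hD hY hZ hT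
  refine ⟨S, t, hSne, hSμ, ht, htu, hexp, x, hxu, ?_⟩
  rcases hcase with h | ⟨j, hj, h1, h2⟩
  · exact Or.inl h
  · refine Or.inr ⟨j, hj, h1, ?_⟩
    have hB0 : 0 < B := lt_of_lt_of_le (Real.exp_pos _) hB
    have hnu : 0 ≤ (nu B j) ^ x := by unfold nu; positivity
    calc (nu B j) ^ (2 * x) = ((nu B j) ^ x) ^ 2 := by rw [← pow_mul, mul_comm]
      _ ≤ (Real.exp (t : ℝ) * (16 * ((u : ℝ) + 1) ^ 3)) ^ 2 := pow_le_pow_left₀ hnu h2 2
      _ = _ := by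
        rw [mul_pow, ← Real.exp_nat_mul]
        push_cast
        ring

end TAL
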