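import Vale.Agent.P034F.Base

/-!
P034F, piece MRG: the merged weight and the merged measure of a set `T`.
-/

namespace TAL
open Finset

set_option linter.unusedSectionVars false

variable {X : Type} [Fintype X] [DecidableEq X]

open Classical in
/-- merged weight -/
noncomputable def mrg (a : Finset X → ℝ) (C : Finset X → Finset X → Prop) : Finset X → ℝ :=
  fun U => ∑ Y, ∑ Y', if C Y Y' ∧ Y ∪ Y' = U then a Y * a Y' else 0

open Classical in
theorem sum_union_fiber_M (S : Finset (Finset X)) (f : Finset X → Finset X → ℝ)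
    (C : Finset X → Finset X → Prop) :
    ∑ U : Finset X, ∑ Y ∈ S, ∑ Y' ∈ S, (if C Y Y' ∧ Y ∪ Y' = U then f Y Y' else 0)
      = ∑ Y ∈ S, ∑ Y' ∈ S, if C Y Y' then f Y Y' else 0 := by
  rw [Finset.sum_comm]
  refine Finset.sum_congr rfl (fun Y _ => ?_)
  rw [Finset.sum_comm]
  refine Finset.sum_congr rfl (fun Y' _ => ?_)
  by_cases h : C Y Y'
  · simp [h]
  · simp [h]

/-- [MRG1] -/
theorem tot_mrg (a : Finset X → ℝ) (C : Finset X → Finset X → Prop) : tot (mrg a C) = pm a C := by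
  classical
  unfold tot mrg pm
  have := sum_union_fiber_M (univ : Finset (Finset X)) (fun Y Y' => a Y * a Y') C
  simpa using this

theorem mrg_nonneg_M (a : Finset X → ℝ) (ha : ∀ Y, 0 ≤ a Y) (C : Finset X → Finset X → Prop)
    (U : Finset X) : 0 ≤ mrg a C U := by
  classical
  unfold mrg
  refine Finset.sum_nonneg (fun Y _ => Finset.sum_nonneg (fun Y' _ => ?_))
  split_ifs
  · exact mul_nonneg (ha _) (ha _)
  · exact le_rfl

theorem card_union_of_M {Y Y' : Finset X} {u x : ℕ} (h1 : Y.card = u) (h2 : Y'.card = u)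
    (h3 : (Y ∩ Y').card = x) : (Y ∪ Y').card = 2 * u - x := by
  have := Finset.card_union_add_card_inter Y Y'
  omega

theorem mrg_card_M (a : Finset X → ℝ) (u x : ℕ) (hcard : ∀ Y, a Y ≠ 0 → Y.card = u)
    (C : Finset X → Finset X → Prop) (hC : ∀ Y Y', C Y Y' → (Y ∩ Y').card = x)
    (U : Finset X) (hU : mrg a C U ≠ 0) : U.card = 2 * u - x := by
  classical
  unfold mrg at hU
  obtain ⟨Y, _, hY⟩ := Finset.exists_ne_zero_of_sum_ne_zero hU
  obtain ⟨Y', _, hY'⟩ := Finset.exists_ne_zero_of_sum_ne_zero hY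
  split_ifs at hY' with h
  · have h1 : a Y ≠ 0 := left_ne_zero_of_mul hY'
    have h2 : a Y' ≠ 0 := right_ne_zero_of_mul hY'
    rw [← h.2]
    exact card_union_of_M (hcard _ h1) (hcard _ h2) (hC _ _ h.1)
  · exact absurd rfl hY'

/-- `act` as an equivalence of `Finset X` -/
def actEquiv_M (σ : Equiv.Perm X) : Finset X ≃ Finset X := Equiv.finsetCongr σ

theorem actEquiv_apply_M (σ : Equiv.Perm X) (Y : Finset X) : actEquiv_M σ Y = act σ Y := rfl

theorem act_union_M (σ : Equiv.Perm X) (Y Y' : Finset X) :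
    act σ (Y ∪ Y') = act σ Y ∪ act σ Y' := by
  unfold act
  exact Finset.map_union _ _ 

theorem act_injective_M (σ : Equiv.Perm X) : Function.Injective (act σ : Finset X → Finset X) :=
  (actEquiv_M σ).injective

theorem act_inv_act_M (σ : Equiv.Perm X) (Y : Finset X) : act σ⁻¹ (act σ Y) = Y := by
  unfold act
  rw [Finset.map_map]
  ext a
  simp

theorem InvR.iff_M {Γ : Subgroup (Equiv.Perm X)} {C : Finset X → Finset X → Prop}
    (hC : InvR Γ C) {σ : Equiv.Perm X} (hσ : σ ∈ Γ) (Y Y' : Finset X) :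
    C (act σ Y) (act σ Y') ↔ C Y Y' := by
  constructor
  · intro h
    have := hC σ⁻¹ (Γ.inv_mem hσ) _ _ h
    rwa [act_inv_act_M, act_inv_act_M] at this
  · exact hC σ hσ Y Y'

theorem mrg_inv_M {Γ : Subgroup (Equiv.Perm X)} {a : Finset X → ℝ}
    {C : Finset X → Finset X → Prop} (ha : InvW Γ a) (hC : InvR Γ C) : InvW Γ (mrg a C) := by
  classical
  intro σ hσ U
  unfold mrg
  rw [← Equiv.sum_comp (actEquiv_M σ)]
  refine Finset.sum_congr rfl (fun Y _ => ?_)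
  rw [← Equiv.sum_comp (actEquiv_M σ)]
  refine Finset.sum_congr rfl (fun Y' _ => ?_)
  rw [actEquiv_apply_M, actEquiv_apply_M, ha σ hσ, ha σ hσ, ← act_union_M]
  have e : (C (act σ Y) (act σ Y') ∧ act σ (Y ∪ Y') = act σ U) ↔ (C Y Y' ∧ Y ∪ Y' = U) := by
    rw [hC.iff_M hσ, (act_injective_M σ).eq_iff]
  simp only [e]

open Classical in
/-- [MRG2] the new measure of `T` after merging inside the class `C`
(`μ' U = (∑_{Y,Y' ∈ S, C, Y ∪ Y' = U} μ Y μ Y') / total`). -/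
theorem merge_measure (a μ : Finset X → ℝ) (T : Finset X) (u x t : ℕ) (Θ : ℝ) (S : Finset (Finset X))
    (C : Finset X → Finset X → Prop) (hμ : IsP T u μ) (hle : ∀ Y, μ Y ≤ a Y) (hΘ : 0 < Θ)
    (hS : ∀ Y ∈ S, μ Y ≠ 0) (ht : Real.exp (-(t : ℝ)) ≤ ∑ Y ∈ S, μ Y)
    (hC : ∀ Y Y', C Y Y' → (Y ∩ Y').card = x)
    (hP : (∑ Y ∈ S, μ Y) ^ 2 ≤ Θ * ∑ Y ∈ S, ∑ Y' ∈ S, if C Y Y' then μ Y * μ Y' else 0) :
    ∃ μ' : Finset X → ℝ, IsP T (2 * u - x) μ' ∧
      (∀ U, μ' U ≤ Real.exp (2 * (t : ℝ)) * Θ * mrg a C U) ∧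
      (∀ U, μ' U ≠ 0 → ∃ Y ∈ S, ∃ Y' ∈ S, U = Y ∪ Y' ∧ (Y ∩ Y').card = x) := by
  obtain ⟨h0, hsupp, _⟩ := hμ
  have ha0 : ∀ Y, 0 ≤ a Y := fun Y => (h0 Y).trans (hle Y)
  set P : ℝ := ∑ Y ∈ S, ∑ Y' ∈ S, (if C Y Y' then μ Y * μ Y' else 0) with hPdef
  have hexp : Real.exp (-(2 * (t : ℝ))) ≤ Θ * P := by
    have h1 : 0 < Real.exp (-(t : ℝ)) := Real.exp_pos _
    have h2 : Real.exp (-(2 * (t : ℝ))) = Real.exp (-(t : ℝ)) ^ 2 := by
      rw [sq, ← Real.exp_add]; congr 1; ring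
    rw [h2]
    refine le_trans ?_ hP
    exact pow_le_pow_left₀ h1.le ht 2
  have hPpos : 0 < P := by
    have : 0 < Θ * P := lt_of_lt_of_le (Real.exp_pos _) hexp
    exact (pos_iff_pos_of_mul_pos this).1 hΘ
  have hinv : 1 / P ≤ Real.exp (2 * (t : ℝ)) * Θ := by
    rw [div_le_iff₀ hPpos]
    have h3 : Real.exp (2 * (t : ℝ)) * Real.exp (-(2 * (t : ℝ))) = 1 := by
      rw [← Real.exp_add]; simp
    have h4 : 0 ≤ Real.exp (2 * (t : ℝ)) := (Real.exp_pos _).le
    nlinarith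
  let num : Finset X → ℝ := fun U =>
    ∑ Y ∈ S, ∑ Y' ∈ S, (if C Y Y' ∧ Y ∪ Y' = U then μ Y * μ Y' else 0)
  have hnum0 : ∀ U, 0 ≤ num U := by
    intro U
    refine Finset.sum_nonneg (fun Y _ => Finset.sum_nonneg (fun Y' _ => ?_))
    split_ifs
    · exact mul_nonneg (h0 _) (h0 _)
    · exact le_rfl
  have hnumle : ∀ U, num U ≤ mrg a C U := by
    intro U
    unfold mrg
    calc num U ≤ ∑ Y ∈ S, ∑ Y' ∈ S, (if C Y Y' ∧ Y ∪ Y' = U then a Y * a Y' else 0) := by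
          refine Finset.sum_le_sum (fun Y _ => Finset.sum_le_sum (fun Y' _ => ?_))
          split_ifs
          · exact mul_le_mul (hle _) (hle _) (h0 _) (ha0 _)
          · exact le_rfl
      _ ≤ ∑ Y ∈ S, ∑ Y', (if C Y Y' ∧ Y ∪ Y' = U then a Y * a Y' else 0) := by
          refine Finset.sum_le_sum (fun Y _ => ?_)
          refine Finset.sum_le_sum_of_subset_of_nonneg (Finset.subset_univ _) (fun Y' _ _ => ?_)
          split_ifs
          · exact mul_nonneg (ha0 _) (ha0 _)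
          · exact le_rfl
      _ ≤ ∑ Y, ∑ Y', (if C Y Y' ∧ Y ∪ Y' = U then a Y * a Y' else 0) := by
          refine Finset.sum_le_sum_of_subset_of_nonneg (Finset.subset_univ _) (fun Y _ _ => ?_)
          refine Finset.sum_nonneg (fun Y' _ => ?_)
          split_ifs
          · exact mul_nonneg (ha0 _) (ha0 _)
          · exact le_rfl
  have hsupp' : ∀ U, num U ≠ 0 → ∃ Y ∈ S, ∃ Y' ∈ S, C Y Y' ∧ Y ∪ Y' = U := by
    intro U hU
    obtain ⟨Y, hYS, hY⟩ := Finset.exists_ne_zero_of_sum_ne_zero hU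
    obtain ⟨Y', hYS', hY'⟩ := Finset.exists_ne_zero_of_sum_ne_zero hY
    split_ifs at hY' with h
    · exact ⟨Y, hYS, Y', hYS', h⟩
    · exact absurd rfl hY'
  have htot : ∑ U : Finset X, num U = P := sum_union_fiber_M S (fun Y Y' => μ Y * μ Y') C
  refine ⟨fun U => num U / P, ⟨?_, ?_, ?_⟩, ?_, ?_⟩
  · intro U
    exact div_nonneg (hnum0 U) hPpos.le
  · intro U hU
    have hU' : num U ≠ 0 := by
      intro h
      apply hU
      simp [h]
    obtain ⟨Y, hYS, Y', hYS', hCY, rfl⟩ := hsupp' U hU'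
    have k1 := hsupp Y (hS Y hYS)
    have k2 := hsupp Y' (hS Y' hYS')
    exact ⟨card_union_of_M k1.1 k2.1 (hC _ _ hCY), Finset.union_subset k1.2 k2.2⟩
  · unfold tot
    rw [← Finset.sum_div, htot]
    exact div_self hPpos.ne'
  · intro U
    have h5 := hnum0 U
    have h6 := hnumle U
    have h7 : 0 ≤ Real.exp (2 * (t : ℝ)) * Θ := by positivity
    calc num U / P = num U * (1 / P) := by ring
      _ ≤ num U * (Real.exp (2 * (t : ℝ)) * Θ) := mul_le_mul_of_nonneg_left hinv h5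
      _ ≤ mrg a C U * (Real.exp (2 * (t : ℝ)) * Θ) := mul_le_mul_of_nonneg_right h6 h7
      _ = Real.exp (2 * (t : ℝ)) * Θ * mrg a C U := by ring
  · intro U hU
    have hU' : num U ≠ 0 := by
      intro h
      apply hU
      simp [h]
    obtain ⟨Y, hYS, Y', hYS', hCY, rfl⟩ := hsupp' U hU'
    exact ⟨Y, hYS, Y', hYS', rfl, hC _ _ hCY⟩

end TAL
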