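import Vale.Agent.P034F.Base

/-!
# P034: numerics for the wealth (definitions `hl`, `sl` and the lemma `numH`)
-/
namespace TAL
open Finset

/-- wealth lower bound at stage `l` -/
noncomputable def hl (b : ℝ) (k l : ℕ) : ℝ := 2 ^ l * (k * b) * (1 / 4 + 5 / 8 * (3 / 4 : ℝ) ^ l)

/-- spending at stage `l` -/
noncomputable def sl (b : ℝ) (k l : ℕ) : ℝ := (3 / 2 : ℝ) ^ l * (k * b / 8)

/-- the polynomial loss is small against `k (3/2)^l` -/
theorem hh_le (k l u : ℕ) (hk : 1 ≤ k) (hu : u ≤ 2 ^ l * k) :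
    hh u ≤ 40 * ((k : ℝ) * (3 / 2 : ℝ) ^ l) + 14 * k := by
  have hk' : (1 : ℝ) ≤ k := by exact_mod_cast hk
  have h32 : 1 + (l : ℝ) * (1 / 2) ≤ (3 / 2 : ℝ) ^ l := by
    have := one_add_mul_le_pow (a := (1 / 2 : ℝ)) (by norm_num) l
    calc 1 + (l : ℝ) * (1 / 2) ≤ (1 + 1 / 2) ^ l := this
      _ = (3 / 2 : ℝ) ^ l := by norm_num
  have hu' : (u : ℝ) + 1 ≤ 2 ^ (l + 1) * k := by
    have h1 : (u : ℝ) ≤ 2 ^ l * k := by exact_mod_cast hu
    have h2 : (1 : ℝ) ≤ 2 ^ l * k := by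
      have : (1 : ℝ) ≤ 2 ^ l := one_le_pow₀ (by norm_num)
      nlinarith
    rw [pow_succ]; nlinarith
  have hu0 : (0 : ℝ) < (u : ℝ) + 1 := by positivity
  have hlog : Real.log ((u : ℝ) + 1) ≤ (l + 1) * Real.log 2 + Real.log k := by
    calc Real.log ((u : ℝ) + 1) ≤ Real.log (2 ^ (l + 1) * k) := Real.log_le_log hu0 hu'
      _ = (l + 1) * Real.log 2 + Real.log k := by
        rw [Real.log_mul (by positivity) (by positivity), Real.log_pow]; push_cast; ring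
  have hlogk : Real.log k ≤ k - 1 := Real.log_le_sub_one_of_pos (by positivity)
  have hlog2 : Real.log 2 ≤ 0.7 := by
    have := Real.log_two_lt_d9; linarith
  have hlog2' : 0 ≤ Real.log 2 := Real.log_nonneg (by norm_num)
  have hh1 : hh u = 18 * Real.log 2 + 14 * Real.log ((u : ℝ) + 1) := by
    unfold hh
    rw [Real.log_mul (by positivity) (by positivity), Real.log_pow, Real.log_pow]
    push_cast; ring
  have hl0 : (0 : ℝ) ≤ l := by positivity
  have h3 : (l + 1) * Real.log 2 ≤ (l + 1) * 0.7 := by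
    apply mul_le_mul_of_nonneg_left hlog2; positivity
  rw [hh1]
  have h4 : (k : ℝ) * (1 + (l : ℝ) * (1 / 2)) ≤ (k : ℝ) * (3 / 2 : ℝ) ^ l :=
    mul_le_mul_of_nonneg_left h32 (by positivity)
  have h5 : (1 + (l : ℝ) * (1 / 2)) ≤ (k : ℝ) * (1 + (l : ℝ) * (1 / 2)) := by
    nlinarith
  nlinarith

/-- [NUMH] numerics for the wealth. -/
theorem numH (b : ℝ) (hb : 10000 ≤ b) (k l u : ℕ) (hk : 1 ≤ k) (hu : u ≤ 2 ^ l * k) :
    hl b k (l + 1) ≤ 2 * hl b k l - 2 * sl b k l - 6 - hh u -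
      (if l < 12 then 2 * (u : ℝ) / Real.exp (b / 2) else 0) := by
  have hk' : (1 : ℝ) ≤ k := by exact_mod_cast hk
  have hhh := hh_le k l u hk hu
  have h1 : (1 : ℝ) ≤ (3 / 2 : ℝ) ^ l := one_le_pow₀ (by norm_num)
  have hif : (if l < 12 then 2 * (u : ℝ) / Real.exp (b / 2) else 0) ≤ 2 * k := by
    split_ifs with hl
    · rw [div_le_iff₀ (Real.exp_pos (b / 2))]
      have h2 : (u : ℝ) ≤ 2 ^ l * k := by exact_mod_cast hu
      have h3 : (2 : ℝ) ^ l ≤ 4096 := by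
        calc (2 : ℝ) ^ l ≤ 2 ^ 12 := pow_le_pow_right₀ (by norm_num) hl.le
          _ = 4096 := by norm_num
      have h4 : (4096 : ℝ) ≤ Real.exp (b / 2) := by
        have := Real.add_one_le_exp (b / 2); linarith
      have h5 : (u : ℝ) ≤ k * Real.exp (b / 2) := by
        calc (u : ℝ) ≤ 2 ^ l * k := h2
          _ ≤ 4096 * k := mul_le_mul_of_nonneg_right h3 (by positivity)
          _ ≤ Real.exp (b / 2) * k := mul_le_mul_of_nonneg_right h4 (by positivity)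
          _ = k * Real.exp (b / 2) := by ring
      linarith
    · positivity
  have hpow : (2 : ℝ) ^ l * (3 / 4 : ℝ) ^ l = (3 / 2 : ℝ) ^ l := by
    rw [← mul_pow]; norm_num
  have hpow' : (2 : ℝ) ^ (l + 1) * (3 / 4 : ℝ) ^ (l + 1) = (3 / 2) * (3 / 2 : ℝ) ^ l := by
    rw [← mul_pow, pow_succ]; norm_num; ring
  have e1 : hl b k l = 2 ^ l * (k * b) / 4 + 5 / 8 * (k * b) * (3 / 2 : ℝ) ^ l := by
    unfold hl; rw [← hpow]; ring
  have e2 : hl b k (l + 1) = 2 * (2 ^ l * (k * b) / 4) + 15 / 16 * (k * b) * (3 / 2 : ℝ) ^ l := by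
    have : hl b k (l + 1) = 2 ^ (l + 1) * (k * b) / 4 +
        5 / 8 * (k * b) * (2 ^ (l + 1) * (3 / 4 : ℝ) ^ (l + 1)) := by
      unfold hl; ring
    rw [this, hpow', pow_succ]; ring
  have hkb : 625 * ((k : ℝ) * (3 / 2 : ℝ) ^ l) ≤ (k * b) * (3 / 2 : ℝ) ^ l / 16 := by
    have : (k : ℝ) * (3 / 2 : ℝ) ^ l * 10000 ≤ (k : ℝ) * (3 / 2 : ℝ) ^ l * b :=
      mul_le_mul_of_nonneg_left hb (by positivity)
    nlinarith
  have hk1 : (k : ℝ) ≤ (k : ℝ) * (3 / 2 : ℝ) ^ l := le_mul_of_one_le_right (by positivity) h1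
  rw [e1, e2]
  unfold sl
  nlinarith

end TAL
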