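import Mathlib

/-! # P034: the promise lemma -/

namespace P034F16

open Finset

variable {α : Type*} [Fintype α] [DecidableEq α]

/-- Mass of the sets of `E` which contain `A`. -/
noncomputable def MM (E : Finset (Finset α)) (μ : Finset α → ℝ) (A : Finset α) : ℝ :=
  ∑ Y ∈ E.filter (fun Y => A ⊆ Y), μ Y

variable {E : Finset (Finset α)} {μ : Finset α → ℝ}

lemma MM_nonneg (hμ : ∀ Y, 0 ≤ μ Y) (A : Finset α) : 0 ≤ MM E μ A :=
  Finset.sum_nonneg (fun Y _ => hμ Y)

lemma MM_anti (hμ : ∀ Y, 0 ≤ μ Y) {A B : Finset α} (h : A ⊆ B) : MM E μ B ≤ MM E μ A := by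
  unfold MM
  apply Finset.sum_le_sum_of_subset_of_nonneg
  · intro Y hY
    rw [mem_filter] at hY ⊢
    exact ⟨hY.1, h.trans hY.2⟩
  · intro Y _ _
    exact hμ Y

/-- Telescoping over orderings. -/
lemma telesc (hμ : ∀ Y, 0 ≤ μ Y) (h1 : ∑ Y ∈ E, μ Y = 1) {θ δ s : ℝ} (hθ : 0 < θ) (hδ : 0 < δ)
    (hs : 0 ≤ s) (x : ℕ)
    (H : ∀ A : Finset α, A.card < x → δ ≤ MM E μ A →
      ∑ v ∈ Aᶜ, (MM E μ (insert v A) / MM E μ A) ^ θ ≤ s) :
    ∀ i, i ≤ x → ∑ A ∈ (univ.powersetCard i).filter (fun A => δ ≤ MM E μ A), MM E μ A ^ θ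
      ≤ s ^ i / (i.factorial : ℝ) := by
  intro i
  induction i with
  | zero =>
    intro _
    have h0 : ((univ : Finset α).powersetCard 0).filter (fun A => δ ≤ MM E μ A) ⊆ {∅} := by
      intro A hA
      rw [mem_filter, mem_powersetCard] at hA
      rw [mem_singleton]
      exact Finset.card_eq_zero.mp hA.1.2
    calc ∑ A ∈ ((univ : Finset α).powersetCard 0).filter (fun A => δ ≤ MM E μ A), MM E μ A ^ θ
        ≤ ∑ A ∈ {∅}, MM E μ A ^ θ := by
          apply Finset.sum_le_sum_of_subset_of_nonneg h0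
          intro A _ _
          exact Real.rpow_nonneg (MM_nonneg hμ A) θ
      _ = 1 := by
          rw [sum_singleton]
          have : MM E μ ∅ = 1 := by
            unfold MM
            rw [← h1]
            congr 1
            ext Y
            simp
          rw [this, Real.one_rpow]
      _ = s ^ 0 / ((0 : ℕ).factorial : ℝ) := by simp
  | succ i ih =>
    intro hi
    have ih' := ih (by omega)
    -- double counting
    have key : ((i + 1 : ℕ) : ℝ) *
        ∑ Z ∈ (univ.powersetCard (i + 1)).filter (fun A => δ ≤ MM E μ A), MM E μ Z ^ θ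
        ≤ ∑ A ∈ (univ.powersetCard i).filter (fun A => δ ≤ MM E μ A),
          ∑ v ∈ Aᶜ, MM E μ (insert v A) ^ θ := by
      have e1 : ((i + 1 : ℕ) : ℝ) *
          ∑ Z ∈ (univ.powersetCard (i + 1)).filter (fun A => δ ≤ MM E μ A), MM E μ Z ^ θ
          = ∑ p ∈ ((univ.powersetCard (i + 1)).filter (fun A => δ ≤ MM E μ A)).sigma
              (fun Z => Z), MM E μ p.1 ^ θ := by
        rw [Finset.sum_sigma, Finset.mul_sum]
        apply Finset.sum_congr rfl
        intro Z hZ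
        rw [mem_filter, mem_powersetCard] at hZ
        simp only [sum_const, nsmul_eq_mul]
        rw [hZ.1.2]
      have e2 : ∑ A ∈ (univ.powersetCard i).filter (fun A => δ ≤ MM E μ A),
          ∑ v ∈ Aᶜ, MM E μ (insert v A) ^ θ
          = ∑ p ∈ ((univ.powersetCard i).filter (fun A => δ ≤ MM E μ A)).sigma
              (fun A => Aᶜ), MM E μ (insert p.2 p.1) ^ θ := by
        rw [Finset.sum_sigma]
      rw [e1, e2]
      -- inject (Z, v) ↦ (Z \ v, v)
      have hinj : ∑ p ∈ ((univ.powersetCard (i + 1)).filter (fun A => δ ≤ MM E μ A)).sigma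
              (fun Z => Z), MM E μ p.1 ^ θ
          = ∑ p ∈ (((univ.powersetCard (i + 1)).filter (fun A => δ ≤ MM E μ A)).sigma
              (fun Z => Z)).image (fun p : (Σ _ : Finset α, α) => (⟨p.1.erase p.2, p.2⟩ : (Σ _ : Finset α, α))),
              MM E μ (insert p.2 p.1) ^ θ := by
        rw [Finset.sum_image]
        · apply Finset.sum_congr rfl
          intro p hp
          rw [mem_sigma] at hp
          simp only
          rw [Finset.insert_erase hp.2]
        · intro p hp q hq hpq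
          rw [mem_coe, mem_sigma] at hp hq
          simp only [Sigma.mk.injEq, heq_eq_eq] at hpq
          obtain ⟨h1', h2'⟩ := hpq
          have : p.1 = q.1 := by
            rw [← Finset.insert_erase hp.2, ← Finset.insert_erase hq.2, h1', h2']
          ext1
          · exact this
          · exact heq_of_eq h2'
      rw [hinj]
      apply Finset.sum_le_sum_of_subset_of_nonneg
      · intro p hp
        rw [mem_image] at hp
        obtain ⟨q, hq, rfl⟩ := hp
        rw [mem_sigma, mem_filter, mem_powersetCard] at hq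
        rw [mem_sigma, mem_filter, mem_powersetCard]
        refine ⟨⟨⟨subset_univ _, ?_⟩, ?_⟩, ?_⟩
        · simp only
          rw [Finset.card_erase_of_mem hq.2, hq.1.1.2]
          omega
        · exact hq.1.2.trans (MM_anti hμ (Finset.erase_subset _ _))
        · simp only [mem_compl]
          exact Finset.notMem_erase _ _
      · intro p _ _
        exact Real.rpow_nonneg (MM_nonneg hμ _) θ
    have step : ∑ A ∈ (univ.powersetCard i).filter (fun A => δ ≤ MM E μ A),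
          ∑ v ∈ Aᶜ, MM E μ (insert v A) ^ θ
        ≤ s * ∑ A ∈ (univ.powersetCard i).filter (fun A => δ ≤ MM E μ A), MM E μ A ^ θ := by
      rw [Finset.mul_sum]
      apply Finset.sum_le_sum
      intro A hA
      rw [mem_filter, mem_powersetCard] at hA
      have hpos : 0 < MM E μ A := lt_of_lt_of_le hδ hA.2
      have hb := H A (by omega) hA.2
      have : ∑ v ∈ Aᶜ, MM E μ (insert v A) ^ θ
          = (∑ v ∈ Aᶜ, (MM E μ (insert v A) / MM E μ A) ^ θ) * MM E μ A ^ θ := by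
        rw [Finset.sum_mul]
        apply Finset.sum_congr rfl
        intro v _
        rw [Real.div_rpow (MM_nonneg hμ _) hpos.le, div_mul_cancel₀]
        exact (Real.rpow_pos_of_pos hpos θ).ne'
      rw [this]
      exact mul_le_mul_of_nonneg_right hb (Real.rpow_nonneg hpos.le θ)
    have hi1 : (0 : ℝ) < ((i + 1 : ℕ) : ℝ) := by positivity
    have h3 : ((i + 1 : ℕ) : ℝ) *
        ∑ Z ∈ (univ.powersetCard (i + 1)).filter (fun A => δ ≤ MM E μ A), MM E μ Z ^ θ
        ≤ s * (s ^ i / (i.factorial : ℝ)) :=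
      key.trans (step.trans (mul_le_mul_of_nonneg_left ih' hs))
    rw [← le_div_iff₀' hi1] at h3
    refine h3.trans (le_of_eq ?_)
    rw [Nat.factorial_succ]
    push_cast
    have : (i.factorial : ℝ) ≠ 0 := by exact_mod_cast i.factorial_ne_zero
    have h4 : ((i : ℝ) + 1) ≠ 0 := by positivity
    field_simp
    ring

/-- Power mean. -/
lemma power_mean {ι : Type*} (S : Finset ι) (f : ι → ℝ) (hf : ∀ i ∈ S, 0 ≤ f i) {c : ℝ}
    (hc : 0 < c) : (∑ i ∈ S, f i) ^ (1 + c) ≤ (S.card : ℝ) ^ c * ∑ i ∈ S, f i ^ (1 + c) := by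
  have h := Real.rpow_sum_le_const_mul_sum_rpow_of_nonneg (s := S) (f := f) (p := 1 + c)
    (by linarith) hf
  simpa using h

/-- The lower bound for the sum over the promised family. -/
lemma lower_bd (hμ : ∀ Y, 0 ≤ μ Y) (h1 : ∑ Y ∈ E, μ Y = 1) {x : ℕ} (hx : 1 ≤ x)
    (ZZ : Finset (Finset α)) {ν : ℝ} (hν : 1 ≤ ν)
    (hmany : ∀ Y ∈ E, ν ^ x ≤ ((ZZ.filter (fun Z => Z ⊆ Y)).card : ℝ))
    (hZZ : (ZZ.card : ℝ) ≤ ν ^ (8 * x)) :
    ν ^ x / 2 ≤ ∑ Z ∈ ZZ.filter (fun Z => (ν ^ (7 * x))⁻¹ / 2 ≤ MM E μ Z), MM E μ Z := by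
  have hν0 : 0 < ν := by linarith
  have tot : ν ^ x ≤ ∑ Z ∈ ZZ, MM E μ Z := by
    have e1 : ∑ Z ∈ ZZ, MM E μ Z = ∑ Y ∈ E, μ Y * ((ZZ.filter (fun Z => Z ⊆ Y)).card : ℝ) := by
      unfold MM
      simp_rw [Finset.sum_filter]
      rw [Finset.sum_comm]
      apply Finset.sum_congr rfl
      intro Y _
      rw [← Finset.sum_filter, sum_const, nsmul_eq_mul, mul_comm]
    rw [e1]
    calc ν ^ x = ∑ Y ∈ E, μ Y * ν ^ x := by rw [← Finset.sum_mul, h1, one_mul]
      _ ≤ _ := by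
          apply Finset.sum_le_sum
          intro Y hY
          exact mul_le_mul_of_nonneg_left (hmany Y hY) (hμ Y)
  have split := Finset.sum_filter_add_sum_filter_not ZZ
    (fun Z => (ν ^ (7 * x))⁻¹ / 2 ≤ MM E μ Z) (fun Z => MM E μ Z)
  have small : ∑ Z ∈ ZZ.filter (fun Z => ¬ (ν ^ (7 * x))⁻¹ / 2 ≤ MM E μ Z), MM E μ Z
      ≤ ν ^ x / 2 := by
    calc ∑ Z ∈ ZZ.filter (fun Z => ¬ (ν ^ (7 * x))⁻¹ / 2 ≤ MM E μ Z), MM E μ Z
        ≤ ∑ Z ∈ ZZ.filter (fun Z => ¬ (ν ^ (7 * x))⁻¹ / 2 ≤ MM E μ Z), (ν ^ (7 * x))⁻¹ / 2 := by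
          apply Finset.sum_le_sum
          intro Z hZ
          rw [mem_filter, not_le] at hZ
          exact hZ.2.le
      _ = ((ZZ.filter (fun Z => ¬ (ν ^ (7 * x))⁻¹ / 2 ≤ MM E μ Z)).card : ℝ)
            * ((ν ^ (7 * x))⁻¹ / 2) := by rw [sum_const, nsmul_eq_mul]
      _ ≤ ν ^ (8 * x) * ((ν ^ (7 * x))⁻¹ / 2) := by
          apply mul_le_mul_of_nonneg_right _ (by positivity)
          refine le_trans ?_ hZZ
          exact_mod_cast Finset.card_filter_le _ _
      _ = ν ^ x / 2 := by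
          have : ν ^ (8 * x) = ν ^ (7 * x) * ν ^ x := by rw [← pow_add]; congr 1; ring
          rw [this]
          have h7 : ν ^ (7 * x) ≠ 0 := by positivity
          field_simp
  linarith

/-- There is a rich conditional law. -/
lemma exists_rich (hμ : ∀ Y, 0 ≤ μ Y) (h1 : ∑ Y ∈ E, μ Y = 1) {x : ℕ} (hx : 1 ≤ x)
    (ZZ : Finset (Finset α)) (hZ : ∀ Z ∈ ZZ, Z.card = x) {ν : ℝ} (hν : 160000 ≤ ν)
    (hmany : ∀ Y ∈ E, ν ^ x ≤ ((ZZ.filter (fun Z => Z ⊆ Y)).card : ℝ))
    (hZZ : (ZZ.card : ℝ) ≤ ν ^ (8 * x)) :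
    ∃ A : Finset α, A.card < x ∧ (ν ^ (7 * x))⁻¹ / 2 ≤ MM E μ A ∧
      x * Real.sqrt ν < ∑ v ∈ Aᶜ, (MM E μ (insert v A) / MM E μ A) ^ (1 + 1 / 28 : ℝ) := by
  by_contra hcon
  push Not at hcon
  have hν0 : 0 < ν := by linarith
  have hν1 : 1 ≤ ν := by linarith
  set δ : ℝ := (ν ^ (7 * x))⁻¹ / 2 with hδdef
  have hδ : 0 < δ := by positivity
  set θ : ℝ := 1 + 1 / 28 with hθdef
  have hθ : 0 < θ := by norm_num [hθdef]
  have hs : 0 ≤ (x : ℝ) * Real.sqrt ν := by positivity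
  have up := telesc hμ h1 hθ hδ hs x (fun A hA hA' => hcon A hA hA') x le_rfl
  have low := lower_bd hμ h1 hx ZZ hν1 hmany hZZ
  set F := ZZ.filter (fun Z => δ ≤ MM E μ Z) with hF
  have hFsub : F ⊆ ((univ : Finset α).powersetCard x).filter (fun A => δ ≤ MM E μ A) := by
    intro Z hZ'
    rw [hF, mem_filter] at hZ'
    rw [mem_filter, mem_powersetCard]
    exact ⟨⟨subset_univ _, hZ Z hZ'.1⟩, hZ'.2⟩
  have up2 : ∑ Z ∈ F, MM E μ Z ^ θ ≤ (x * Real.sqrt ν) ^ x / (x.factorial : ℝ) := by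
    refine le_trans (Finset.sum_le_sum_of_subset_of_nonneg hFsub ?_) up
    intro A _ _
    exact Real.rpow_nonneg (MM_nonneg hμ A) θ
  have pm := power_mean F (fun Z => MM E μ Z) (fun Z _ => MM_nonneg hμ Z)
    (c := 1 / 28) (by norm_num)
  have hcard : (F.card : ℝ) ≤ ν ^ (8 * x) := by
    refine le_trans ?_ hZZ
    exact_mod_cast Finset.card_filter_le _ _
  have hfact : (x * Real.sqrt ν) ^ x / (x.factorial : ℝ) ≤ Real.exp 1 ^ x * Real.sqrt ν ^ x := by
    rw [mul_pow, mul_comm ((x : ℝ) ^ x), mul_div_assoc, mul_comm]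
    apply mul_le_mul_of_nonneg_right _ (by positivity)
    have := Real.pow_div_factorial_le_exp (x : ℝ) (by positivity) x
    rw [← Real.exp_nat_mul, mul_one]
    exact this
  -- combine
  have hS : (ν ^ x / 2) ^ θ ≤ (∑ Z ∈ F, MM E μ Z) ^ θ :=
    Real.rpow_le_rpow (by positivity) low hθ.le
  have hA : (ν ^ x / 2) ^ θ ≤ (ν ^ (8 * x)) ^ (1 / 28 : ℝ) *
      (Real.exp 1 ^ x * Real.sqrt ν ^ x) := by
    refine hS.trans (pm.trans ?_)
    apply mul_le_mul _ (up2.trans hfact) _ (by positivity)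
    · exact Real.rpow_le_rpow (by positivity) hcard (by norm_num)
    · exact Finset.sum_nonneg (fun Z _ => Real.rpow_nonneg (MM_nonneg hμ Z) _)
  -- take logarithms
  have hL : Real.log ((ν ^ x / 2) ^ θ) ≤ Real.log ((ν ^ (8 * x)) ^ (1 / 28 : ℝ) *
      (Real.exp 1 ^ x * Real.sqrt ν ^ x)) :=
    Real.log_le_log (by positivity) hA
  rw [Real.log_rpow (by positivity), Real.log_div (by positivity) (by norm_num), Real.log_pow,
    Real.log_mul (by positivity) (by positivity), Real.log_rpow (by positivity), Real.log_pow,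
    Real.log_mul (by positivity) (by positivity), Real.log_pow, Real.log_exp, Real.log_pow,
    Real.log_sqrt hν0.le] at hL
  have hx1 : (1 : ℝ) ≤ x := by exact_mod_cast hx
  have hlog2 : Real.log 2 ≤ 1 := by
    have := Real.log_two_lt_d9
    linarith
  have hlogν : 11 ≤ Real.log ν := by
    rw [Real.le_log_iff_exp_le hν0]
    have h3 : Real.exp 11 ≤ 160000 := by
      have he : Real.exp 11 = Real.exp 1 ^ 11 := by
        rw [← Real.exp_nat_mul]; norm_num
      rw [he]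
      have := Real.exp_one_lt_d9
      calc Real.exp 1 ^ 11 ≤ 2.7182818286 ^ 11 := by
            apply pow_le_pow_left₀ (Real.exp_pos 1).le this.le
        _ ≤ 160000 := by norm_num
    linarith
  push_cast at hL
  rw [hθdef] at hL
  nlinarith [mul_le_mul_of_nonneg_left hlogν (by linarith : (0 : ℝ) ≤ x)]

/-- `2^(-1/56)`. -/
noncomputable def rh : ℝ := (2 : ℝ) ^ (-(1 / 56) : ℝ)

lemma rh_pos : 0 < rh := Real.rpow_pos_of_pos (by norm_num) _

lemma rh_pow : rh ^ 56 = 1 / 2 := by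
  unfold rh
  rw [← Real.rpow_natCast, ← Real.rpow_mul (by norm_num)]
  norm_num

lemma rh_le : rh ≤ 99 / 100 := by
  by_contra h
  rw [not_le] at h
  have h1 : (99 / 100 : ℝ) ^ 56 < rh ^ 56 := pow_lt_pow_left₀ h (by norm_num) (by norm_num)
  rw [rh_pow] at h1
  norm_num at h1

lemma half_pow_rpow (i : ℕ) : ((1 / 2 : ℝ) ^ i) ^ (1 + 1 / 28 : ℝ) = (1 / 2) ^ i * (rh ^ 2) ^ i := by
  rw [Real.rpow_add (by positivity), Real.rpow_one]
  congr 1
  unfold rh
  rw [← Real.rpow_natCast, ← Real.rpow_mul (by norm_num), ← pow_mul, ← Real.rpow_natCast,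
    ← Real.rpow_mul (by norm_num)]
  rw [one_div, Real.inv_rpow (by norm_num), ← Real.rpow_neg (by norm_num)]
  congr 1
  push_cast
  ring

/-- A dyadic level carries a good share. -/
lemma dyadic {ι : Type*} (S : Finset ι) (f : ι → ℝ) (hf1 : ∀ v ∈ S, f v ≤ 1)
    (hf0 : ∀ v ∈ S, 0 ≤ f v) {s : ℝ} (hs : 0 < s)
    (h : s < ∑ v ∈ S, f v ^ (1 + 1 / 28 : ℝ)) :
    ∃ i : ℕ, s / 100 ≤ rh ^ i *
      (((S.filter (fun v => (1 / 2 : ℝ) ^ (i + 1) < f v ∧ f v ≤ (1 / 2) ^ i)).card : ℝ)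
        * (1 / 2) ^ i) := by
  classical
  by_contra hcon
  push Not at hcon
  have hlev : ∀ v, v ∈ S → 0 < f v → ∃ n : ℕ, (1 / 2 : ℝ) ^ (n + 1) < f v ∧ f v ≤ (1 / 2) ^ n :=
    fun v hv hp => exists_nat_pow_near_of_lt_one hp (hf1 v hv) (by norm_num) (by norm_num)
  choose! lev hlev' using hlev
  set S' := S.filter (fun v => 0 < f v) with hS'
  set N := S'.sup lev + 1 with hN
  have e0 : ∑ v ∈ S, f v ^ (1 + 1 / 28 : ℝ) = ∑ v ∈ S', f v ^ (1 + 1 / 28 : ℝ) := by
    rw [hS', Finset.sum_filter]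
    apply Finset.sum_congr rfl
    intro v hv
    split_ifs with hp
    · rfl
    · have : f v = 0 := le_antisymm (not_lt.mp hp) (hf0 v hv)
      rw [this, Real.zero_rpow (by norm_num)]
  have e1 : ∑ v ∈ S', f v ^ (1 + 1 / 28 : ℝ)
      = ∑ i ∈ range N, ∑ v ∈ S'.filter (fun v => lev v = i), f v ^ (1 + 1 / 28 : ℝ) := by
    rw [Finset.sum_fiberwise_of_maps_to]
    intro v hv
    rw [mem_range, hN]
    exact Nat.lt_succ_of_le (Finset.le_sup hv)
  have e2 : ∀ i ∈ range N, ∑ v ∈ S'.filter (fun v => lev v = i), f v ^ (1 + 1 / 28 : ℝ)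
      ≤ s / 100 * rh ^ i := by
    intro i _
    have hsub : S'.filter (fun v => lev v = i) ⊆
        S.filter (fun v => (1 / 2 : ℝ) ^ (i + 1) < f v ∧ f v ≤ (1 / 2) ^ i) := by
      intro v hv
      rw [mem_filter, hS', mem_filter] at hv
      rw [mem_filter]
      have := hlev' v hv.1.1 hv.1.2
      rw [hv.2] at this
      exact ⟨hv.1.1, this⟩
    calc ∑ v ∈ S'.filter (fun v => lev v = i), f v ^ (1 + 1 / 28 : ℝ)
        ≤ ∑ v ∈ S.filter (fun v => (1 / 2 : ℝ) ^ (i + 1) < f v ∧ f v ≤ (1 / 2) ^ i),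
            f v ^ (1 + 1 / 28 : ℝ) := by
          apply Finset.sum_le_sum_of_subset_of_nonneg hsub
          intro v hv _
          rw [mem_filter] at hv
          exact Real.rpow_nonneg (hf0 v hv.1) _
      _ ≤ ∑ v ∈ S.filter (fun v => (1 / 2 : ℝ) ^ (i + 1) < f v ∧ f v ≤ (1 / 2) ^ i),
            ((1 / 2 : ℝ) ^ i) ^ (1 + 1 / 28 : ℝ) := by
          apply Finset.sum_le_sum
          intro v hv
          rw [mem_filter] at hv
          exact Real.rpow_le_rpow (hf0 v hv.1) hv.2.2 (by norm_num)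
      _ = ((S.filter (fun v => (1 / 2 : ℝ) ^ (i + 1) < f v ∧ f v ≤ (1 / 2) ^ i)).card : ℝ)
            * ((1 / 2) ^ i * (rh ^ 2) ^ i) := by
          rw [sum_const, nsmul_eq_mul, half_pow_rpow]
      _ = (rh ^ i * (((S.filter (fun v => (1 / 2 : ℝ) ^ (i + 1) < f v ∧ f v ≤ (1 / 2) ^ i)).card
            : ℝ) * (1 / 2) ^ i)) * rh ^ i := by
          rw [← pow_mul, mul_comm 2 i, pow_mul, pow_two]
          ring
      _ ≤ s / 100 * rh ^ i :=
          mul_le_mul_of_nonneg_right (hcon i).le (pow_nonneg rh_pos.le i)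
  have e3 : ∑ i ∈ range N, s / 100 * rh ^ i ≤ s := by
    rw [← Finset.mul_sum]
    have hr1 : rh < 1 := lt_of_le_of_lt rh_le (by norm_num)
    have hg : ∑ i ∈ range N, rh ^ i ≤ (1 - rh)⁻¹ := by
      rw [← tsum_geometric_of_lt_one rh_pos.le hr1]
      exact (summable_geometric_of_lt_one rh_pos.le hr1).sum_le_tsum _
        (fun i _ => pow_nonneg rh_pos.le i)
    have h100 : (1 - rh)⁻¹ ≤ 100 := by
      rw [inv_le_comm₀ (by linarith) (by norm_num)]
      have := rh_le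
      linarith
    calc s / 100 * ∑ i ∈ range N, rh ^ i ≤ s / 100 * 100 :=
          mul_le_mul_of_nonneg_left (hg.trans h100) (by positivity)
      _ = s := by ring
  have : ∑ v ∈ S, f v ^ (1 + 1 / 28 : ℝ) ≤ s := by
    rw [e0, e1]
    exact (Finset.sum_le_sum e2).trans e3
  linarith

/-- [PROMISE] -/
theorem promise (hμ : ∀ Y, 0 ≤ μ Y) (h1 : ∑ Y ∈ E, μ Y = 1) {u x : ℕ} (hx : 1 ≤ x)
    (hu : ∀ Y ∈ E, Y.card ≤ u) (ZZ : Finset (Finset α)) (hZ : ∀ Z ∈ ZZ, Z.card = x)
    {ν : ℝ} (hν : 160000 ≤ ν)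
    (hmany : ∀ Y ∈ E, ν ^ x ≤ ((ZZ.filter (fun Z => Z ⊆ Y)).card : ℝ))
    (hZZ : (ZZ.card : ℝ) ≤ ν ^ (8 * x)) :
    ∃ A V : Finset α, ∃ y : ℝ, A.card < x ∧ V.Nonempty ∧ 1 ≤ y ∧
      (ν ^ (7 * x))⁻¹ / (2 * u) ≤
        ∑ Y ∈ E.filter (fun Y => A ⊆ Y ∧ y ≤ ((Y ∩ V).card : ℝ)), μ Y ∧
      x * Real.sqrt ν / 500 ≤ y ^ (1 + 1 / 56 : ℝ) * (V.card : ℝ) ^ (-(1 / 56) : ℝ) := by
  obtain ⟨A, hA, hδ, hrich⟩ := exists_rich hμ h1 hx ZZ hZ hν hmany hZZ
  have hν0 : 0 < ν := by linarith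
  have hx1 : (1 : ℝ) ≤ x := by exact_mod_cast hx
  have hMpos : 0 < MM E μ A := lt_of_lt_of_le (by positivity) hδ
  have hsq : 400 ≤ Real.sqrt ν := by
    rw [show (400 : ℝ) = Real.sqrt 160000 by
      rw [show (160000 : ℝ) = 400 ^ 2 by norm_num, Real.sqrt_sq (by norm_num)]]
    exact Real.sqrt_le_sqrt hν
  have hs : 0 < (x : ℝ) * Real.sqrt ν := by positivity
  set f : α → ℝ := fun v => MM E μ (insert v A) / MM E μ A with hf
  obtain ⟨i, hi⟩ := dyadic Aᶜ f
    (fun v _ => div_le_one_of_le₀ (MM_anti hμ (Finset.subset_insert v A)) hMpos.le)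
    (fun v _ => div_nonneg (MM_nonneg hμ _) hMpos.le) hs hrich
  set V := Aᶜ.filter (fun v => (1 / 2 : ℝ) ^ (i + 1) < f v ∧ f v ≤ (1 / 2) ^ i) with hV
  have hρi : 0 < rh ^ i := pow_pos rh_pos i
  have hρi1 : rh ^ i ≤ 1 := pow_le_one₀ rh_pos.le (rh_le.trans (by norm_num))
  have hhalf : (0 : ℝ) < (1 / 2) ^ i := by positivity
  set y : ℝ := (V.card : ℝ) * (1 / 2) ^ i / 4 with hy
  have hyρ : (x : ℝ) * Real.sqrt ν / 400 ≤ rh ^ i * y := by
    rw [hy]
    have : rh ^ i * ((V.card : ℝ) * (1 / 2) ^ i / 4) = (rh ^ i * ((V.card : ℝ) * (1 / 2) ^ i)) / 4 := by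
      ring
    rw [this]
    linarith
  have hy0 : 0 < y := by
    by_contra hcon
    rw [not_lt] at hcon
    have : rh ^ i * y ≤ 0 := mul_nonpos_of_nonneg_of_nonpos hρi.le hcon
    have : 0 < (x : ℝ) * Real.sqrt ν / 400 := by positivity
    linarith
  have hy1 : 1 ≤ y := by
    have h2 : rh ^ i * y ≤ y := mul_le_of_le_one_left hy0.le hρi1
    have h3 : 1 ≤ (x : ℝ) * Real.sqrt ν / 400 := by
      rw [le_div_iff₀ (by norm_num)]
      nlinarith
    linarith
  have hVpos : 0 < (V.card : ℝ) := by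
    by_contra hcon
    rw [not_lt] at hcon
    have h0 : (V.card : ℝ) = 0 := le_antisymm hcon (by positivity)
    rw [hy, h0] at hy0
    simp at hy0
  refine ⟨A, V, y, hA, ?_, hy1, ?_, ?_⟩
  · rw [← Finset.card_pos]
    exact_mod_cast hVpos
  · -- the probability bound
    have hexp : 2 * y * MM E μ A ≤ ∑ v ∈ V, MM E μ (insert v A) := by
      calc 2 * y * MM E μ A = ∑ v ∈ V, (1 / 2 : ℝ) ^ (i + 1) * MM E μ A := by
            rw [sum_const, nsmul_eq_mul, hy, pow_succ]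
            ring
        _ ≤ _ := by
            apply Finset.sum_le_sum
            intro v hv
            rw [hV, mem_filter] at hv
            have := hv.2.1.le
            rw [hf] at this
            simp only at this
            rwa [le_div_iff₀ hMpos] at this
    have hsum : ∑ v ∈ V, MM E μ (insert v A)
        = ∑ Y ∈ E.filter (fun Y => A ⊆ Y), μ Y * ((Y ∩ V).card : ℝ) := by
      unfold MM
      have : ∀ v ∈ V, ∑ Y ∈ E.filter (fun Y => insert v A ⊆ Y), μ Y
          = ∑ Y ∈ E.filter (fun Y => A ⊆ Y), if v ∈ Y then μ Y else 0 := by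
        intro v _
        rw [← Finset.sum_filter, Finset.filter_filter]
        apply Finset.sum_congr _ (fun _ _ => rfl)
        ext Y
        simp only [mem_filter, Finset.insert_subset_iff]
        tauto
      rw [Finset.sum_congr rfl this, Finset.sum_comm]
      apply Finset.sum_congr rfl
      intro Y _
      rw [← Finset.sum_filter, sum_const, nsmul_eq_mul, mul_comm]
      congr 2
      congr 1
      ext v
      simp only [mem_filter, mem_inter]
      tauto
    set P := ∑ Y ∈ E.filter (fun Y => A ⊆ Y ∧ y ≤ ((Y ∩ V).card : ℝ)), μ Y with hP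
    have hup : ∑ Y ∈ E.filter (fun Y => A ⊆ Y), μ Y * ((Y ∩ V).card : ℝ)
        ≤ u * P + y * MM E μ A := by
      have hP' : P = ∑ Y ∈ E.filter (fun Y => A ⊆ Y), if y ≤ ((Y ∩ V).card : ℝ) then μ Y else 0 := by
        rw [hP, ← Finset.sum_filter, Finset.filter_filter]
      rw [hP', Finset.mul_sum]
      unfold MM
      rw [Finset.mul_sum, ← Finset.sum_add_distrib]
      apply Finset.sum_le_sum
      intro Y hY
      rw [mem_filter] at hY
      have hm := hμ Y
      have hc : ((Y ∩ V).card : ℝ) ≤ u := by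
        exact_mod_cast (Finset.card_le_card Finset.inter_subset_left).trans (hu Y hY.1)
      split_ifs with hc2
      · nlinarith [mul_le_mul_of_nonneg_left hc hm, mul_nonneg hy0.le hm]
      · rw [not_le] at hc2
        nlinarith [mul_le_mul_of_nonneg_left hc2.le hm]
    have hfin : y * MM E μ A ≤ u * P := by
      rw [hsum] at hexp
      linarith
    have hfin2 : (ν ^ (7 * x))⁻¹ / 2 ≤ u * P := by
      have : MM E μ A ≤ y * MM E μ A := le_mul_of_one_le_left hMpos.le hy1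
      linarith
    have hP0 : 0 ≤ P := Finset.sum_nonneg (fun Y _ => hμ Y)
    rcases Nat.eq_zero_or_pos u with hu0 | hu0
    · rw [hu0]
      simpa using hP0
    · have hu' : (0 : ℝ) < u := by exact_mod_cast hu0
      rw [div_le_iff₀ (by positivity)]
      nlinarith
  · -- the quality
    have hVy : (V.card : ℝ) = y * (4 * 2 ^ i) := by
      rw [hy, one_div, inv_pow]
      field_simp
    have h4 : (4 : ℝ) ^ (-(1 / 56) : ℝ) ≥ 4 / 5 := by
      by_contra hcon
      rw [ge_iff_le, not_le] at hcon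
      have h5 : ((4 : ℝ) ^ (-(1 / 56) : ℝ)) ^ 56 < (4 / 5 : ℝ) ^ 56 :=
        pow_lt_pow_left₀ hcon (by positivity) (by norm_num)
      rw [← Real.rpow_natCast, ← Real.rpow_mul (by norm_num)] at h5
      norm_num at h5
    have hpow2 : ((2 : ℝ) ^ i) ^ (-(1 / 56) : ℝ) = rh ^ i := by
      unfold rh
      rw [← Real.rpow_natCast, ← Real.rpow_mul (by norm_num), ← Real.rpow_natCast,
        ← Real.rpow_mul (by norm_num), mul_comm]
    have hQ : y ^ (1 + 1 / 56 : ℝ) * (V.card : ℝ) ^ (-(1 / 56) : ℝ)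
        = y * ((4 : ℝ) ^ (-(1 / 56) : ℝ) * rh ^ i) := by
      rw [hVy, Real.mul_rpow hy0.le (by positivity), Real.mul_rpow (by norm_num) (by positivity),
        hpow2, ← mul_assoc, ← Real.rpow_add hy0]
      norm_num
    rw [hQ]
    have h6 : 4 / 5 * rh ^ i ≤ (4 : ℝ) ^ (-(1 / 56) : ℝ) * rh ^ i :=
      mul_le_mul_of_nonneg_right h4 hρi.le
    calc (x : ℝ) * Real.sqrt ν / 500 = 4 / 5 * (x * Real.sqrt ν / 400) := by ring
      _ ≤ 4 / 5 * (rh ^ i * y) := by linarith
      _ = y * (4 / 5 * rh ^ i) := by ring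
      _ ≤ _ := mul_le_mul_of_nonneg_left h6 hy0.le

end P034F16
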