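import Vale.Agent.P034F.Exc
import Vale.Agent.P034F.Classes
import Vale.Agent.P034F.Down
import Vale.Agent.P034F.Generic
import Vale.Agent.P034F.MaxEvent
import Vale.Agent.P034F.Merge
import Vale.Agent.P034F.Pot

/-! [STG] stage assembly (helper28). -/
namespace TAL.Stg
open Finset

variable {X : Type} [Fintype X] [DecidableEq X]

theorem kill_nonneg (G : Finset (Finset X)) (a : Finset X → ℝ) (ha : ∀ Y, 0 ≤ a Y) (Y : Finset X) :
    0 ≤ kill G a Y := by
  unfold kill; split_ifs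
  · exact le_rfl
  · exact ha Y

theorem kill_le (G : Finset (Finset X)) (a : Finset X → ℝ) (ha : ∀ Y, 0 ≤ a Y) (Y : Finset X) :
    kill G a Y ≤ a Y := by
  unfold kill; split_ifs
  · exact ha Y
  · exact le_rfl

theorem kill_ne (G : Finset (Finset X)) (a : Finset X → ℝ) (Y : Finset X) (h : kill G a Y ≠ 0) :
    a Y ≠ 0 := by
  unfold kill at h; split_ifs at h
  · exact absurd rfl h
  · exact h

theorem kill_eq (G : Finset (Finset X)) (a : Finset X → ℝ) (Y : Finset X) (h : ¬ Cov G Y) :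
    kill G a Y = a Y := by
  unfold kill; simp [h]

theorem cov_mono {G G' : Finset (Finset X)} {T T' : Finset X} (hG : G ⊆ G') (hT : T ⊆ T')
    (h : Cov G T) : Cov G' T' := by
  obtain ⟨Z, hZ, hZT⟩ := h
  exact ⟨Z, hG hZ, hZT.trans hT⟩

theorem act_card (σ : Equiv.Perm X) (Y : Finset X) : (act σ Y).card = Y.card := by
  simp [act]

theorem act_mul (σ τ : Equiv.Perm X) (Y : Finset X) : act (σ * τ) Y = act σ (act τ Y) := by
  unfold act
  rw [Finset.map_map]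
  rfl

theorem act_one (Y : Finset X) : act (1 : Equiv.Perm X) Y = Y := by
  exact Finset.map_refl

theorem act_inv_act (σ : Equiv.Perm X) (Y : Finset X) : act σ⁻¹ (act σ Y) = Y := by
  rw [← act_mul, inv_mul_cancel, act_one]

theorem act_act_inv (σ : Equiv.Perm X) (Y : Finset X) : act σ (act σ⁻¹ Y) = Y := by
  rw [← act_mul, mul_inv_cancel, act_one]

theorem act_union (σ : Equiv.Perm X) (Y Z : Finset X) : act σ (Y ∪ Z) = act σ Y ∪ act σ Z := by
  simp [act, Finset.map_union]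

theorem act_inter (σ : Equiv.Perm X) (Y Z : Finset X) : act σ (Y ∩ Z) = act σ Y ∩ act σ Z := by
  simp [act, Finset.map_inter]

theorem act_subset (σ : Equiv.Perm X) (Y Z : Finset X) : act σ Y ⊆ act σ Z ↔ Y ⊆ Z := by
  simp [act, Finset.map_subset_map]

/-- `act σ` as a permutation of the subsets -/
def actE (σ : Equiv.Perm X) : Equiv.Perm (Finset X) where
  toFun := act σ
  invFun := act σ⁻¹
  left_inv := act_inv_act σ
  right_inv := act_act_inv σ

theorem cov_act (Γ : Subgroup (Equiv.Perm X)) (G : Finset (Finset X)) (hG : InvF Γ G)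
    (σ : Equiv.Perm X) (hσ : σ ∈ Γ) (Y : Finset X) : Cov G (act σ Y) ↔ Cov G Y := by
  constructor
  · rintro ⟨Z, hZ, h⟩
    refine ⟨act σ⁻¹ Z, hG σ⁻¹ (Γ.inv_mem hσ) Z hZ, ?_⟩
    rw [← act_subset σ, act_act_inv]; exact h
  · rintro ⟨Z, hZ, h⟩
    exact ⟨act σ Z, hG σ hσ Z hZ, (act_subset σ _ _).mpr h⟩

theorem kill_inv (Γ : Subgroup (Equiv.Perm X)) (G : Finset (Finset X)) (hG : InvF Γ G)
    (a : Finset X → ℝ) (ha : InvW Γ a) : InvW Γ (kill G a) := by
  intro σ hσ Y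
  by_cases h : Cov G Y
  · have h' := (cov_act Γ G hG σ hσ Y).mpr h
    simp [kill, h, h']
  · have h' : ¬ Cov G (act σ Y) := fun h2 => h ((cov_act Γ G hG σ hσ Y).mp h2)
    simp [kill, h, h', ha σ hσ Y]

theorem cost_nonneg (q : ℝ) (hq : 0 < q) (G : Finset (Finset X)) : 0 ≤ cost q G :=
  Finset.sum_nonneg (fun _ _ => by positivity)

theorem cost_union_le (q : ℝ) (hq : 0 < q) (G G' : Finset (Finset X)) :
    cost q (G ∪ G') ≤ cost q G + cost q G' := by
  unfold cost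
  rw [← Finset.sum_union_inter]
  have : 0 ≤ ∑ Z ∈ G ∩ G', q ^ Z.card := Finset.sum_nonneg (fun _ _ => by positivity)
  linarith

theorem cost_biUnion_le {ι : Type} [DecidableEq ι] (q : ℝ) (hq : 0 < q) (I : Finset ι)
    (G : ι → Finset (Finset X)) (c : ℝ) (h : ∀ i ∈ I, cost q (G i) ≤ c) :
    cost q (I.biUnion G) ≤ I.card * c := by
  induction I using Finset.induction_on with
  | empty => simp [cost]
  | insert i I hi ih =>
    rw [Finset.biUnion_insert, Finset.card_insert_of_notMem hi]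
    have h1 := cost_union_le q hq (G i) (I.biUnion G)
    have h2 := ih (fun j hj => h j (Finset.mem_insert_of_mem hj))
    have h3 := h i (Finset.mem_insert_self _ _)
    push_cast
    nlinarith

theorem invF_union (Γ : Subgroup (Equiv.Perm X)) (G G' : Finset (Finset X)) (h : InvF Γ G)
    (h' : InvF Γ G') : InvF Γ (G ∪ G') := by
  intro σ hσ Z hZ
  rcases Finset.mem_union.mp hZ with h1 | h1
  · exact Finset.mem_union_left _ (h σ hσ Z h1)
  · exact Finset.mem_union_right _ (h' σ hσ Z h1)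

theorem invF_biUnion {ι : Type} [DecidableEq ι] (Γ : Subgroup (Equiv.Perm X)) (I : Finset ι)
    (G : ι → Finset (Finset X)) (h : ∀ i ∈ I, InvF Γ (G i)) : InvF Γ (I.biUnion G) := by
  intro σ hσ Z hZ
  obtain ⟨i, hi, hZi⟩ := Finset.mem_biUnion.mp hZ
  exact Finset.mem_biUnion.mpr ⟨i, hi, h i hi σ hσ Z hZi⟩

theorem mrg_nonneg (a : Finset X → ℝ) (C : Finset X → Finset X → Prop) (ha : ∀ Y, 0 ≤ a Y)
    (U : Finset X) : 0 ≤ mrg a C U := by
  unfold mrg
  refine Finset.sum_nonneg (fun Y _ => Finset.sum_nonneg (fun Y' _ => ?_))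
  split_ifs
  · exact mul_nonneg (ha _) (ha _)
  · exact le_rfl

theorem mrg_ne (a : Finset X → ℝ) (C : Finset X → Finset X → Prop) (U : Finset X)
    (h : mrg a C U ≠ 0) : ∃ Y Y', a Y ≠ 0 ∧ a Y' ≠ 0 ∧ C Y Y' ∧ Y ∪ Y' = U := by
  by_contra hcon
  apply h
  unfold mrg
  refine Finset.sum_eq_zero (fun Y _ => Finset.sum_eq_zero (fun Y' _ => ?_))
  split_ifs with hc
  · by_contra h0
    exact hcon ⟨Y, Y', fun h1 => h0 (by rw [h1, zero_mul]), fun h1 => h0 (by rw [h1, mul_zero]),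
      hc.1, hc.2⟩
  · rfl

theorem mrg_inv (Γ : Subgroup (Equiv.Perm X)) (a : Finset X → ℝ) (C : Finset X → Finset X → Prop)
    (ha : InvW Γ a) (hC : InvR Γ C) : InvW Γ (mrg a C) := by
  intro σ hσ U
  unfold mrg
  rw [← Equiv.sum_comp (actE σ)]
  refine Finset.sum_congr rfl (fun Y _ => ?_)
  rw [← Equiv.sum_comp (actE σ)]
  refine Finset.sum_congr rfl (fun Y' _ => ?_)
  have e1 : actE σ Y = act σ Y := rfl
  have e2 : actE σ Y' = act σ Y' := rfl
  rw [e1, e2, ha σ hσ Y, ha σ hσ Y']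
  have h1 : (C (act σ Y) (act σ Y') ∧ act σ Y ∪ act σ Y' = act σ U) ↔ (C Y Y' ∧ Y ∪ Y' = U) := by
    constructor
    · rintro ⟨h1, h2⟩
      constructor
      · have := hC σ⁻¹ (Γ.inv_mem hσ) _ _ h1
        rwa [act_inv_act, act_inv_act] at this
      · rw [← act_union] at h2
        have := congrArg (act σ⁻¹) h2
        rwa [act_inv_act, act_inv_act] at this
    · rintro ⟨h1, h2⟩
      exact ⟨hC σ hσ _ _ h1, by rw [← act_union, h2]⟩
  classical
  exact if_congr h1 rfl rfl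

/-- the child node -/
noncomputable def child (a : Finset X → ℝ) (u : ℕ) (D s : ℝ) (Θ : ℝ)
    (C : Finset X → Finset X → Prop) (x t : ℕ) (e : ℝ) : Nd X where
  a := fun U => Real.exp (2 * (t : ℝ)) * Θ * mrg a C U
  u := 2 * u - x
  D := 2 * (D + s) + 6 * t + hh u + e

theorem exp_hh (u : ℕ) : Real.exp (hh u) = 2 ^ 18 * ((u : ℝ) + 1) ^ 14 := by
  unfold hh
  exact Real.exp_log (by positivity)

theorem child_ok (Γ : Subgroup (Equiv.Perm X)) (a : Finset X → ℝ) (u : ℕ) (hu : 1 ≤ u)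
    (D s r : ℝ) (hr : 0 < r) (Θ : ℝ)
    (hΘ : 0 ≤ Θ) (C : Finset X → Finset X → Prop) (x t : ℕ) (hx : x ≤ u) (e : ℝ)
    (ha : ∀ Y, 0 ≤ a Y) (hcard : ∀ Y, a Y ≠ 0 → Y.card = u) (hinv : InvW Γ a)
    (hC : ∀ Y Y', C Y Y' → (Y ∩ Y').card = x) (hCi : InvR Γ C) (M : ℝ)
    (hpm : pm a C ≤ (Real.exp (D + s) / r ^ u) ^ 2 * r ^ x * M)
    (hM : Real.exp (2 * (t : ℝ)) * Θ * M ≤ Real.exp (6 * t + hh u + e)) :
    Ok Γ r (child a u D s Θ C x t e) := by
  refine ⟨by simp only [child]; omega, ?_, ?_, ?_, ?_⟩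
  · intro Y
    exact mul_nonneg (mul_nonneg (Real.exp_pos _).le hΘ) (mrg_nonneg a C ha Y)
  · intro U hU
    have h1 : mrg a C U ≠ 0 := by
      intro h0
      apply hU
      simp [child, h0]
    obtain ⟨Y, Y', hY, hY', hc, hU'⟩ := mrg_ne a C U h1
    have h2 := Finset.card_union_add_card_inter Y Y'
    rw [hcard Y hY, hcard Y' hY', hC Y Y' hc, hU'] at h2
    simp only [child]
    omega
  · have htot : tot (child a u D s Θ C x t e).a = Real.exp (2 * (t : ℝ)) * Θ * pm a C := by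
      rw [← tot_mrg]
      simp only [tot, child, Finset.mul_sum]
    rw [htot]
    have hDe : (child a u D s Θ C x t e).D = 2 * (D + s) + (6 * t + hh u + e) := by
      simp only [child]; ring
    have hue : (child a u D s Θ C x t e).u = 2 * u - x := rfl
    rw [hDe, hue]
    have hrpow : r ^ x * r ^ (2 * u - x) = (r ^ u) ^ 2 := by
      rw [← pow_add, ← pow_mul]
      congr 1; omega
    have hru : 0 < r ^ u := by positivity
    have key : (Real.exp (D + s) / r ^ u) ^ 2 * r ^ x * r ^ (2 * u - x) = Real.exp (2 * (D + s)) := by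
      rw [mul_assoc, hrpow, div_pow, div_mul_cancel₀ _ (by positivity), ← Real.exp_nat_mul]
      norm_num
    have hE : 0 ≤ Real.exp (2 * (t : ℝ)) * Θ := mul_nonneg (Real.exp_pos _).le hΘ
    calc Real.exp (2 * (t : ℝ)) * Θ * pm a C * r ^ (2 * u - x)
        ≤ Real.exp (2 * (t : ℝ)) * Θ * ((Real.exp (D + s) / r ^ u) ^ 2 * r ^ x * M) *
            r ^ (2 * u - x) := by gcongr
      _ = ((Real.exp (D + s) / r ^ u) ^ 2 * r ^ x * r ^ (2 * u - x)) *
            (Real.exp (2 * (t : ℝ)) * Θ * M) := by ring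
      _ = Real.exp (2 * (D + s)) * (Real.exp (2 * (t : ℝ)) * Θ * M) := by rw [key]
      _ ≤ Real.exp (2 * (D + s)) * Real.exp (6 * t + hh u + e) := by gcongr
      _ = Real.exp (2 * (D + s) + (6 * t + hh u + e)) := by rw [← Real.exp_add]
  · intro σ hσ U
    simp only [child]
    rw [mrg_inv Γ a C hinv hCi σ hσ U]

/-- common data: exceptional sets. -/
theorem stage_exc (Γ : Subgroup (Equiv.Perm X)) (q r s : ℝ) (hq : 0 < q) (hr : 0 < r) (hs : 0 ≤ s)
    (N : Nd X) (hN : Ok Γ r N) :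
    ∃ G : Finset (Finset X), InvF Γ G ∧ cost q G ≤ Real.exp (-s) ∧
      Spr Γ (kill G N.a) (Real.exp (N.D + s) / r ^ N.u) q ∧
      tot (kill G N.a) ≤ Real.exp (-s) * (Real.exp (N.D + s) / r ^ N.u) := by
  obtain ⟨hu, ha, hcard, htot, hinv⟩ := hN
  have hru : 0 < r ^ N.u := by positivity
  set θ : ℝ := Real.exp (N.D + s) / r ^ N.u with hθdef
  have hθ : 0 < θ := by positivity
  have htota : tot N.a ≤ Real.exp (-s) * θ := by
    have h1 : Real.exp (-s) * θ = Real.exp N.D / r ^ N.u := by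
      rw [hθdef, ← mul_div_assoc, ← Real.exp_add]; congr 2; ring
    rw [h1, le_div_iff₀ hru]; exact htot
  have hs1 : Real.exp (-s) * θ ≤ θ := by
    have : Real.exp (-s) * θ ≤ 1 * θ := by
      apply mul_le_mul_of_nonneg_right _ hθ.le
      rw [← Real.exp_zero]; exact Real.exp_le_exp.mpr (by linarith)
    linarith
  obtain ⟨G, hG0, hG1, hG2⟩ := exc Γ q θ hq hθ N.a ha hinv (htota.trans hs1)
  have hkill : tot (kill G N.a) ≤ tot N.a :=
    Finset.sum_le_sum (fun Y _ => kill_le G N.a ha Y)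
  refine ⟨G, hG0, ?_, hG2, hkill.trans htota⟩
  have h1 : cost q G * θ ≤ Real.exp (-s) * θ := hG1.trans htota
  exact le_of_mul_le_mul_right h1 hθ

theorem exp_gt_two (B : ℝ) (hB : Real.exp 100 ≤ B) : 2 ≤ B := by
  have := Real.add_one_le_exp (100 : ℝ)
  linarith

theorem card_bd (u c : ℕ) (h : c ≤ 4 * (u + 1) ^ 3) : c ≤ 8 * (u + 1) ^ 3 := by
  have : 0 ≤ (u + 1) ^ 3 := Nat.zero_le _
  omega

open Classical in
theorem stage_gen (Γ : Subgroup (Equiv.Perm X)) (B q s : ℝ) (hB : Real.exp 100 ≤ B) (hq : 0 < q)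
    (hs : 0 ≤ s) (N : Nd X) (hN : Ok Γ (B ^ 2 * q) N) :
    ∃ (G : Finset (Finset X)) (Ch : Finset (Nd X)), InvF Γ G ∧
      cost q G ≤ Real.exp (-s) ∧
      Ch.card ≤ 8 * (N.u + 1) ^ 3 ∧ (∀ N' ∈ Ch, Ok Γ (B ^ 2 * q) N' ∧ N'.u ≤ 2 * N.u) ∧
      ∀ (T : Finset X) (μ : Finset X → ℝ), ¬ Cov G T → IsP T N.u μ → (∀ Y, μ Y ≤ N.a Y) →
        ∃ N' ∈ Ch, ∃ (μ' : Finset X → ℝ) (S : Finset (Finset X)) (x t : ℕ),
          S.Nonempty ∧ (∀ Y ∈ S, μ Y ≠ 0) ∧ (t : ℝ) ≤ Real.exp (-(Real.log B) / 4) * QQ S + 1 ∧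
          IsP T N'.u μ' ∧ (∀ Y, μ' Y ≤ N'.a Y) ∧ N'.u + x = 2 * N.u ∧
          (∀ U, μ' U ≠ 0 → ∃ Y ∈ S, ∃ Y' ∈ S, U = Y ∪ Y' ∧ (Y ∩ Y').card = x) ∧
          N'.D ≤ 2 * (N.D + s) + 6 * t + hh N.u + 2 * (N.u : ℝ) / B := by
  have hB2 := exp_gt_two B hB
  have hr : 0 < B ^ 2 * q := by positivity
  obtain ⟨G, hG0, hG1, hG2, hG3⟩ := stage_exc Γ q (B ^ 2 * q) s hq hr hs N hN
  obtain ⟨hu, ha, hcard, htot, hinv⟩ := hN
  set a := kill G N.a with hadef
  have ha0 : ∀ Y, 0 ≤ a Y := kill_nonneg G N.a ha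
  have hac : ∀ Y, a Y ≠ 0 → Y.card = N.u := fun Y hY => hcard Y (kill_ne G N.a Y hY)
  have hai : InvW Γ a := kill_inv Γ G hG0 N.a hinv
  set θ : ℝ := Real.exp (N.D + s) / (B ^ 2 * q) ^ N.u with hθdef
  have hθ : 0 < θ := by positivity
  have htot' : tot a ≤ θ := by
    refine hG3.trans ?_
    have : Real.exp (-s) * θ ≤ 1 * θ := by
      apply mul_le_mul_of_nonneg_right _ hθ.le
      rw [← Real.exp_zero]; exact Real.exp_le_exp.mpr (by linarith)
    linarith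
  set Cx : ℕ → Finset X → Finset X → Prop := fun x Y Y' => (Y ∩ Y').card = x with hCx
  have hCi : ∀ x, InvR Γ (Cx x) := by
    intro x σ hσ Y Y' h
    simp only [hCx] at h ⊢
    rw [← act_inter, act_card]; exact h
  set nd : ℕ → Nd X := fun x => child a N.u N.D s ((N.u : ℝ) + 1) (Cx x) x 0 (2 * (N.u : ℝ) / B)
    with hnd
  refine ⟨G, (range (N.u + 1)).image nd, hG0, hG1, ?_, ?_, ?_⟩
  · apply card_bd
    refine Finset.card_image_le.trans ?_
    rw [card_range]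
    have h1 : 1 ≤ (N.u + 1) ^ 2 := Nat.one_le_pow _ _ (Nat.succ_pos _)
    calc N.u + 1 = (N.u + 1) * 1 := by ring
      _ ≤ (N.u + 1) * (N.u + 1) ^ 2 := Nat.mul_le_mul_left _ h1
      _ = (N.u + 1) ^ 3 := by ring
      _ ≤ 4 * (N.u + 1) ^ 3 := by omega
  · intro N' hN'
    obtain ⟨x, hx, rfl⟩ := Finset.mem_image.mp hN'
    have hxu : x ≤ N.u := by simpa [Nat.lt_succ_iff] using hx
    refine ⟨child_ok Γ a N.u hu N.D s (B ^ 2 * q) hr _ (by positivity) (Cx x) x 0 hxu _ ha0 hac hai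
      (fun Y Y' h => h) (hCi x) (Real.exp (2 * (N.u : ℝ) / B)) ?_ ?_, by simp only [hnd, child]; omega⟩
    · convert generic_mass Γ B q θ N.u x a hB2 hq hθ ha0 hac hai hG2 htot' using 1
    · have e1 : Real.exp (6 * ((0 : ℕ) : ℝ) + hh N.u + 2 * (N.u : ℝ) / B)
          = Real.exp (hh N.u) * Real.exp (2 * (N.u : ℝ) / B) := by
        rw [← Real.exp_add]; congr 1; push_cast; ring
      have e2 : Real.exp (2 * ((0 : ℕ) : ℝ)) = 1 := by norm_num
      rw [e1, e2, one_mul, exp_hh]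
      apply mul_le_mul_of_nonneg_right _ (Real.exp_pos _).le
      have h1 : (1 : ℝ) ≤ (N.u : ℝ) + 1 := by have : (0 : ℝ) ≤ N.u := Nat.cast_nonneg _; linarith
      have h2 : ((N.u : ℝ) + 1) ^ 1 ≤ ((N.u : ℝ) + 1) ^ 14 := pow_le_pow_right₀ h1 (by norm_num)
      rw [pow_one] at h2
      nlinarith
  · intro T μ hT hμ hle
    obtain ⟨hμ0, hμc, hμ1⟩ := hμ
    set S : Finset (Finset X) := univ.filter (fun Y => μ Y ≠ 0) with hSdef
    have hSsum : ∑ Y ∈ S, μ Y = 1 := by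
      rw [← hμ1, tot, hSdef, Finset.sum_filter_ne_zero]
    have hSne : S.Nonempty := by
      by_contra hne
      rw [Finset.not_nonempty_iff_eq_empty] at hne
      rw [hne] at hSsum; simp at hSsum
    -- pigeonhole on x
    have hsum : ∑ x ∈ range (N.u + 1), (∑ Y ∈ S, ∑ Y' ∈ S, if Cx x Y Y' then μ Y * μ Y' else 0)
        = 1 := by
      rw [Finset.sum_comm]
      have : ∀ Y ∈ S, ∑ x ∈ range (N.u + 1), (∑ Y' ∈ S, if Cx x Y Y' then μ Y * μ Y' else 0)
          = μ Y := by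
        intro Y hY
        rw [Finset.sum_comm]
        have h2 : ∀ Y' ∈ S, ∑ x ∈ range (N.u + 1), (if Cx x Y Y' then μ Y * μ Y' else 0)
            = μ Y * μ Y' := by
          intro Y' hY'
          simp only [hCx]
          rw [Finset.sum_ite_eq (range (N.u + 1)) ((Y ∩ Y').card) (fun _ => μ Y * μ Y')]
          rw [if_pos]
          have h3 : (Y ∩ Y').card ≤ Y.card := Finset.card_le_card Finset.inter_subset_left
          have h4 := (hμc Y (by simpa [hSdef] using hY)).1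
          simp; omega
        rw [Finset.sum_congr rfl h2, ← Finset.mul_sum, hSsum, mul_one]
      rw [Finset.sum_congr rfl this, hSsum]
    obtain ⟨x, hx, hxs⟩ : ∃ x ∈ range (N.u + 1), 1 / ((N.u : ℝ) + 1) ≤
        ∑ Y ∈ S, ∑ Y' ∈ S, if Cx x Y Y' then μ Y * μ Y' else 0 := by
      by_contra hcon
      push Not at hcon
      have h1 := Finset.sum_lt_sum_of_nonempty (s := range (N.u + 1)) ⟨0, by simp⟩ hcon
      rw [hsum, Finset.sum_const, card_range, nsmul_eq_mul] at h1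
      have h2 : ((N.u + 1 : ℕ) : ℝ) * (1 / ((N.u : ℝ) + 1)) = 1 := by
        push_cast
        field_simp
      linarith
    have hxu : x ≤ N.u := by simpa [Nat.lt_succ_iff] using hx
    have hle' : ∀ Y, μ Y ≤ a Y := by
      intro Y
      by_cases hY : μ Y = 0
      · rw [hY]; exact ha0 Y
      · have h1 := (hμc Y hY).2
        rw [hadef, kill_eq G N.a Y (fun h => hT (cov_mono (le_refl _) h1 h))]
        exact hle Y
    have hP : (∑ Y ∈ S, μ Y) ^ 2 ≤ ((N.u : ℝ) + 1) *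
        ∑ Y ∈ S, ∑ Y' ∈ S, if Cx x Y Y' then μ Y * μ Y' else 0 := by
      rw [hSsum]
      have h1 : (0 : ℝ) < (N.u : ℝ) + 1 := by positivity
      rw [div_le_iff₀ h1] at hxs
      linarith
    obtain ⟨μ', h1, h2, h3⟩ := merge_measure a μ T N.u x 0 ((N.u : ℝ) + 1) S (Cx x)
      ⟨hμ0, hμc, hμ1⟩ hle' (by positivity) (fun Y hY => by simpa [hSdef] using hY)
      (by rw [hSsum]; norm_num) (fun Y Y' h => h)
      (by convert hP)
    refine ⟨nd x, Finset.mem_image_of_mem _ hx, μ', S, x, 0, hSne,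
      fun Y hY => by simpa [hSdef] using hY, ?_, h1, h2, ?_, h3, ?_⟩
    · have : 0 ≤ QQ S := (QQ_le S N.u hSne (fun Y hY => (hμc Y (by simpa [hSdef] using hY)).1)).2
      have h5 : 0 ≤ Real.exp (-(Real.log B) / 4) * QQ S := mul_nonneg (Real.exp_pos _).le this
      push_cast; linarith
    · simp only [hnd, child]; omega
    · simp only [hnd, child]; linarith

open Classical in
theorem stage_full (Γ : Subgroup (Equiv.Perm X)) (B q s : ℝ) (hB : Real.exp 100 ≤ B) (hq : 0 < q)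
    (hs : 0 ≤ s)
    (hcl : ∀ K'' : ℝ, B ^ 6 ≤ K'' → Claim Γ q K'') (N : Nd X) (hN : Ok Γ (B ^ 2 * q) N) :
    ∃ (G : Finset (Finset X)) (Ch : Finset (Nd X)), InvF Γ G ∧
      cost q G ≤ Real.exp (-s) + (N.u : ℝ) ^ 2 * Real.exp (-s / 40) ∧
      Ch.card ≤ 8 * (N.u + 1) ^ 3 ∧ (∀ N' ∈ Ch, Ok Γ (B ^ 2 * q) N' ∧ N'.u ≤ 2 * N.u) ∧
      ∀ (T : Finset X) (μ : Finset X → ℝ), ¬ Cov G T → IsP T N.u μ → (∀ Y, μ Y ≤ N.a Y) →
        ∃ N' ∈ Ch, ∃ (μ' : Finset X → ℝ) (S : Finset (Finset X)) (x t : ℕ),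
          S.Nonempty ∧ (∀ Y ∈ S, μ Y ≠ 0) ∧ (t : ℝ) ≤ Real.exp (-(Real.log B) / 4) * QQ S + 1 ∧
          IsP T N'.u μ' ∧ (∀ Y, μ' Y ≤ N'.a Y) ∧ N'.u + x = 2 * N.u ∧
          (∀ U, μ' U ≠ 0 → ∃ Y ∈ S, ∃ Y' ∈ S, U = Y ∪ Y' ∧ (Y ∩ Y').card = x) ∧
          N'.D ≤ 2 * (N.D + s) + 6 * t + hh N.u := by
  have hB2 := exp_gt_two B hB
  have hr : 0 < B ^ 2 * q := by positivity
  obtain ⟨G0, hG0, hG1, hG2, hG3⟩ := stage_exc Γ q (B ^ 2 * q) s hq hr hs N hN
  obtain ⟨hu, ha, hcard, htot, hinv⟩ := hN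
  set a := kill G0 N.a with hadef
  have ha0 : ∀ Y, 0 ≤ a Y := kill_nonneg G0 N.a ha
  have hac : ∀ Y, a Y ≠ 0 → Y.card = N.u := fun Y hY => hcard Y (kill_ne G0 N.a Y hY)
  have hai : InvW Γ a := kill_inv Γ G0 hG0 N.a hinv
  set θ : ℝ := Real.exp (N.D + s) / (B ^ 2 * q) ^ N.u with hθdef
  have hθ : 0 < θ := by positivity
  have hσ : 0 < Real.exp (-s) := Real.exp_pos _
  have hσ1 : Real.exp (-s) ≤ 1 := by
    rw [← Real.exp_zero]; exact Real.exp_le_exp.mpr (by linarith)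
  -- classes for every x
  have hcls : ∀ x : ℕ, ∃ (C D : ℕ → Finset X → Finset X → Prop) (Ys Zs : ℕ → Finset (Finset X)),
      x ≤ N.u → ((∀ Y Y', a Y ≠ 0 → a Y' ≠ 0 → (Y ∩ Y').card = x →
        (∃ j ≤ N.u, C j Y Y' ∨ C j Y' Y) ∨ (∃ j < N.u, D j Y Y' ∨ D j Y' Y)) ∧
      (∀ j Y Y', C j Y Y' → (Y ∩ Y').card = x) ∧
      (∀ j Y Y', D j Y Y' → (Y ∩ Y').card = x ∧ Y ∈ Ys j) ∧
      (∀ j, pm a (C j) ≤ θ ^ 2 * (B ^ 2 * q) ^ x) ∧
      (∀ j, pm a (D j) ≤ θ ^ 2 * (B ^ 2 * q) ^ x * (nu B j) ^ (4 * x)) ∧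
      (∀ j, ∀ Y ∈ Ys j, (nu B j) ^ x ≤ (((Zs j).filter (fun Z => Z ⊆ Y)).card : ℝ)) ∧
      (∀ j, ∀ Z ∈ Zs j, Z.card = x) ∧
      (∀ j, ((Zs j).card : ℝ) * (B ^ 2 * q) ^ x ≤ Real.exp (-s) * (nu B (j + 1)) ^ (2 * x)) ∧
      (∀ j, InvF Γ (Zs j)) ∧ (∀ j, InvR Γ (C j)) ∧ (∀ j, InvR Γ (D j))) := by
    intro x
    by_cases hx : x ≤ N.u
    · obtain ⟨C, D, Ys, Zs, h⟩ := classes Γ B q θ (Real.exp (-s)) N.u x a hB2 hq hθ hσ hσ1 ha0 hac
        hai hG2 hG3 hx
      exact ⟨C, D, Ys, Zs, fun _ => h⟩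
    · exact ⟨fun _ _ _ => False, fun _ _ _ => False, fun _ => ∅, fun _ => ∅, fun h => absurd h hx⟩
  choose C D Ys Zs hcl' using hcls
  -- down moves
  have hdown : ∀ x j : ℕ, ∃ G : Finset (Finset X), InvF Γ G ∧ cost q G ≤ Real.exp (-s / 40) ∧
      (1 ≤ x → x ≤ N.u → ∀ T : Finset X,
        (nu B j) ^ (8 * x) ≤ (((Zs x j).filter (fun Z => Z ⊆ T)).card : ℝ) → Cov G T) := by
    intro x j
    by_cases hx : 1 ≤ x ∧ x ≤ N.u
    · obtain ⟨h1, h2, h3, h4, h5, h6, h7, h8, h9, h10, h11⟩ := hcl' x hx.2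
      obtain ⟨G, g1, g2, g3⟩ := down_move Γ B q s hB hq hs hcl x j hx.1 (Zs x j) (h7 j) (h9 j) (h8 j)
      exact ⟨G, g1, g2, fun _ _ => g3⟩
    · exact ⟨∅, by intro σ _ Z hZ; simp at hZ, by simp [cost]; exact (Real.exp_pos _).le,
        fun h1 h2 => absurd ⟨h1, h2⟩ hx⟩
  choose Gd hGd1 hGd2 hGd3 using hdown
  set I : Finset (ℕ × ℕ) := (Finset.Icc 1 N.u) ×ˢ (range N.u) with hI
  set G1 : Finset (Finset X) := I.biUnion (fun p => Gd p.1 p.2) with hG1def
  -- children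
  set Θ : ℝ := 4 * ((N.u : ℝ) + 1) ^ 2 with hΘdef
  have hΘ : 0 < Θ := by positivity
  set ndC : ℕ × ℕ × ℕ → Nd X := fun p => child a N.u N.D s Θ (C p.1 p.2.1) p.1 p.2.2 0 with hndC
  set ndD : ℕ × ℕ × ℕ → Nd X := fun p => child a N.u N.D s Θ (D p.1 p.2.1) p.1 p.2.2 0 with hndD
  set J : Finset (ℕ × ℕ × ℕ) := (range (N.u + 1)) ×ˢ ((range (N.u + 1)) ×ˢ (range (N.u + 2))) with hJ
  refine ⟨G0 ∪ G1, ((J.image ndC) ∪ (J.image ndD)).filter
    (fun N' => Ok Γ (B ^ 2 * q) N' ∧ N'.u ≤ 2 * N.u), ?_, ?_, ?_, ?_, ?_⟩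
  · exact invF_union Γ _ _ hG0 (invF_biUnion Γ I _ (fun i _ => hGd1 i.1 i.2))
  · refine (cost_union_le q hq _ _).trans ?_
    refine add_le_add hG1 ?_
    refine (cost_biUnion_le q hq I _ (Real.exp (-s / 40)) (fun i _ => hGd2 i.1 i.2)).trans ?_
    rw [hI, Finset.card_product, Nat.card_Icc, card_range]
    have : ((N.u + 1 - 1) * N.u : ℕ) = N.u ^ 2 := by rw [Nat.add_sub_cancel]; ring
    rw [this]; push_cast; exact le_rfl
  · refine (Finset.card_filter_le _ _).trans ?_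
    refine (Finset.card_union_le _ _).trans ?_
    have h1 : (J.image ndC).card ≤ J.card := Finset.card_image_le
    have h2 : (J.image ndD).card ≤ J.card := Finset.card_image_le
    have h3 : J.card = (N.u + 1) * ((N.u + 1) * (N.u + 2)) := by
      rw [hJ, Finset.card_product, Finset.card_product, card_range, card_range]
    have h4 : (N.u + 1) * ((N.u + 1) * (N.u + 2)) ≤ 2 * (N.u + 1) ^ 3 := by
      have : N.u + 2 ≤ 2 * (N.u + 1) := by omega
      calc (N.u + 1) * ((N.u + 1) * (N.u + 2)) ≤ (N.u + 1) * ((N.u + 1) * (2 * (N.u + 1))) := by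
            gcongr
        _ = 2 * (N.u + 1) ^ 3 := by ring
    have h5 : 0 ≤ (N.u + 1) ^ 3 := Nat.zero_le _
    omega
  · intro N' hN'
    exact (Finset.mem_filter.mp hN').2
  · intro T μ hT hμ hle
    have hT0 : ¬ Cov G0 T := fun h => hT (cov_mono Finset.subset_union_left (le_refl _) h)
    have hT1 : ¬ Cov G1 T := fun h => hT (cov_mono Finset.subset_union_right (le_refl _) h)
    obtain ⟨hμ0, hμc, hμ1⟩ := hμ
    have hle' : ∀ Y, μ Y ≤ a Y := by
      intro Y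
      by_cases hY : μ Y = 0
      · rw [hY]; exact ha0 Y
      · have h1 := (hμc Y hY).2
        rw [hadef, kill_eq G0 N.a Y (fun h => hT0 (cov_mono (le_refl _) h1 h))]
        exact hle Y
    have hane : ∀ Y, μ Y ≠ 0 → a Y ≠ 0 := by
      intro Y hY
      have h1 : 0 < μ Y := lt_of_le_of_ne (hμ0 Y) (Ne.symm hY)
      have h2 := hle' Y
      intro h3; rw [h3] at h2; linarith
    -- classes with default outside the range
    set D' : ℕ → ℕ → Finset X → Finset X → Prop := fun x j Y Y' => x ≤ N.u ∧ D x j Y Y' with hD'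
    set Ys' : ℕ → ℕ → Finset (Finset X) := fun x j => if x ≤ N.u then Ys x j else ∅ with hYs'
    set Zs' : ℕ → ℕ → Finset (Finset X) := fun x j => if x ≤ N.u then Zs x j else ∅ with hZs'
    obtain ⟨S, t, hSne, hS, ht1, ht2, ht3, x, hxu, hcase⟩ := tstep B hB N.u hu μ T ⟨hμ0, hμc, hμ1⟩
      C D' Ys' Zs'
      (by
        intro x hx Y Y' hY hY' hc
        rcases (hcl' x hx).1 Y Y' (hane Y hY) (hane Y' hY') hc with ⟨j, hj, h⟩ | ⟨j, hj, h⟩
        · exact Or.inl ⟨j, hj, h⟩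
        · refine Or.inr ⟨j, hj, ?_⟩
          rcases h with h | h
          · exact Or.inl ⟨hx, h⟩
          · exact Or.inr ⟨hx, h⟩)
      (by
        intro x j Y Y' h
        have := ((hcl' x h.1).2.2.1 j Y Y' h.2).2
        simp only [hYs', if_pos h.1]; exact this)
      (by
        intro x j Y hY
        by_cases hx : x ≤ N.u
        · simp only [hYs', if_pos hx] at hY
          simp only [hZs', if_pos hx]
          exact (hcl' x hx).2.2.2.2.2.1 j Y hY
        · simp only [hYs', if_neg hx] at hY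
          simp at hY)
      (by
        intro x j Z hZ
        by_cases hx : x ≤ N.u
        · simp only [hZs', if_pos hx] at hZ
          exact (hcl' x hx).2.2.2.2.2.2.1 j Z hZ
        · simp only [hZs', if_neg hx] at hZ
          simp at hZ)
      (by
        intro x j hx1 hxu hj
        by_contra hcon
        push Not at hcon
        apply hT1
        simp only [hZs', if_pos hxu] at hcon
        have h1 := hGd3 x j hx1 hxu T hcon.le
        refine cov_mono (Finset.subset_biUnion_of_mem (fun p : ℕ × ℕ => Gd p.1 p.2) (x := (x, j)) ?_)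
          (le_refl _) h1
        rw [hI, Finset.mem_product, Finset.mem_Icc, Finset.mem_range]
        exact ⟨⟨hx1, hxu⟩, hj⟩)
    have hu1 : (1 : ℝ) ≤ (N.u : ℝ) + 1 := by
      have : (0 : ℝ) ≤ N.u := Nat.cast_nonneg _
      linarith
    have ht0 : (0 : ℝ) ≤ t := Nat.cast_nonneg _
    obtain ⟨h1, h2, h3, h4, h5, h6, h7, h8, h9, h10, h11⟩ := hcl' x hxu
    rcases hcase with ⟨j, hj, hP⟩ | ⟨j, hj, hP, hnu⟩
    · obtain ⟨μ', m1, m2, m3⟩ := merge_measure a μ T N.u x t Θ S (C x j) ⟨hμ0, hμc, hμ1⟩ hle' hΘ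
        hS ht3 (h2 j) (by convert hP)
      have hok : Ok Γ (B ^ 2 * q) (ndC (x, j, t)) := by
        refine child_ok Γ a N.u hu N.D s (B ^ 2 * q) hr Θ hΘ.le (C x j) x t hxu 0 ha0 hac hai
          (h2 j) (h10 j) 1 (by rw [mul_one]; exact h4 j) ?_
        rw [mul_one, add_zero, Real.exp_add, exp_hh]
        have e1 : Real.exp (2 * (t : ℝ)) ≤ Real.exp (6 * (t : ℝ)) := Real.exp_le_exp.mpr (by linarith)
        have e2 : Θ ≤ 2 ^ 18 * ((N.u : ℝ) + 1) ^ 14 := by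
          have h2 : ((N.u : ℝ) + 1) ^ 2 ≤ ((N.u : ℝ) + 1) ^ 14 := pow_le_pow_right₀ hu1 (by norm_num)
          have h0 : 0 ≤ ((N.u : ℝ) + 1) ^ 2 := by positivity
          rw [hΘdef]; nlinarith
        exact mul_le_mul e1 e2 hΘ.le (Real.exp_pos _).le
      refine ⟨ndC (x, j, t), ?_, μ', S, x, t, hSne, hS, ht1, m1, m2, ?_, m3, ?_⟩
      · rw [Finset.mem_filter]
        refine ⟨Finset.mem_union_left _ (Finset.mem_image_of_mem _ ?_), hok, ?_⟩
        · rw [hJ, Finset.mem_product, Finset.mem_product, Finset.mem_range, Finset.mem_range,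
            Finset.mem_range]
          exact ⟨by simp only; omega, by simp only; omega, by simp only; omega⟩
        · simp only [hndC, child]; omega
      · simp only [hndC, child]; omega
      · simp only [hndC, child]; linarith
    · obtain ⟨μ', m1, m2, m3⟩ := merge_measure a μ T N.u x t Θ S (D x j) ⟨hμ0, hμc, hμ1⟩ hle' hΘ
        hS ht3 (fun Y Y' h => (h3 j Y Y' h).1)
        (by
          simp only [hD', hxu, true_and] at hP
          convert hP)
      have hok : Ok Γ (B ^ 2 * q) (ndD (x, j, t)) := by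
        refine child_ok Γ a N.u hu N.D s (B ^ 2 * q) hr Θ hΘ.le (D x j) x t hxu 0 ha0 hac hai
          (fun Y Y' h => (h3 j Y Y' h).1) (h11 j) ((nu B j) ^ (4 * x)) (h5 j) ?_
        rw [add_zero, Real.exp_add, exp_hh]
        have hB0 : 0 < B := by linarith
        have hnu0 : 0 ≤ (nu B j) ^ (2 * x) := by unfold nu; positivity
        have e1 : (nu B j) ^ (4 * x) ≤ (Real.exp (2 * (t : ℝ)) * (16 * ((N.u : ℝ) + 1) ^ 3) ^ 2) ^ 2 := by
          have : (nu B j) ^ (4 * x) = ((nu B j) ^ (2 * x)) ^ 2 := by rw [← pow_mul]; congr 1; ring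
          rw [this]
          exact pow_le_pow_left₀ hnu0 hnu 2
        have e2 : (Real.exp (2 * (t : ℝ)) * (16 * ((N.u : ℝ) + 1) ^ 3) ^ 2) ^ 2
            = Real.exp (4 * (t : ℝ)) * (2 ^ 16 * ((N.u : ℝ) + 1) ^ 12) := by
          rw [mul_pow, ← Real.exp_nat_mul]
          have : ((2 : ℕ) : ℝ) * (2 * (t : ℝ)) = 4 * t := by push_cast; ring
          rw [this]; ring
        have e3 : Real.exp (2 * (t : ℝ)) * Real.exp (4 * (t : ℝ)) = Real.exp (6 * (t : ℝ)) := by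
          rw [← Real.exp_add]; congr 1; ring
        calc Real.exp (2 * (t : ℝ)) * Θ * (nu B j) ^ (4 * x)
            ≤ Real.exp (2 * (t : ℝ)) * Θ *
              (Real.exp (4 * (t : ℝ)) * (2 ^ 16 * ((N.u : ℝ) + 1) ^ 12)) := by
              rw [← e2]
              exact mul_le_mul_of_nonneg_left e1 (by positivity)
          _ = (Real.exp (2 * (t : ℝ)) * Real.exp (4 * (t : ℝ))) *
              (2 ^ 18 * ((N.u : ℝ) + 1) ^ 14) := by rw [hΘdef]; ring
          _ = Real.exp (6 * (t : ℝ)) * (2 ^ 18 * ((N.u : ℝ) + 1) ^ 14) := by rw [e3]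
          _ ≤ _ := le_rfl
      refine ⟨ndD (x, j, t), ?_, μ', S, x, t, hSne, hS, ht1, m1, m2, ?_, m3, ?_⟩
      · rw [Finset.mem_filter]
        refine ⟨Finset.mem_union_right _ (Finset.mem_image_of_mem _ ?_), hok, ?_⟩
        · rw [hJ, Finset.mem_product, Finset.mem_product, Finset.mem_range, Finset.mem_range,
            Finset.mem_range]
          exact ⟨by simp only; omega, by simp only; omega, by simp only; omega⟩
        · simp only [hndD, child]; omega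
      · simp only [hndD, child]; omega
      · simp only [hndD, child]; linarith

end TAL.Stg

namespace TAL
open Finset

variable {X : Type} [Fintype X] [DecidableEq X]

open Classical in
/-- [STG] one stage of the tree (global part + step for every `T`). -/
theorem stage (Γ : Subgroup (Equiv.Perm X)) (B q s : ℝ) (hB : Real.exp 100 ≤ B) (hq : 0 < q)
    (hs : 0 ≤ s) (gen : Prop)
    (hcl : ¬ gen → ∀ K'' : ℝ, B ^ 6 ≤ K'' → Claim Γ q K'') (N : Nd X) (hN : Ok Γ (B ^ 2 * q) N) :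
    ∃ (G : Finset (Finset X)) (Ch : Finset (Nd X)), InvF Γ G ∧
      cost q G ≤ Real.exp (-s) + (if gen then 0 else (N.u : ℝ) ^ 2 * Real.exp (-s / 40)) ∧
      Ch.card ≤ 8 * (N.u + 1) ^ 3 ∧ (∀ N' ∈ Ch, Ok Γ (B ^ 2 * q) N' ∧ N'.u ≤ 2 * N.u) ∧
      ∀ (T : Finset X) (μ : Finset X → ℝ), ¬ Cov G T → IsP T N.u μ → (∀ Y, μ Y ≤ N.a Y) →
        ∃ N' ∈ Ch, ∃ (μ' : Finset X → ℝ) (S : Finset (Finset X)) (x t : ℕ),
          S.Nonempty ∧ (∀ Y ∈ S, μ Y ≠ 0) ∧ (t : ℝ) ≤ Real.exp (-(Real.log B) / 4) * QQ S + 1 ∧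
          IsP T N'.u μ' ∧ (∀ Y, μ' Y ≤ N'.a Y) ∧ N'.u + x = 2 * N.u ∧
          (∀ U, μ' U ≠ 0 → ∃ Y ∈ S, ∃ Y' ∈ S, U = Y ∪ Y' ∧ (Y ∩ Y').card = x) ∧
          N'.D ≤ 2 * (N.D + s) + 6 * t + hh N.u + (if gen then 2 * (N.u : ℝ) / B else 0) := by
  by_cases hg : gen
  · simp only [if_pos hg, add_zero]
    exact Stg.stage_gen Γ B q s hB hq hs N hN
  · simp only [if_neg hg, add_zero]
    exact Stg.stage_full Γ B q s hB hq hs (hcl hg) N hN

end TAL
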