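import Vale.Agent.P034F.Exc
import Vale.Agent.P034F.Classes
import Vale.Agent.P034F.DownH9
import Vale.Agent.P034F.Generic
import Vale.Agent.P034F.Merge
import Vale.Agent.P034F.MaxEvent
import Vale.Agent.P034F.Pot

/-! # P034/P064, piece STG: one stage of the tree -/

namespace TAL
namespace H9S
open Finset

variable {X : Type} [Fintype X] [DecidableEq X]

section act
variable {σ : Equiv.Perm X}

omit [Fintype X] in
lemma act_union (σ : Equiv.Perm X) (Y Y' : Finset X) : act σ (Y ∪ Y') = act σ Y ∪ act σ Y' := by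
  unfold act; exact Finset.map_union _ _

omit [Fintype X] in
lemma act_inter (σ : Equiv.Perm X) (Y Y' : Finset X) : act σ (Y ∩ Y') = act σ Y ∩ act σ Y' := by
  unfold act; exact Finset.map_inter _ _

omit [Fintype X] [DecidableEq X] in
lemma act_card (σ : Equiv.Perm X) (Y : Finset X) : (act σ Y).card = Y.card := by
  unfold act; exact Finset.card_map _

omit [Fintype X] [DecidableEq X] in
lemma act_subset (σ : Equiv.Perm X) (Y Y' : Finset X) : act σ Y ⊆ act σ Y' ↔ Y ⊆ Y' := by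
  unfold act; exact Finset.map_subset_map

omit [Fintype X] [DecidableEq X] in
lemma act_inj (σ : Equiv.Perm X) (Y Y' : Finset X) : act σ Y = act σ Y' ↔ Y = Y' := by
  unfold act; exact Finset.map_inj

omit [Fintype X] [DecidableEq X] in
lemma act_inv_act (σ : Equiv.Perm X) (Y : Finset X) : act σ⁻¹ (act σ Y) = Y := by
  ext v; simp [act, Equiv.Perm.inv_def]

omit [Fintype X] [DecidableEq X] in
lemma act_act_inv (σ : Equiv.Perm X) (Y : Finset X) : act σ (act σ⁻¹ Y) = Y := by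
  ext v; simp [act, Equiv.Perm.inv_def]

end act

omit [DecidableEq X] in
lemma cov_act {Γ : Subgroup (Equiv.Perm X)} {G : Finset (Finset X)} (hG : InvF Γ G)
    {σ : Equiv.Perm X} (hσ : σ ∈ Γ) (Y : Finset X) : Cov G (act σ Y) ↔ Cov G Y := by
  constructor
  · rintro ⟨Z, hZ, hZY⟩
    refine ⟨act σ⁻¹ Z, hG _ (Γ.inv_mem hσ) Z hZ, ?_⟩
    rw [← act_inv_act σ Y, act_subset]
    exact hZY
  · rintro ⟨Z, hZ, hZY⟩
    exact ⟨act σ Z, hG _ hσ Z hZ, (act_subset σ Z Y).mpr hZY⟩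

lemma kill_invW {Γ : Subgroup (Equiv.Perm X)} {G : Finset (Finset X)} (hG : InvF Γ G)
    {a : Finset X → ℝ} (ha : InvW Γ a) : InvW Γ (kill G a) := by
  intro σ hσ Y
  unfold kill
  by_cases h : Cov G Y
  · rw [if_pos ((cov_act hG hσ Y).mpr h), if_pos h]
  · rw [if_neg (fun h' => h ((cov_act hG hσ Y).mp h')), if_neg h, ha σ hσ Y]

lemma kill_nonneg {G : Finset (Finset X)} {a : Finset X → ℝ} (ha : ∀ Y, 0 ≤ a Y) (Y : Finset X) :
    0 ≤ kill G a Y := by
  unfold kill; split_ifs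
  · exact le_rfl
  · exact ha Y

lemma kill_le {G : Finset (Finset X)} {a : Finset X → ℝ} (ha : ∀ Y, 0 ≤ a Y) (Y : Finset X) :
    kill G a Y ≤ a Y := by
  unfold kill; split_ifs
  · exact ha Y
  · exact le_rfl

lemma invR_iff {Γ : Subgroup (Equiv.Perm X)} {C : Finset X → Finset X → Prop} (hC : InvR Γ C)
    {σ : Equiv.Perm X} (hσ : σ ∈ Γ) (Y Y' : Finset X) : C (act σ Y) (act σ Y') ↔ C Y Y' := by
  constructor
  · intro h
    have := hC _ (Γ.inv_mem hσ) _ _ h
    rwa [act_inv_act, act_inv_act] at this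
  · exact hC σ hσ Y Y'

open Classical in
lemma mrg_invW {Γ : Subgroup (Equiv.Perm X)} {a : Finset X → ℝ} (ha : InvW Γ a)
    {C : Finset X → Finset X → Prop} (hC : InvR Γ C) : InvW Γ (mrg a C) := by
  intro σ hσ U
  unfold mrg
  rw [← Equiv.sum_comp (Equiv.finsetCongr σ)]
  refine Finset.sum_congr rfl fun Y _ => ?_
  rw [← Equiv.sum_comp (Equiv.finsetCongr σ)]
  refine Finset.sum_congr rfl fun Y' _ => ?_
  have e1 : (Equiv.finsetCongr σ) Y = act σ Y := rfl
  have e2 : (Equiv.finsetCongr σ) Y' = act σ Y' := rfl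
  rw [e1, e2, ← act_union, ha σ hσ Y, ha σ hσ Y']
  simp only [invR_iff hC hσ, act_inj]

omit [DecidableEq X] in
lemma invF_union {Γ : Subgroup (Equiv.Perm X)} [DecidableEq (Finset X)] {G G' : Finset (Finset X)}
    (h : InvF Γ G) (h' : InvF Γ G') : InvF Γ (G ∪ G') := by
  intro σ hσ Z hZ
  rw [Finset.mem_union] at hZ ⊢
  rcases hZ with hZ | hZ
  · exact Or.inl (h σ hσ Z hZ)
  · exact Or.inr (h' σ hσ Z hZ)

lemma mrg_nonneg {a : Finset X → ℝ} (ha : ∀ Y, 0 ≤ a Y) (C : Finset X → Finset X → Prop)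
    (U : Finset X) : 0 ≤ mrg a C U := by
  unfold mrg
  refine Finset.sum_nonneg fun Y _ => Finset.sum_nonneg fun Y' _ => ?_
  split_ifs
  · exact mul_nonneg (ha _) (ha _)
  · exact le_rfl

lemma mrg_card {a : Finset X → ℝ} {C : Finset X → Finset X → Prop} {u x : ℕ}
    (hcard : ∀ Y, a Y ≠ 0 → Y.card = u) (hC : ∀ Y Y', C Y Y' → (Y ∩ Y').card = x)
    (U : Finset X) (hU : mrg a C U ≠ 0) : U.card = 2 * u - x := by
  unfold mrg at hU
  obtain ⟨Y, _, hY⟩ := Finset.exists_ne_zero_of_sum_ne_zero hU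
  obtain ⟨Y', _, hY'⟩ := Finset.exists_ne_zero_of_sum_ne_zero hY
  split_ifs at hY' with h
  · obtain ⟨h1, h2⟩ := h
    have ha := hcard Y (left_ne_zero_of_mul hY')
    have ha' := hcard Y' (right_ne_zero_of_mul hY')
    have := Finset.card_union_add_card_inter Y Y'
    rw [h2, hC Y Y' h1, ha, ha'] at this
    omega
  · exact absurd rfl hY'

/-- the polynomial factor of a class -/
noncomputable def Th (u : ℕ) : ℝ := 4 * ((u : ℝ) + 1) ^ 2

lemma Th_pos (u : ℕ) : 0 < Th u := by unfold Th; positivity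

/-- child node -/
noncomputable def child (a : Finset X → ℝ) (u : ℕ) (D L : ℝ) (t x : ℕ)
    (C : Finset X → Finset X → Prop) : Nd X :=
  ⟨fun U => Real.exp (2 * (t : ℝ)) * Th u * mrg a C U, 2 * u - x,
    2 * D + 2 * t + Real.log (Th u) + L⟩

lemma child_ok {Γ : Subgroup (Equiv.Perm X)} {r θ D L : ℝ} {u t x : ℕ} {a : Finset X → ℝ}
    {C : Finset X → Finset X → Prop} (hr : 0 < r) (hθ : θ * r ^ u = Real.exp D)
    (hu : 1 ≤ u) (hxu : x ≤ u) (ha : ∀ Y, 0 ≤ a Y) (hcard : ∀ Y, a Y ≠ 0 → Y.card = u)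
    (hinv : InvW Γ a) (hC : ∀ Y Y', C Y Y' → (Y ∩ Y').card = x) (hCinv : InvR Γ C)
    (hpm : pm a C ≤ θ ^ 2 * r ^ x * Real.exp L) :
    Ok Γ r (child a u D L t x C) ∧ (child a u D L t x C).u ≤ 2 * u := by
  refine ⟨⟨?_, ?_, ?_, ?_, ?_⟩, ?_⟩
  · show 1 ≤ 2 * u - x
    omega
  · intro Y
    exact mul_nonneg (mul_nonneg (Real.exp_pos _).le (Th_pos u).le) (mrg_nonneg ha C Y)
  · intro Y hY
    exact mrg_card hcard hC Y (right_ne_zero_of_mul hY)
  · show tot (fun U => Real.exp (2 * (t : ℝ)) * Th u * mrg a C U) * r ^ (2 * u - x)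
      ≤ Real.exp (2 * D + 2 * t + Real.log (Th u) + L)
    have e1 : tot (fun U => Real.exp (2 * (t : ℝ)) * Th u * mrg a C U)
        = Real.exp (2 * (t : ℝ)) * Th u * pm a C := by
      rw [← tot_mrg, tot, tot, Finset.mul_sum]
    rw [e1]
    have e2 : r ^ x * r ^ (2 * u - x) = (r ^ u) ^ 2 := by
      rw [← pow_add, ← pow_mul]
      congr 1
      omega
    calc Real.exp (2 * (t : ℝ)) * Th u * pm a C * r ^ (2 * u - x)
        ≤ Real.exp (2 * (t : ℝ)) * Th u * (θ ^ 2 * r ^ x * Real.exp L) * r ^ (2 * u - x) := by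
          apply mul_le_mul_of_nonneg_right _ (by positivity)
          exact mul_le_mul_of_nonneg_left hpm (mul_nonneg (Real.exp_pos _).le (Th_pos u).le)
      _ = Real.exp (2 * (t : ℝ)) * Th u * (θ ^ 2 * (r ^ x * r ^ (2 * u - x))) * Real.exp L := by
          ring
      _ = Real.exp (2 * (t : ℝ)) * Th u * ((θ * r ^ u) ^ 2) * Real.exp L := by
          rw [e2]; ring
      _ = Real.exp (2 * D + 2 * t + Real.log (Th u) + L) := by
          rw [hθ, Real.exp_add, Real.exp_add, Real.exp_add, Real.exp_log (Th_pos u),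
            ← Real.exp_nat_mul]
          push_cast
          ring
  · intro σ hσ Y
    show Real.exp (2 * (t : ℝ)) * Th u * mrg a C (act σ Y)
      = Real.exp (2 * (t : ℝ)) * Th u * mrg a C Y
    rw [mrg_invW hinv hCinv σ hσ Y]
  · show 2 * u - x ≤ 2 * u
    omega

open Classical in
/-- the children of a node and the merging of the measure of `T`: common conclusion -/
lemma child_step {D L : ℝ} {u t x : ℕ} {a μ : Finset X → ℝ} {T : Finset X}
    {S : Finset (Finset X)} {C : Finset X → Finset X → Prop} (hxu : x ≤ u)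
    (hμ : IsP T u μ) (hle : ∀ Y, μ Y ≤ a Y) (hS : ∀ Y ∈ S, μ Y ≠ 0)
    (ht : Real.exp (-(t : ℝ)) ≤ ∑ Y ∈ S, μ Y) (hC : ∀ Y Y', C Y Y' → (Y ∩ Y').card = x)
    (hP : (∑ Y ∈ S, μ Y) ^ 2 ≤ Th u * ∑ Y ∈ S, ∑ Y' ∈ S, if C Y Y' then μ Y * μ Y' else 0) :
    ∃ μ' : Finset X → ℝ, IsP T (child a u D L t x C).u μ' ∧
      (∀ Y, μ' Y ≤ (child a u D L t x C).a Y) ∧ (child a u D L t x C).u + x = 2 * u ∧
      (∀ U, μ' U ≠ 0 → ∃ Y ∈ S, ∃ Y' ∈ S, U = Y ∪ Y' ∧ (Y ∩ Y').card = x) := by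
  obtain ⟨μ', h1, h2, h3⟩ := merge_measure a μ T u x t (Th u) S C hμ hle (Th_pos u) hS ht hC hP
  refine ⟨μ', h1, h2, ?_, h3⟩
  show 2 * u - x + x = 2 * u
  omega

open Classical in
lemma classes_all (Γ : Subgroup (Equiv.Perm X)) (B q θ σ : ℝ) (u : ℕ) (a : Finset X → ℝ)
    (hB : 2 ≤ B) (hq : 0 < q)
    (hθ : 0 < θ) (hσ : 0 < σ) (hσ1 : σ ≤ 1) (ha : ∀ Y, 0 ≤ a Y) (hcard : ∀ Y, a Y ≠ 0 → Y.card = u)
    (hinv : InvW Γ a) (hspr : Spr Γ a θ q) (htot : tot a ≤ σ * θ) (x : ℕ) :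
    ∃ (C D : ℕ → Finset X → Finset X → Prop) (Ys Zs : ℕ → Finset (Finset X)),
      (x ≤ u → ∀ Y Y', a Y ≠ 0 → a Y' ≠ 0 → (Y ∩ Y').card = x →
        (∃ j ≤ u, C j Y Y' ∨ C j Y' Y) ∨ (∃ j < u, D j Y Y' ∨ D j Y' Y)) ∧
      (∀ j Y Y', C j Y Y' → (Y ∩ Y').card = x) ∧
      (∀ j Y Y', D j Y Y' → (Y ∩ Y').card = x ∧ Y ∈ Ys j) ∧
      (∀ j, pm a (C j) ≤ θ ^ 2 * (B ^ 2 * q) ^ x) ∧
      (∀ j, pm a (D j) ≤ θ ^ 2 * (B ^ 2 * q) ^ x * (nu B j) ^ (4 * x)) ∧
      (∀ j, ∀ Y ∈ Ys j, (nu B j) ^ x ≤ (((Zs j).filter (fun Z => Z ⊆ Y)).card : ℝ)) ∧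
      (∀ j, ∀ Z ∈ Zs j, Z.card = x) ∧
      (∀ j, ((Zs j).card : ℝ) * (B ^ 2 * q) ^ x ≤ σ * (nu B (j + 1)) ^ (2 * x)) ∧
      (∀ j, InvF Γ (Zs j)) ∧ (∀ j, InvR Γ (C j)) ∧ (∀ j, InvR Γ (D j)) := by
  by_cases hxu : x ≤ u
  · obtain ⟨C, D, Ys, Zs, h1, h2⟩ := classes Γ B q θ σ u x a hB hq hθ hσ hσ1 ha hcard hinv hspr
      htot hxu
    exact ⟨C, D, Ys, Zs, fun _ => h1, h2⟩
  · have hB0 : 0 < B := by linarith
    have hnu : ∀ j, 0 < nu B j := fun j => by unfold nu; positivity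
    have hpm0 : pm a (fun _ _ => False) = 0 := by simp [pm]
    refine ⟨fun _ _ _ => False, fun _ _ _ => False, fun _ => ∅, fun _ => ∅,
      fun h => absurd h hxu, ?_, ?_, ?_, ?_, ?_, ?_, ?_, ?_, ?_, ?_⟩
    · intro j Y Y' h; exact absurd h id
    · intro j Y Y' h; exact absurd h id
    · intro j
      rw [hpm0]; positivity
    · intro j
      rw [hpm0]
      have := hnu j
      positivity
    · intro j Y hY; simp at hY
    · intro j Y hY; simp at hY
    · intro j
      have := hnu (j + 1)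
      simp only [Finset.card_empty, Nat.cast_zero, zero_mul]
      positivity
    · intro j σ hσ Z hZ; simp at hZ
    · intro j σ hσ Y Y' h; exact h
    · intro j σ hσ Y Y' h; exact h

/-- sum of costs -/
lemma cost_union_le (q : ℝ) (hq : 0 < q) (G G' : Finset (Finset X)) :
    cost q (G ∪ G') ≤ cost q G + cost q G' := by
  unfold cost
  rw [← Finset.sum_union_inter]
  have : 0 ≤ ∑ Z ∈ G ∩ G', q ^ Z.card := Finset.sum_nonneg fun _ _ => by positivity
  linarith

lemma cost_biUnion_le {ι : Type} [DecidableEq ι] (q : ℝ) (hq : 0 < q) (I : Finset ι)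
    (G : ι → Finset (Finset X)) : cost q (I.biUnion G) ≤ ∑ i ∈ I, cost q (G i) := by
  induction I using Finset.induction_on with
  | empty => simp [cost]
  | insert i I hi ih =>
    rw [Finset.biUnion_insert, Finset.sum_insert hi]
    exact (cost_union_le q hq _ _).trans (by linarith)

/-- pigeonhole for the generic stages -/
lemma generic_popular {T : Finset X} {u : ℕ} {μ : Finset X → ℝ} (hμ : IsP T u μ)
    {S : Finset (Finset X)} (hS : ∀ Y ∈ S, μ Y ≠ 0) (hm : ∑ Y ∈ S, μ Y = 1) :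
    ∃ x ≤ u, (∑ Y ∈ S, μ Y) ^ 2 ≤ Th u * ∑ Y ∈ S, ∑ Y' ∈ S,
      if (Y ∩ Y').card = x then μ Y * μ Y' else 0 := by
  by_contra hno
  push Not at hno
  have hTh := Th_pos u
  have h1 : (∑ Y ∈ S, μ Y) ^ 2 = ∑ x ∈ range (u + 1), ∑ Y ∈ S, ∑ Y' ∈ S,
      if (Y ∩ Y').card = x then μ Y * μ Y' else 0 := by
    rw [sq, Finset.sum_mul_sum]
    symm
    rw [Finset.sum_comm]
    refine Finset.sum_congr rfl fun Y hY => ?_
    rw [Finset.sum_comm]
    refine Finset.sum_congr rfl fun Y' hY' => ?_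
    rw [Finset.sum_ite_eq, if_pos]
    rw [Finset.mem_range]
    have := Finset.card_le_card (Finset.inter_subset_left (s₁ := Y) (s₂ := Y'))
    rw [(hμ.2.1 Y (hS Y hY)).1] at this
    omega
  have h2 : ∑ x ∈ range (u + 1), Th u * ∑ Y ∈ S, ∑ Y' ∈ S,
      (if (Y ∩ Y').card = x then μ Y * μ Y' else 0)
      < ∑ x ∈ range (u + 1), (∑ Y ∈ S, μ Y) ^ 2 := by
    apply Finset.sum_lt_sum_of_nonempty ⟨0, by simp⟩
    intro x hx
    exact hno x (by have := Finset.mem_range.mp hx; omega)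
  rw [← Finset.mul_sum, ← h1, hm] at h2
  simp only [Finset.sum_const, Finset.card_range, nsmul_eq_mul] at h2
  push_cast at h2
  unfold Th at h2
  have hu : (0:ℝ) ≤ u := Nat.cast_nonneg u
  nlinarith

open Classical in
/-- [STG] one stage of the tree (global part + step for every `T`). -/
theorem stage (Γ : Subgroup (Equiv.Perm X)) (B q s : ℝ) (hB : Real.exp 100 ≤ B) (hq : 0 < q)
    (hs : 0 ≤ s) (gen : Prop)
    (hcl : ¬ gen → ∀ K'' : ℝ, B ^ 6 ≤ K'' → Claim Γ q K'') (N : Nd X) (hN : Ok Γ (B ^ 2 * q) N) :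
    ∃ (G : Finset (Finset X)) (Ch : Finset (Nd X)), InvF Γ G ∧
      cost q G ≤ Real.exp (-s) + (if gen then 0 else (N.u : ℝ) ^ 2 * Real.exp (-s / 40)) ∧
      Ch.card ≤ 8 * (N.u + 1) ^ 3 ∧ (∀ N' ∈ Ch, Ok Γ (B ^ 2 * q) N' ∧ N'.u ≤ 2 * N.u) ∧
      ∀ (T : Finset X) (μ : Finset X → ℝ), ¬ Cov G T → IsP T N.u μ → (∀ Y, μ Y ≤ N.a Y) →
        ∃ N' ∈ Ch, ∃ (μ' : Finset X → ℝ) (S : Finset (Finset X)) (x t : ℕ),
          S.Nonempty ∧ (∀ Y ∈ S, μ Y ≠ 0) ∧ (t : ℝ) ≤ Real.exp (-(Real.log B) / 4) * QQ S + 1 ∧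
          IsP T N'.u μ' ∧ (∀ Y, μ' Y ≤ N'.a Y) ∧ N'.u + x = 2 * N.u ∧
          (∀ U, μ' U ≠ 0 → ∃ Y ∈ S, ∃ Y' ∈ S, U = Y ∪ Y' ∧ (Y ∩ Y').card = x) ∧
          N'.D ≤ 2 * (N.D + s) + 6 * t + hh N.u + (if gen then 2 * (N.u : ℝ) / B else 0) := by
  obtain ⟨hu1, ha0, hacard, hatot, hainv⟩ := hN
  have hB100 : (1:ℝ) < Real.exp 100 := Real.one_lt_exp_iff.mpr (by norm_num)
  have hB2 : (2:ℝ) ≤ B := by
    have : (2:ℝ) ≤ Real.exp 100 := by
      have := Real.add_one_le_exp (100:ℝ)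
      linarith
    linarith
  have hB0 : 0 < B := by linarith
  set u := N.u with hu
  set r : ℝ := B ^ 2 * q with hr
  have hr0 : 0 < r := by positivity
  set θ : ℝ := Real.exp (N.D + s) / r ^ u with hθdef
  have hθ : 0 < θ := by positivity
  have hθr : θ * r ^ u = Real.exp (N.D + s) := by
    rw [hθdef]; field_simp
  have hs1 : Real.exp (-s) ≤ 1 := Real.exp_le_one_iff.mpr (by linarith)
  have hatot' : tot N.a ≤ Real.exp (-s) * θ := by
    have h1 : tot N.a ≤ Real.exp N.D / r ^ u := (le_div_iff₀ (pow_pos hr0 _)).mpr hatot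
    have h2 : Real.exp N.D / r ^ u = Real.exp (-s) * θ := by
      rw [hθdef, ← mul_div_assoc, ← Real.exp_add]
      congr 2
      ring
    rwa [h2] at h1
  have hθtot : tot N.a ≤ θ := hatot'.trans (by nlinarith)
  obtain ⟨G0, hG0inv, hG0cost, hspr⟩ := exc Γ q θ hq hθ N.a ha0 hainv hθtot
  have hG0cost' : cost q G0 ≤ Real.exp (-s) := by
    have : cost q G0 * θ ≤ Real.exp (-s) * θ := hG0cost.trans hatot'
    exact le_of_mul_le_mul_right this hθ
  set a : Finset X → ℝ := kill G0 N.a with ha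
  have haa : ∀ Y, 0 ≤ a Y := fun Y => kill_nonneg ha0 Y
  have hale : ∀ Y, a Y ≤ N.a Y := fun Y => kill_le ha0 Y
  have hacard' : ∀ Y, a Y ≠ 0 → Y.card = u := by
    intro Y hY
    apply hacard
    intro h0
    exact hY (le_antisymm ((hale Y).trans h0.le) (haa Y))
  have hainv' : InvW Γ a := kill_invW hG0inv hainv
  have hatot2 : tot a ≤ Real.exp (-s) * θ := by
    refine le_trans ?_ hatot'
    exact Finset.sum_le_sum fun Y _ => hale Y
  have hatot3 : tot a ≤ θ := hatot2.trans (by nlinarith)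
  -- the measure of an uncovered `T` stays below `a`
  have hμa : ∀ (T : Finset X) (μ : Finset X → ℝ), ¬ Cov G0 T → IsP T u μ → (∀ Y, μ Y ≤ N.a Y) →
      ∀ Y, μ Y ≤ a Y := by
    intro T μ hT hμ hle Y
    by_cases hY : μ Y = 0
    · rw [hY]; exact haa Y
    · have hYT := (hμ.2.1 Y hY).2
      have hnc : ¬ Cov G0 Y := by
        rintro ⟨Z, hZ, hZY⟩
        exact hT ⟨Z, hZ, hZY.trans hYT⟩
      have : a Y = N.a Y := by
        rw [ha]; unfold kill; rw [if_neg hnc]
      rw [this]; exact hle Y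
  have hucast : (0:ℝ) ≤ u := Nat.cast_nonneg u
  have hhh : Real.log (Th u) + 4 * Real.log (16 * ((u:ℝ) + 1) ^ 3) = hh u := by
    have h4 : 4 * Real.log (16 * ((u:ℝ) + 1) ^ 3) = Real.log ((16 * ((u:ℝ) + 1) ^ 3) ^ 4) := by
      rw [Real.log_pow]; norm_num
    rw [h4, ← Real.log_mul (Th_pos u).ne' (by positivity)]
    unfold hh Th
    congr 1
    ring
  have hlog16 : 0 ≤ Real.log (16 * ((u:ℝ) + 1) ^ 3) := by
    apply Real.log_nonneg
    have : (1:ℝ) ≤ ((u:ℝ) + 1) ^ 3 := one_le_pow₀ (by linarith)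
    linarith
  by_cases hgen : gen
  · -- generic stage
    set Cx : ℕ → Finset X → Finset X → Prop := fun x Y Y' => (Y ∩ Y').card = x with hCx
    set ch : ℕ → Nd X := fun x => child a u (N.D + s) (2 * (u:ℝ) / B) 0 x (Cx x) with hch
    have hCxinv : ∀ x, InvR Γ (Cx x) := by
      intro x σ hσ Y Y' h
      show (act σ Y ∩ act σ Y').card = x
      rw [← act_inter, act_card]
      exact h
    refine ⟨G0, (range (u + 1)).image ch, hG0inv, ?_, ?_, ?_, ?_⟩
    · rw [if_pos hgen, add_zero]; exact hG0cost'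
    · refine Finset.card_image_le.trans ?_
      rw [Finset.card_range]
      have : 1 ≤ (u + 1) ^ 2 := Nat.one_le_pow _ _ (by omega)
      nlinarith
    · intro N' hN'
      rw [Finset.mem_image] at hN'
      obtain ⟨x, hx, rfl⟩ := hN'
      have hxu : x ≤ u := by have := Finset.mem_range.mp hx; omega
      refine child_ok hr0 hθr hu1 hxu haa hacard' hainv' (fun Y Y' h => h) (hCxinv x) ?_
      exact generic_mass Γ B q θ u x a hB2 hq hθ haa hacard' hainv' hspr hatot3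
    · intro T μ hT hμ hle
      have hle' := hμa T μ hT hμ hle
      set S : Finset (Finset X) := univ.filter (fun Y => μ Y ≠ 0) with hSdef
      have hSμ : ∀ Y ∈ S, μ Y ≠ 0 := fun Y hY => (Finset.mem_filter.mp hY).2
      have hSsum : ∑ Y ∈ S, μ Y = 1 := by
        rw [← hμ.2.2, tot, hSdef, Finset.sum_filter]
        refine Finset.sum_congr rfl fun Y _ => ?_
        split_ifs with h
        · rfl
        · exact (not_not.mp h).symm
      have hSne : S.Nonempty := by
        by_contra h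
        rw [Finset.not_nonempty_iff_eq_empty] at h
        rw [h] at hSsum
        simp at hSsum
      obtain ⟨x, hxu, hx⟩ := generic_popular hμ hSμ hSsum
      obtain ⟨μ', h1, h2, h3, h4⟩ := child_step (D := N.D + s) (L := 2 * (u:ℝ) / B) (t := 0)
        (a := a) (C := Cx x) hxu hμ hle' hSμ (by rw [hSsum]; simp) (fun Y Y' h => h)
        (by
          refine le_trans hx (le_of_eq ?_)
          congr 1
          refine Finset.sum_congr rfl fun Y _ => Finset.sum_congr rfl fun Y' _ => ?_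
          by_cases h : (Y ∩ Y').card = x
          · rw [if_pos h, if_pos (show Cx x Y Y' from h)]
          · rw [if_neg h, if_neg (show ¬ Cx x Y Y' from h)])
      refine ⟨ch x, Finset.mem_image.mpr ⟨x, Finset.mem_range.mpr (by omega), rfl⟩, μ', S, x, 0,
        hSne, hSμ, ?_, h1, h2, h3, h4, ?_⟩
      · have hQ := (QQ_le S u hSne (fun Y hY => (hμ.2.1 Y (hSμ Y hY)).1)).2
        have := mul_nonneg (Real.exp_pos (-(Real.log B) / 4)).le hQ
        push_cast
        linarith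
      · rw [if_pos hgen]
        show 2 * (N.D + s) + 2 * ((0:ℕ):ℝ) + Real.log (Th u) + 2 * (u:ℝ) / B ≤ _
        push_cast
        linarith
  · -- labelled stage
    obtain hcls := classes_all Γ B q θ (Real.exp (-s)) u a hB2 hq hθ (Real.exp_pos _) hs1 haa
      hacard' hainv' hspr hatot2
    choose C D Ys Zs hcov hCc hDc hCpm hDpm hYs hZs hZcard hZinv hCinv hDinv using hcls
    have hdown : ∀ x j, ∃ G : Finset (Finset X), InvF Γ G ∧ cost q G ≤ Real.exp (-s / 40) ∧
        (1 ≤ x → ∀ T : Finset X,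
          (nu B j) ^ (8 * x) ≤ (((Zs x j).filter (fun Z => Z ⊆ T)).card : ℝ) → Cov G T) := by
      intro x j
      by_cases hx : 1 ≤ x
      · obtain ⟨G, h1, h2, h3⟩ := H9D.down_move Γ B q s hB hq hs (hcl hgen) x j hx (Zs x j) (hZs x j)
          (hZinv x j) (hZcard x j)
        exact ⟨G, h1, h2, fun _ => h3⟩
      · refine ⟨∅, ?_, ?_, fun h => absurd h hx⟩
        · intro σ hσ Z hZ; simp at hZ
        · simp only [cost, Finset.sum_empty]; exact (Real.exp_pos _).le
    choose Gd hGdinv hGdcost hGdcov using hdown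
    set I : Finset (ℕ × ℕ) := (Finset.Icc 1 u) ×ˢ (range u) with hI
    set G1 : Finset (Finset X) := I.biUnion (fun p => Gd p.1 p.2) with hG1
    have hG1inv : InvF Γ G1 := by
      intro σ hσ Z hZ
      rw [hG1, Finset.mem_biUnion] at hZ ⊢
      obtain ⟨p, hp, hZp⟩ := hZ
      exact ⟨p, hp, hGdinv p.1 p.2 σ hσ Z hZp⟩
    have hG1cost : cost q G1 ≤ (u:ℝ) ^ 2 * Real.exp (-s / 40) := by
      refine (cost_biUnion_le q hq I _).trans ?_
      refine (Finset.sum_le_sum (fun p _ => hGdcost p.1 p.2)).trans ?_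
      rw [Finset.sum_const, hI, Finset.card_product, Nat.card_Icc, Finset.card_range,
        nsmul_eq_mul]
      simp only [Nat.add_sub_cancel]
      push_cast
      rw [sq]
    set chC : ℕ × ℕ × ℕ → Nd X := fun p =>
      child a u (N.D + s) 0 p.2.2 p.1 (C p.1 p.2.1) with hchC
    set chD : ℕ × ℕ × ℕ → Nd X := fun p =>
      child a u (N.D + s) (Real.log ((nu B p.2.1) ^ (4 * p.1))) p.2.2 p.1 (D p.1 p.2.1) with hchD
    set J : Finset (ℕ × ℕ × ℕ) := (range (u + 1)) ×ˢ (range (u + 1)) ×ˢ (range (u + 2)) with hJ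
    have hnu0 : ∀ j, 0 < nu B j := fun j => by unfold nu; positivity
    refine ⟨G0 ∪ G1, J.image chC ∪ J.image chD, invF_union hG0inv hG1inv, ?_, ?_, ?_, ?_⟩
    · rw [if_neg hgen]
      exact (cost_union_le q hq _ _).trans (add_le_add hG0cost' hG1cost)
    · refine (Finset.card_union_le _ _).trans ?_
      have hJc : J.card = (u + 1) * ((u + 1) * (u + 2)) := by
        rw [hJ, Finset.card_product, Finset.card_product, Finset.card_range, Finset.card_range]
      have h1 : (J.image chC).card ≤ J.card := Finset.card_image_le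
      have h2 : (J.image chD).card ≤ J.card := Finset.card_image_le
      have h3 : (u + 1) * ((u + 1) * (u + 2)) ≤ 4 * (u + 1) ^ 3 := by nlinarith [sq_nonneg u]
      omega
    · intro N' hN'
      rw [Finset.mem_union, Finset.mem_image, Finset.mem_image] at hN'
      rcases hN' with ⟨p, hp, rfl⟩ | ⟨p, hp, rfl⟩
      · rw [hJ, Finset.mem_product] at hp
        have hxu : p.1 ≤ u := by have := Finset.mem_range.mp hp.1; omega
        refine child_ok hr0 hθr hu1 hxu haa hacard' hainv' (hCc p.1 p.2.1) (hCinv p.1 p.2.1) ?_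
        rw [Real.exp_zero, mul_one]
        exact hCpm p.1 p.2.1
      · rw [hJ, Finset.mem_product] at hp
        have hxu : p.1 ≤ u := by have := Finset.mem_range.mp hp.1; omega
        refine child_ok hr0 hθr hu1 hxu haa hacard' hainv'
          (fun Y Y' h => (hDc p.1 p.2.1 Y Y' h).1) (hDinv p.1 p.2.1) ?_
        rw [Real.exp_log (pow_pos (hnu0 _) _)]
        exact hDpm p.1 p.2.1
    · intro T μ hT hμ hle
      have hT0 : ¬ Cov G0 T := fun ⟨Z, hZ, hZT⟩ => hT ⟨Z, Finset.mem_union_left _ hZ, hZT⟩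
      have hT1 : ∀ x j, 1 ≤ x → x ≤ u → j < u → ¬ Cov (Gd x j) T := by
        rintro x j hx hxu hj ⟨Z, hZ, hZT⟩
        refine hT ⟨Z, Finset.mem_union_right _ ?_, hZT⟩
        rw [hG1, Finset.mem_biUnion]
        refine ⟨(x, j), ?_, hZ⟩
        rw [hI, Finset.mem_product]
        exact ⟨Finset.mem_Icc.mpr ⟨hx, hxu⟩, Finset.mem_range.mpr hj⟩
      have hle' := hμa T μ hT0 hμ hle
      have hane : ∀ Y, μ Y ≠ 0 → a Y ≠ 0 := by
        intro Y hY h0
        have h1 := hle' Y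
        rw [h0] at h1
        exact hY (le_antisymm h1 (hμ.1 Y))
      obtain ⟨S, t, hSne, hSμ, ht, htu, hexp, x, hxu, hcase⟩ := tstep B hB u hu1 μ T hμ C D Ys Zs
        (fun x hxu Y Y' hY hY' hc => hcov x hxu Y Y' (hane Y hY) (hane Y' hY') hc)
        (fun x j Y Y' h => (hDc x j Y Y' h).2) hYs hZs
        (by
          intro x j hx hxu hj
          by_contra h
          push Not at h
          exact hT1 x j hx hxu hj (hGdcov x j hx T h.le))
      rcases hcase with ⟨j, hj, hpop⟩ | ⟨j, hj, hpop, hnu⟩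
      · obtain ⟨μ', h1, h2, h3, h4⟩ := child_step (D := N.D + s) (L := 0) (t := t) (a := a)
          (C := C x j) hxu hμ hle' hSμ hexp (hCc x j) hpop
        refine ⟨chC (x, j, t), ?_, μ', S, x, t, hSne, hSμ, ht, h1, h2, h3, h4, ?_⟩
        · refine Finset.mem_union_left _ (Finset.mem_image.mpr ⟨(x, j, t), ?_, rfl⟩)
          rw [hJ, Finset.mem_product, Finset.mem_product]
          exact ⟨Finset.mem_range.mpr (show x < u + 1 by omega),
            Finset.mem_range.mpr (show j < u + 1 by omega),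
            Finset.mem_range.mpr (show t < u + 2 by omega)⟩
        · rw [if_neg hgen]
          show 2 * (N.D + s) + 2 * (t:ℝ) + Real.log (Th u) + 0 ≤ _
          have : (0:ℝ) ≤ t := Nat.cast_nonneg t
          linarith
      · obtain ⟨μ', h1, h2, h3, h4⟩ := child_step (D := N.D + s)
          (L := Real.log ((nu B j) ^ (4 * x))) (t := t) (a := a)
          (C := D x j) hxu hμ hle' hSμ hexp (fun Y Y' h => (hDc x j Y Y' h).1) hpop
        refine ⟨chD (x, j, t), ?_, μ', S, x, t, hSne, hSμ, ht, h1, h2, h3, h4, ?_⟩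
        · refine Finset.mem_union_right _ (Finset.mem_image.mpr ⟨(x, j, t), ?_, rfl⟩)
          rw [hJ, Finset.mem_product, Finset.mem_product]
          exact ⟨Finset.mem_range.mpr (show x < u + 1 by omega),
            Finset.mem_range.mpr (show j < u + 1 by omega),
            Finset.mem_range.mpr (show t < u + 2 by omega)⟩
        · rw [if_neg hgen]
          show 2 * (N.D + s) + 2 * (t:ℝ) + Real.log (Th u) + Real.log ((nu B j) ^ (4 * x)) ≤ _
          have hlog : Real.log ((nu B j) ^ (4 * x)) ≤ 4 * t + 4 * Real.log (16 * ((u:ℝ) + 1) ^ 3) := by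
            have e : (nu B j) ^ (4 * x) = ((nu B j) ^ (2 * x)) ^ 2 := by
              rw [← pow_mul]; congr 1; ring
            rw [e, Real.log_pow]
            have h5 : Real.log ((nu B j) ^ (2 * x)) ≤
                Real.log (Real.exp (2 * (t : ℝ)) * (16 * ((u : ℝ) + 1) ^ 3) ^ 2) :=
              Real.log_le_log (pow_pos (hnu0 _) _) hnu
            have h6 : Real.log ((16 * ((u : ℝ) + 1) ^ 3) ^ 2)
                = 2 * Real.log (16 * ((u : ℝ) + 1) ^ 3) := by
              rw [Real.log_pow]; norm_num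
            rw [Real.log_mul (Real.exp_pos _).ne' (by positivity), Real.log_exp, h6] at h5
            rw [Nat.cast_ofNat]
            linarith
          linarith

end H9S
end TAL
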