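import Vale.Agent.P034F.Base
import Vale.Agent.P034F.Merge

/-!
P034F, piece STG: child nodes, their validity, popular intersection size.
-/

namespace TAL
open Finset

set_option linter.unusedSectionVars false

variable {X : Type} [Fintype X] [DecidableEq X]

/-- child node -/
noncomputable def child (a : Finset X → ℝ) (R : Finset X → Finset X → Prop) (u x t : ℕ) (E : ℝ) :
    Nd X :=
  ⟨fun U => Real.exp (2 * (t : ℝ)) * (4 * ((u : ℝ) + 1) ^ 2) * mrg a R U, 2 * u - x, E⟩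

theorem ok_child (Γ : Subgroup (Equiv.Perm X)) {r θ L D' F : ℝ} (hr : 0 < r)
    {a : Finset X → ℝ} {R : Finset X → Finset X → Prop} {u x t : ℕ} (hu : 1 ≤ u) (hx : x ≤ u)
    (ha : ∀ Y, 0 ≤ a Y) (hinv : InvW Γ a) (hcard : ∀ Y, a Y ≠ 0 → Y.card = u)
    (hR : InvR Γ R) (hRx : ∀ Y Y', R Y Y' → (Y ∩ Y').card = x)
    (hpm : pm a R ≤ θ ^ 2 * r ^ x * L) (hθr : θ * r ^ u = Real.exp D')
    (hL : Real.exp (2 * (t : ℝ)) * (4 * ((u : ℝ) + 1) ^ 2) * L ≤ Real.exp F) :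
    Ok Γ r (child a R u x t (2 * D' + F)) := by
  have hc : 0 < Real.exp (2 * (t : ℝ)) * (4 * ((u : ℝ) + 1) ^ 2) := by positivity
  refine ⟨?_, ?_, ?_, ?_, ?_⟩
  · show 1 ≤ 2 * u - x
    omega
  · intro Y
    exact mul_nonneg hc.le (mrg_nonneg a ha R Y)
  · intro Y hY
    have : mrg a R Y ≠ 0 := right_ne_zero_of_mul hY
    exact mrg_card a u x hcard R hRx Y this
  · show tot (fun U => Real.exp (2 * (t : ℝ)) * (4 * ((u : ℝ) + 1) ^ 2) * mrg a R U)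
      * r ^ (2 * u - x) ≤ Real.exp (2 * D' + F)
    have e1 : tot (fun U => Real.exp (2 * (t : ℝ)) * (4 * ((u : ℝ) + 1) ^ 2) * mrg a R U)
        = Real.exp (2 * (t : ℝ)) * (4 * ((u : ℝ) + 1) ^ 2) * pm a R := by
      rw [← tot_mrg]
      unfold tot
      rw [Finset.mul_sum]
    rw [e1]
    have e2 : r ^ x * r ^ (2 * u - x) = (r ^ u) ^ 2 := by
      rw [← pow_add, ← pow_mul]
      congr 1
      omega
    have hrp : 0 ≤ r ^ (2 * u - x) := by positivity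
    calc Real.exp (2 * (t : ℝ)) * (4 * ((u : ℝ) + 1) ^ 2) * pm a R * r ^ (2 * u - x)
        ≤ Real.exp (2 * (t : ℝ)) * (4 * ((u : ℝ) + 1) ^ 2) * (θ ^ 2 * r ^ x * L)
            * r ^ (2 * u - x) := by
          apply mul_le_mul_of_nonneg_right _ hrp
          exact mul_le_mul_of_nonneg_left hpm hc.le
      _ = (Real.exp (2 * (t : ℝ)) * (4 * ((u : ℝ) + 1) ^ 2) * L)
            * (θ ^ 2 * (r ^ x * r ^ (2 * u - x))) := by ring
      _ = (Real.exp (2 * (t : ℝ)) * (4 * ((u : ℝ) + 1) ^ 2) * L) * (θ * r ^ u) ^ 2 := by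
          rw [e2]; ring
      _ = (Real.exp (2 * (t : ℝ)) * (4 * ((u : ℝ) + 1) ^ 2) * L) * Real.exp (2 * D') := by
          have e3 : Real.exp D' ^ 2 = Real.exp (2 * D') := by
            rw [← Real.exp_nat_mul]
            push_cast
            rfl
          rw [hθr, e3]
      _ ≤ Real.exp F * Real.exp (2 * D') := by
          apply mul_le_mul_of_nonneg_right hL (Real.exp_pos _).le
      _ = Real.exp (2 * D' + F) := by
          rw [← Real.exp_add]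
          congr 1
          ring
  · intro σ hσ Y
    show Real.exp (2 * (t : ℝ)) * (4 * ((u : ℝ) + 1) ^ 2) * mrg a R (act σ Y) = _
    rw [mrg_inv hinv hR σ hσ Y]
    rfl

theorem exp_hh (u : ℕ) : Real.exp (hh u) = 2 ^ 18 * ((u : ℝ) + 1) ^ 14 := by
  unfold hh
  rw [Real.exp_log (by positivity)]

theorem num_C (u t : ℕ) {g : ℝ} (hg : 0 ≤ g) :
    Real.exp (2 * (t : ℝ)) * (4 * ((u : ℝ) + 1) ^ 2) * 1 ≤ Real.exp (6 * t + hh u + g) := by
  rw [Real.exp_add, Real.exp_add, exp_hh, mul_one]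
  have h1 : Real.exp (2 * (t : ℝ)) ≤ Real.exp (6 * (t : ℝ)) := by
    apply Real.exp_le_exp.2
    have : (0 : ℝ) ≤ t := Nat.cast_nonneg t
    linarith
  have h2 : (1 : ℝ) ≤ (u : ℝ) + 1 := by
    have : (0 : ℝ) ≤ u := Nat.cast_nonneg u
    linarith
  have h3 : ((u : ℝ) + 1) ^ 2 ≤ ((u : ℝ) + 1) ^ 14 := pow_le_pow_right₀ h2 (by norm_num)
  have h4 : (4 : ℝ) * ((u : ℝ) + 1) ^ 2 ≤ 2 ^ 18 * ((u : ℝ) + 1) ^ 14 := by
    have : (0 : ℝ) ≤ ((u : ℝ) + 1) ^ 2 := by positivity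
    nlinarith
  have h5 : (1 : ℝ) ≤ Real.exp g := Real.one_le_exp hg
  calc Real.exp (2 * (t : ℝ)) * (4 * ((u : ℝ) + 1) ^ 2)
      ≤ Real.exp (6 * (t : ℝ)) * (2 ^ 18 * ((u : ℝ) + 1) ^ 14) := by gcongr
    _ ≤ Real.exp (6 * (t : ℝ)) * (2 ^ 18 * ((u : ℝ) + 1) ^ 14) * Real.exp g := by
        exact le_mul_of_one_le_right (by positivity) h5

theorem num_D (u t : ℕ) {g L : ℝ} (hg : 0 ≤ g) (hL0 : 0 ≤ L)
    (hL : L ≤ Real.exp (2 * (t : ℝ)) * (16 * ((u : ℝ) + 1) ^ 3) ^ 2) :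
    Real.exp (2 * (t : ℝ)) * (4 * ((u : ℝ) + 1) ^ 2) * L ^ 2 ≤ Real.exp (6 * t + hh u + g) := by
  rw [Real.exp_add, Real.exp_add, exp_hh]
  have h5 : (1 : ℝ) ≤ Real.exp g := Real.one_le_exp hg
  have h6 : L ^ 2 ≤ (Real.exp (2 * (t : ℝ)) * (16 * ((u : ℝ) + 1) ^ 3) ^ 2) ^ 2 :=
    pow_le_pow_left₀ hL0 hL 2
  have e : Real.exp (6 * (t : ℝ)) = Real.exp (2 * (t : ℝ)) ^ 3 := by
    rw [← Real.exp_nat_mul]
    congr 1
    push_cast
    ring
  calc Real.exp (2 * (t : ℝ)) * (4 * ((u : ℝ) + 1) ^ 2) * L ^ 2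
      ≤ Real.exp (2 * (t : ℝ)) * (4 * ((u : ℝ) + 1) ^ 2)
          * (Real.exp (2 * (t : ℝ)) * (16 * ((u : ℝ) + 1) ^ 3) ^ 2) ^ 2 := by gcongr
    _ = Real.exp (6 * (t : ℝ)) * (2 ^ 18 * ((u : ℝ) + 1) ^ 14) := by rw [e]; ring
    _ ≤ Real.exp (6 * (t : ℝ)) * (2 ^ 18 * ((u : ℝ) + 1) ^ 14) * Real.exp g := by
        exact le_mul_of_one_le_right (by positivity) h5

theorem num_gen (u : ℕ) {g : ℝ} :
    Real.exp (2 * ((0 : ℕ) : ℝ)) * (4 * ((u : ℝ) + 1) ^ 2) * Real.exp g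
      ≤ Real.exp (6 * ((0 : ℕ) : ℝ) + hh u + g) := by
  have h := num_C u 0 (le_refl (0 : ℝ))
  rw [mul_one, add_zero] at h
  rw [Real.exp_add]
  exact mul_le_mul_of_nonneg_right h (Real.exp_pos g).le

open Classical in
/-- popular intersection size -/
theorem popular (T : Finset X) (u : ℕ) (μ : Finset X → ℝ) (hμ : IsP T u μ) :
    ∃ x ≤ u, (∑ Y ∈ univ.filter (fun Y => μ Y ≠ 0), μ Y) ^ 2 ≤ 4 * ((u : ℝ) + 1) ^ 2 *
      ∑ Y ∈ univ.filter (fun Y => μ Y ≠ 0), ∑ Y' ∈ univ.filter (fun Y => μ Y ≠ 0),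
        if (Y ∩ Y').card = x then μ Y * μ Y' else 0 := by
  obtain ⟨h0, hs, h1⟩ := hμ
  set S := univ.filter (fun Y => μ Y ≠ 0) with hS
  have hS1 : ∑ Y ∈ S, μ Y = 1 := by
    rw [← h1]
    unfold tot
    rw [hS, Finset.sum_filter_ne_zero]
  have hsum : ∑ x ∈ range (u + 1), ∑ Y ∈ S, ∑ Y' ∈ S,
      (if (Y ∩ Y').card = x then μ Y * μ Y' else 0) = 1 := by
    rw [Finset.sum_comm]
    have : ∀ Y ∈ S, ∑ x ∈ range (u + 1), ∑ Y' ∈ S,
        (if (Y ∩ Y').card = x then μ Y * μ Y' else 0) = μ Y := by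
      intro Y hY
      rw [Finset.sum_comm]
      have h2 : ∀ Y' ∈ S, ∑ x ∈ range (u + 1),
          (if (Y ∩ Y').card = x then μ Y * μ Y' else 0) = μ Y * μ Y' := by
        intro Y' _
        rw [Finset.sum_ite_eq]
        have h3 : (Y ∩ Y').card ∈ range (u + 1) := by
          have h4 : Y.card = u := (hs Y (by simpa [hS] using hY)).1
          have h5 : (Y ∩ Y').card ≤ Y.card := card_le_card inter_subset_left
          rw [mem_range]
          omega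
        rw [if_pos h3]
      rw [Finset.sum_congr rfl h2, ← Finset.mul_sum, hS1, mul_one]
    rw [Finset.sum_congr rfl this, hS1]
  obtain ⟨x, hx, hx2⟩ : ∃ x ∈ range (u + 1), 1 / ((u : ℝ) + 1) ≤
      ∑ Y ∈ S, ∑ Y' ∈ S, (if (Y ∩ Y').card = x then μ Y * μ Y' else 0) := by
    by_contra hcon
    push Not at hcon
    have hlt : ∑ x ∈ range (u + 1), ∑ Y ∈ S, ∑ Y' ∈ S,
        (if (Y ∩ Y').card = x then μ Y * μ Y' else 0) < ∑ _x ∈ range (u + 1), 1 / ((u : ℝ) + 1) :=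
      Finset.sum_lt_sum_of_nonempty ⟨0, by simp⟩ hcon
    rw [hsum, Finset.sum_const, card_range, nsmul_eq_mul] at hlt
    push_cast at hlt
    have : ((u : ℝ) + 1) * (1 / ((u : ℝ) + 1)) = 1 := by
      field_simp
    linarith
  refine ⟨x, by rw [mem_range] at hx; omega, ?_⟩
  rw [hS1, one_pow]
  have hu1 : (1 : ℝ) ≤ (u : ℝ) + 1 := by
    have : (0 : ℝ) ≤ u := Nat.cast_nonneg u
    linarith
  have k1 : 1 ≤ 4 * ((u : ℝ) + 1) ^ 2 * (1 / ((u : ℝ) + 1)) := by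
    have e : 4 * ((u : ℝ) + 1) ^ 2 * (1 / ((u : ℝ) + 1)) = 4 * ((u : ℝ) + 1) := by
      field_simp
    rw [e]
    linarith
  calc (1 : ℝ) ≤ 4 * ((u : ℝ) + 1) ^ 2 * (1 / ((u : ℝ) + 1)) := k1
    _ ≤ _ := by
      apply mul_le_mul_of_nonneg_left hx2
      positivity

end TAL
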