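import Mathlib

/-! # P034: the integral and the fractional expectation thresholds -/

namespace ExpThr

/-- A nonempty proper increasing family of subsets of `X`. -/
structure IsFamily {X : Type} [Fintype X] [DecidableEq X] (F : Set (Finset X)) : Prop where
  nonempty : F.Nonempty
  increasing : ∀ A ∈ F, ∀ B : Finset X, A ⊆ B → B ∈ F
  proper : ∅ ∉ F

/-- `G` covers `F`: every member of `F` contains a member of `G`. -/
def Covers {X : Type} [Fintype X] [DecidableEq X] (G : Finset (Finset X))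
    (F : Set (Finset X)) : Prop :=
  ∀ H ∈ F, ∃ S ∈ G, S ⊆ H

/-- The cost of `G` at `p`. -/
def cost {X : Type} [Fintype X] [DecidableEq X] (p : ℝ) (G : Finset (Finset X)) : ℝ :=
  ∑ S ∈ G, p ^ S.card

/-- A fractional cover of `F`. -/
def IsFractionalCover {X : Type} [Fintype X] [DecidableEq X] (g : Finset X → ℝ)
    (F : Set (Finset X)) : Prop :=
  (∀ S, 0 ≤ g S ∧ g S ≤ 1) ∧ ∀ H ∈ F, 1 ≤ ∑ S ∈ H.powerset, g S

/-- The cost of a fractional cover at `p`. -/
def fracCost {X : Type} [Fintype X] [DecidableEq X] (g : Finset X → ℝ) (p : ℝ) : ℝ :=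
  ∑ S : Finset X, g S * p ^ S.card

/-- The values `p ∈ [0,1]` for which `F` is `p`-small. -/
def smallSet {X : Type} [Fintype X] [DecidableEq X] (F : Set (Finset X)) : Set ℝ :=
  {p : ℝ | 0 ≤ p ∧ p ≤ 1 ∧ ∃ G : Finset (Finset X), Covers G F ∧ cost p G ≤ 1 / 2}

/-- The values `p ∈ [0,1]` at which `F` has a fractional cover of cost at most `1/2`. -/
def fracSmallSet {X : Type} [Fintype X] [DecidableEq X] (F : Set (Finset X)) : Set ℝ :=
  {p : ℝ | 0 ≤ p ∧ p ≤ 1 ∧ ∃ g : Finset X → ℝ, IsFractionalCover g F ∧ fracCost g p ≤ 1 / 2}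

/-- The integral expectation threshold `q(F)`. -/
noncomputable def q {X : Type} [Fintype X] [DecidableEq X] (F : Set (Finset X)) : ℝ :=
  sSup (smallSet F)

/-- The fractional expectation threshold `q_f(F)`. -/
noncomputable def qf {X : Type} [Fintype X] [DecidableEq X] (F : Set (Finset X)) : ℝ :=
  sSup (fracSmallSet F)

end ExpThr
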