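import Vale.Agent.P034F.Stage
import Vale.Agent.P034F.TreeOf

/-! # [TREE] one induction step -/

namespace TAL

open Finset

variable {X : Type} [Fintype X] [DecidableEq X]

/-- [TREE] from `Claim` above `K^(3/2)` to `Claim` at `K = B^4`, `B = e^(b/2)`. -/
theorem tree_step (Γ : Subgroup (Equiv.Perm X)) (q b : ℝ) (hq : 0 < q) (hb : 10000 ≤ b)
    (hcl : ∀ K'' : ℝ, Real.exp (b / 2) ^ 6 ≤ K'' → Claim Γ q K'') :
    Claim Γ q (Real.exp (b / 2) ^ 4) := by
  classical
  refine tree_step_of Γ q b hq hb ?_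
  intro s hs gen hdec N hN
  have h := stage Γ (Real.exp (b / 2)) q s (Real.exp_le_exp.2 (by linarith)) hq hs gen
    (fun _ => hcl) N hN
  by_cases hg : gen
  · simp only [if_pos hg] at h ⊢
    exact h
  · simp only [if_neg hg] at h ⊢
    exact h

end TAL
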