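import Vale.Agent.P034F.Base

/-!
# P034F: backward induction over the stages (abstract form)

`Inv` is any property of covers which is stable under unions (nothing for P034, invariance under a
group for P064), `OK` any strengthening of the validity of nodes.
-/

namespace TAL

open Finset

variable {X : Type} [Fintype X] [DecidableEq X]

/-- support of a weight -/
noncomputable def spt (μ : Finset X → ℝ) : Finset (Finset X) := by
  classical exact univ.filter (fun Y => μ Y ≠ 0)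

theorem mem_spt (μ : Finset X → ℝ) (Y : Finset X) : Y ∈ spt μ ↔ μ Y ≠ 0 := by
  classical
  unfold spt
  simp

theorem spt_nonempty {T : Finset X} {u : ℕ} {μ : Finset X → ℝ} (h : IsP T u μ) :
    (spt μ).Nonempty := by
  obtain ⟨_, _, h3⟩ := h
  have h4 : ∑ Y, μ Y ≠ 0 := by
    have : tot μ ≠ 0 := by rw [h3]; exact one_ne_zero
    exact this
  obtain ⟨Y, _, hY⟩ := exists_ne_zero_of_sum_ne_zero h4
  exact ⟨Y, (mem_spt μ Y).mpr hY⟩

theorem cost_nonneg {q : ℝ} (hq : 0 < q) (G : Finset (Finset X)) : 0 ≤ cost q G :=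
  sum_nonneg fun _ _ => by positivity

theorem cost_union_le {q : ℝ} (hq : 0 < q) (A B : Finset (Finset X)) :
    cost q (A ∪ B) ≤ cost q A + cost q B := by
  unfold cost
  rw [← sum_union_inter]
  have : 0 ≤ ∑ Z ∈ A ∩ B, q ^ Z.card := sum_nonneg fun _ _ => by positivity
  linarith

theorem cov_mono {A B : Finset (Finset X)} {T : Finset X} (h : A ⊆ B) (hc : Cov A T) :
    Cov B T := by
  obtain ⟨Z, hZ, hT⟩ := hc
  exact ⟨Z, h hZ, hT⟩

open Classical in
/-- union of covers indexed by a finite set -/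
theorem exists_union_cover {ι : Type} {q c : ℝ} (hq : 0 < q) (Inv : Finset (Finset X) → Prop)
    (hI0 : Inv ∅) (hIU : ∀ A B, Inv A → Inv B → Inv (A ∪ B)) (Ch : Finset ι)
    (P : ι → Finset X → Prop)
    (h : ∀ i ∈ Ch, ∃ G : Finset (Finset X), Inv G ∧ cost q G ≤ c ∧ ∀ T, P i T → Cov G T) :
    ∃ G : Finset (Finset X), Inv G ∧ cost q G ≤ (Ch.card : ℝ) * c ∧
      ∀ T, (∃ i ∈ Ch, P i T) → Cov G T := by
  induction Ch using Finset.induction_on with
  | empty =>
    refine ⟨∅, hI0, ?_, ?_⟩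
    · simp [cost]
    · rintro T ⟨i, hi, _⟩
      simp at hi
  | insert i s hi ih =>
    obtain ⟨G1, hI1, hc1, h1⟩ := h i (mem_insert_self i s)
    obtain ⟨G2, hI2, hc2, h2⟩ := ih fun j hj => h j (mem_insert_of_mem hj)
    refine ⟨G1 ∪ G2, hIU _ _ hI1 hI2, ?_, ?_⟩
    · rw [card_insert_of_notMem hi]
      push_cast
      have := cost_union_le hq G1 G2
      nlinarith
    · rintro T ⟨j, hj, hP⟩
      rcases mem_insert.mp hj with h' | h'
      · exact cov_mono subset_union_left (h1 T (h' ▸ hP))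
      · exact cov_mono subset_union_right (h2 T ⟨j, h', hP⟩)

/-- The abstract backward induction. -/
theorem tree_abs (q r : ℝ) (k : ℕ) (hq : 0 < q) (hr : 0 < r)
    (Inv : Finset (Finset X) → Prop) (hI0 : Inv ∅) (hIU : ∀ A B, Inv A → Inv B → Inv (A ∪ B))
    (OK : Nd X → Prop) (hOK : ∀ N, OK N → tot N.a * r ^ N.u ≤ Real.exp N.D)
    (Q : Finset (Finset X) → ℝ)
    (Qmono : ∀ S S' : Finset (Finset X), S' ⊆ S → S'.Nonempty → Q S ≤ Q S')
    (Qle : ∀ (S : Finset (Finset X)) (u : ℕ), S.Nonempty → (∀ Y ∈ S, Y.card = u) → Q S ≤ u ∧ 0 ≤ Q S)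
    (Qmerge : ∀ (S S' : Finset (Finset X)) (x : ℕ), S.Nonempty → S'.Nonempty →
      (∀ U ∈ S', ∃ Y ∈ S, ∃ Y' ∈ S, U = Y ∪ Y' ∧ (Y ∩ Y').card = x) →
      (2 : ℝ) * (1 + 1 / 100) * Q S - 2 * x ≤ Q S')
    (ε m κ : ℝ) (hm : 0 ≤ m) (hκ0 : 0 ≤ κ) (hκ : m * ε ≤ κ / 100)
    (h β : ℕ → ℝ) (δ : ℕ → ℕ → ℝ) (hβ : ∀ l, 0 ≤ β l)
    (hlim : ∀ C : ℝ, ∃ L : ℕ, ∀ l, L ≤ l → C < h l)
    (hδ : ∀ l u, u ≤ 2 ^ l * k → h (l + 1) ≤ 2 * h l - m - δ l u)
    (hst : ∀ (l : ℕ) (N : Nd X), OK N → N.u ≤ 2 ^ l * k →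
      ∃ (G : Finset (Finset X)) (Ch : Finset (Nd X)), Inv G ∧
        cost q G + (Ch.card : ℝ) * β (l + 1) ≤ β l ∧ (∀ N' ∈ Ch, OK N') ∧
        ∀ (T : Finset X) (μ : Finset X → ℝ), ¬ Cov G T → IsP T N.u μ → (∀ Y, μ Y ≤ N.a Y) →
          ∃ N' ∈ Ch, ∃ (μ' : Finset X → ℝ) (S : Finset (Finset X)) (x t : ℕ),
            S.Nonempty ∧ (∀ Y ∈ S, μ Y ≠ 0) ∧ (t : ℝ) ≤ ε * Q S + 1 ∧
            IsP T N'.u μ' ∧ (∀ Y, μ' Y ≤ N'.a Y) ∧ N'.u + x = 2 * N.u ∧
            (∀ U, μ' U ≠ 0 → ∃ Y ∈ S, ∃ Y' ∈ S, U = Y ∪ Y' ∧ (Y ∩ Y').card = x) ∧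
            N'.D ≤ 2 * N.D + m * t + δ l N.u) :
    ∀ (l : ℕ) (N : Nd X), OK N → N.u ≤ 2 ^ l * k →
      ∃ G : Finset (Finset X), Inv G ∧ cost q G ≤ β l ∧
        ∀ (T : Finset X) (μ : Finset X → ℝ), IsP T N.u μ → (∀ Y, μ Y ≤ N.a Y) →
          N.D + κ * ((N.u : ℝ) - Q (spt μ) / 2) ≤ - h l → Cov G T := by
  classical
  obtain ⟨L, hL⟩ := hlim ((Fintype.card X : ℝ) * |Real.log r|)
  -- no set left at late stages
  have hlate : ∀ l, L ≤ l → ∀ N : Nd X, OK N → ∀ (T : Finset X) (μ : Finset X → ℝ),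
      IsP T N.u μ → (∀ Y, μ Y ≤ N.a Y) →
      N.D + κ * ((N.u : ℝ) - Q (spt μ) / 2) ≤ - h l → False := by
    intro l hl N hN T μ hP hle hD
    have htot := hOK N hN
    have hne := spt_nonempty hP
    have hcu : ∀ Y ∈ spt μ, Y.card = N.u := fun Y hY => (hP.2.1 Y ((mem_spt μ Y).mp hY)).1
    obtain ⟨hQ1, hQ0⟩ := Qle (spt μ) N.u hne hcu
    have h1 : 1 ≤ tot N.a := by
      rw [← hP.2.2]
      exact sum_le_sum fun Y _ => hle Y
    have h2 : r ^ N.u ≤ Real.exp N.D := by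
      refine le_trans ?_ htot
      have : 0 < r ^ N.u := by positivity
      nlinarith
    have h3 : (N.u : ℝ) * Real.log r ≤ N.D := by
      rw [← Real.log_pow]
      have := Real.log_le_log (by positivity) h2
      rwa [Real.log_exp] at this
    have h4 : (N.u : ℝ) ≤ Fintype.card X := by
      obtain ⟨Y, hY⟩ := hne
      have := card_le_univ Y
      rw [hcu Y hY] at this
      exact_mod_cast this
    have h5 : -((Fintype.card X : ℝ) * |Real.log r|) ≤ (N.u : ℝ) * Real.log r := by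
      have h6 : -(|Real.log r|) ≤ Real.log r := neg_abs_le _
      have h7 : 0 ≤ |Real.log r| := abs_nonneg _
      have h8 : (0 : ℝ) ≤ N.u := Nat.cast_nonneg _
      nlinarith
    have h9 := hL l hl
    have h10 : 0 ≤ κ * ((N.u : ℝ) - Q (spt μ) / 2) := by
      apply mul_nonneg hκ0
      have h8 : (0 : ℝ) ≤ N.u := Nat.cast_nonneg _
      linarith
    linarith
  -- backward induction
  have main : ∀ n l : ℕ, L ≤ l + n → ∀ N : Nd X, OK N → N.u ≤ 2 ^ l * k →
      ∃ G : Finset (Finset X), Inv G ∧ cost q G ≤ β l ∧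
        ∀ (T : Finset X) (μ : Finset X → ℝ), IsP T N.u μ → (∀ Y, μ Y ≤ N.a Y) →
          N.D + κ * ((N.u : ℝ) - Q (spt μ) / 2) ≤ - h l → Cov G T := by
    intro n
    induction n with
    | zero =>
      intro l hl N hN _
      refine ⟨∅, hI0, ?_, ?_⟩
      · simpa [cost] using hβ l
      · intro T μ hP hle hD
        exact (hlate l (by omega) N hN T μ hP hle hD).elim
    | succ n ih =>
      intro l hl N hN hu
      obtain ⟨G0, Ch, hInv0, hcost, hCh, hT⟩ := hst l N hN hu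
      -- covers of the children
      have hcov : ∀ N' ∈ Ch, ∃ G : Finset (Finset X), Inv G ∧ cost q G ≤ β (l + 1) ∧
          ∀ T, (N'.u ≤ 2 ^ (l + 1) * k ∧ ∃ μ, IsP T N'.u μ ∧ (∀ Y, μ Y ≤ N'.a Y) ∧
            N'.D + κ * ((N'.u : ℝ) - Q (spt μ) / 2) ≤ - h (l + 1)) → Cov G T := by
        intro N' hN'
        by_cases hu' : N'.u ≤ 2 ^ (l + 1) * k
        · obtain ⟨G, hI, hc, hG⟩ := ih (l + 1) (by omega) N' (hCh N' hN') hu'
          refine ⟨G, hI, hc, ?_⟩
          rintro T ⟨_, μ, h1, h2, h3⟩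
          exact hG T μ h1 h2 h3
        · refine ⟨∅, hI0, ?_, ?_⟩
          · simpa [cost] using hβ (l + 1)
          · rintro T ⟨h1, _⟩
            exact (hu' h1).elim
      obtain ⟨G1, hI1, hc1, hG1⟩ := exists_union_cover hq Inv hI0 hIU Ch _ hcov
      refine ⟨G0 ∪ G1, hIU _ _ hInv0 hI1, ?_, ?_⟩
      · have := cost_union_le hq G0 G1
        linarith
      · intro T μ hP hle hD
        by_cases hc0 : Cov G0 T
        · exact cov_mono subset_union_left hc0
        obtain ⟨N', hN', μ', S, x, t, hSne, hSμ, ht, hP', hle', hux, hstr, hD'⟩ :=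
          hT T μ hc0 hP hle
        apply cov_mono subset_union_right
        apply hG1 T
        refine ⟨N', hN', ?_, μ', hP', hle', ?_⟩
        · have e : 2 ^ (l + 1) * k = 2 * (2 ^ l * k) := by ring
          omega
        · have hmerge := Qmerge S (spt μ') x hSne (spt_nonempty hP')
            (fun U hU => hstr U ((mem_spt μ' U).mp hU))
          have hmono := Qmono (spt μ) S (fun Y hY => (mem_spt μ Y).mpr (hSμ Y hY)) hSne
          have hQ := Qle S N.u hSne (fun Y hY => (hP.2.1 Y (hSμ Y hY)).1)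
          have hδ' := hδ l N.u hu
          have huR : (N'.u : ℝ) + x = 2 * N.u := by exact_mod_cast hux
          have e1 : κ * ((N'.u : ℝ) - Q (spt μ') / 2)
              ≤ κ * (2 * (N.u : ℝ) - (1 + 1 / 100) * Q S) := by
            apply mul_le_mul_of_nonneg_left _ hκ0
            linarith
          have e2 : κ * Q (spt μ) ≤ κ * Q S := mul_le_mul_of_nonneg_left hmono hκ0
          have e3 : m * (t : ℝ) ≤ m * ε * Q S + m := by
            have := mul_le_mul_of_nonneg_left ht hm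
            linarith
          have e4 : m * ε * Q S ≤ κ / 100 * Q S := mul_le_mul_of_nonneg_right hκ hQ.2
          have e5 : κ * (2 * (N.u : ℝ) - (1 + 1 / 100) * Q S)
              = 2 * (κ * ((N.u : ℝ) - Q S / 2)) - κ / 100 * Q S := by ring
          have e6 : κ * ((N.u : ℝ) - Q S / 2) ≤ κ * ((N.u : ℝ) - Q (spt μ) / 2) := by
            have : κ * ((N.u : ℝ) - Q S / 2) = κ * (N.u : ℝ) - κ * Q S / 2 := by ring
            have : κ * ((N.u : ℝ) - Q (spt μ) / 2) = κ * (N.u : ℝ) - κ * Q (spt μ) / 2 := by ring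
            linarith
          linarith
  intro l N hN hu
  exact main L l (by omega) N hN hu

end TAL
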