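import Vale.Agent.P034F.TreeRoot
import Vale.Agent.P034F.NumH
import Vale.Agent.P034F.Pot

/-!
# P034F: `tree_abs` applied with the wealth `hl`, the spending `sl` and the potential `QQ`
-/

namespace TAL
open Finset
variable {X : Type} [Fintype X] [DecidableEq X]

theorem hl_lim (b : ℝ) (hb : 10000 ≤ b) (k : ℕ) (hk : 1 ≤ k) (C : ℝ) :
    ∃ L : ℕ, ∀ l, L ≤ l → C < hl b k l := by
  obtain ⟨L, hL⟩ := exists_nat_gt C
  refine ⟨L, fun l hl' => ?_⟩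
  have h1 : (l : ℝ) < 2 ^ l := by exact_mod_cast Nat.lt_two_pow_self
  have h2 : (L : ℝ) ≤ l := by exact_mod_cast hl'
  have hk' : (1 : ℝ) ≤ k := by exact_mod_cast hk
  have h3 : (4 : ℝ) ≤ k * b := by nlinarith
  have h4 : (0 : ℝ) ≤ (3 / 4 : ℝ) ^ l := by positivity
  have h5 : (0 : ℝ) < 2 ^ l := by positivity
  have h6 : (2 : ℝ) ^ l ≤ hl b k l := by
    unfold hl
    have h7 : (1 : ℝ) ≤ (k * b) * (1 / 4 + 5 / 8 * (3 / 4 : ℝ) ^ l) := by nlinarith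
    calc (2 : ℝ) ^ l = 2 ^ l * 1 := by ring
      _ ≤ 2 ^ l * ((k * b) * (1 / 4 + 5 / 8 * (3 / 4 : ℝ) ^ l)) :=
        mul_le_mul_of_nonneg_left h7 h5.le
      _ = _ := by ring
  linarith

/-- The induction with the concrete wealth, for a family `Inv` of admissible covers. -/
theorem tree_core (q r b m ε : ℝ) (gl : ℕ → ℕ → ℝ) (k : ℕ) (hq : 0 < q) (hr : 0 < r)
    (hb : 10000 ≤ b) (hk : 1 ≤ k) (hm0 : 0 ≤ m) (hm8 : m ≤ 8) (hε0 : 0 ≤ ε) (hε1 : ε ≤ 1)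
    (Inv : Finset (Finset X) → Prop) (hI0 : Inv ∅) (hIU : ∀ A B, Inv A → Inv B → Inv (A ∪ B))
    (OK : Nd X → Prop) (hOK : ∀ N, OK N → tot N.a * r ^ N.u ≤ Real.exp N.D) (pl : ℕ → ℝ)
    (hH : ∀ l u : ℕ, u ≤ 2 ^ l * k → hl b k (l + 1) ≤ 2 * hl b k l - 2 * sl b k l - m - pl u - gl l u)
    (hst : ∀ (l : ℕ) (N : Nd X), OK N → N.u ≤ 2 ^ l * k →
      ∃ (G : Finset (Finset X)) (Ch : Finset (Nd X)), Inv G ∧
        cost q G + 8 * ((N.u : ℝ) + 1) ^ 3 * Real.exp (-(k * b * (11 / 10 : ℝ) ^ (l + 1) / 20))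
          ≤ Real.exp (-(k * b * (11 / 10 : ℝ) ^ l / 20)) ∧
        Ch.card ≤ 8 * (N.u + 1) ^ 3 ∧ (∀ N' ∈ Ch, OK N') ∧
        ∀ (T : Finset X) (μ : Finset X → ℝ), ¬ Cov G T → IsP T N.u μ → (∀ Y, μ Y ≤ N.a Y) →
          ∃ N' ∈ Ch, ∃ (μ' : Finset X → ℝ) (S : Finset (Finset X)) (x t : ℕ),
            S.Nonempty ∧ (∀ Y ∈ S, μ Y ≠ 0) ∧ (t : ℝ) ≤ ε * QQ S + 1 ∧
            IsP T N'.u μ' ∧ (∀ Y, μ' Y ≤ N'.a Y) ∧ N'.u + x = 2 * N.u ∧
            (∀ U, μ' U ≠ 0 → ∃ Y ∈ S, ∃ Y' ∈ S, U = Y ∪ Y' ∧ (Y ∩ Y').card = x) ∧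
            N'.D ≤ 2 * (N.D + sl b k l) + m * t + pl N.u + gl l N.u)
    (w : Finset X → ℝ) (h0 : ∀ S, 0 ≤ w S) (hc : ∀ S, w S ≠ 0 → S.card = k)
    (hroot : OK ⟨w, k, -(k * b)⟩) :
    ∃ G : Finset (Finset X), Inv G ∧ cost q G ≤ Real.exp (-(k * b / 20)) ∧
      ∀ T, 1 ≤ ins w T → Cov G T := by
  have hk' : (1 : ℝ) ≤ k := by exact_mod_cast hk
  have key := tree_abs q r k hq hr Inv hI0 hIU OK hOK QQ QQ_mono
    (fun S u hne hcu => QQ_le S u hne hcu) QQ_merge (ε) m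
    (100 * (m * ε)) hm0 (by positivity) (le_of_eq (by ring)) (hl b k)
    (fun l => Real.exp (-(k * b * (11 / 10 : ℝ) ^ l / 20)))
    (fun l u => 2 * sl b k l + pl u + gl l u)
    (fun l => (Real.exp_pos _).le) (hl_lim b hb k hk)
    (by
      intro l u hu
      have := hH l u hu
      linarith)
    (by
      intro l N hN hu
      obtain ⟨G, Ch, h1, h2, h3, h4, h5⟩ := hst l N hN hu
      refine ⟨G, Ch, h1, ?_, h4, ?_⟩
      · refine le_trans ?_ h2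
        have h3' : (Ch.card : ℝ) ≤ 8 * ((N.u : ℝ) + 1) ^ 3 := by exact_mod_cast h3
        have := mul_le_mul_of_nonneg_right h3'
          (Real.exp_pos (-(k * b * (11 / 10 : ℝ) ^ (l + 1) / 20))).le
        linarith
      · intro T μ hT hμ hle
        obtain ⟨N', hN', μ', S, x, t, g1, g2, g3, g4, g5, g6, g7, g8⟩ := h5 T μ hT hμ hle
        refine ⟨N', hN', μ', S, x, t, g1, g2, g3, g4, g5, g6, g7, ?_⟩
        linarith)
    0 ⟨w, k, -(k * b)⟩ hroot (by simp)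
  obtain ⟨G, hI, hcost, hG⟩ := key
  refine ⟨G, hI, ?_, ?_⟩
  · simpa using hcost
  · intro T hT
    obtain ⟨μ, hμ, hle⟩ := root_measure w k h0 hc T hT
    apply hG T μ hμ hle
    have hne := spt_nonempty hμ
    have hQ := QQ_le (spt μ) k hne (fun Y hY => (hμ.2.1 Y ((mem_spt μ Y).mp hY)).1)
    have hh0 : hl b k 0 = 7 / 8 * (k * b) := by unfold hl; norm_num; ring
    rw [hh0]
    -- `800 ≤ b / 8`
    have h1 : 100 * (m * ε) ≤ 800 := by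
      have : m * ε ≤ 8 * 1 :=
        mul_le_mul hm8 hε1 hε0 (by norm_num)
      linarith
    have h2 : 100 * (m * ε) * ((k : ℝ) - QQ (spt μ) / 2) ≤ 800 * k := by
      have h3 : (k : ℝ) - QQ (spt μ) / 2 ≤ k := by linarith [hQ.2]
      have h4 : 0 ≤ 100 * (m * ε) := by positivity
      calc 100 * (m * ε) * ((k : ℝ) - QQ (spt μ) / 2)
          ≤ 100 * (m * ε) * k := mul_le_mul_of_nonneg_left h3 h4
        _ ≤ 800 * k := mul_le_mul_of_nonneg_right h1 (by linarith)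
    show -((k : ℝ) * b) + 100 * (m * ε) * ((k : ℝ) - QQ (spt μ) / 2)
      ≤ -(7 / 8 * (k * b))
    nlinarith

end TAL
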