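import Vale.Agent.P034F.TreeAbs

namespace TAL
open Finset
variable {X : Type} [Fintype X] [DecidableEq X]

/-- a set with `1 ≤ ins w T` carries a probability measure below `w` -/
theorem root_measure (w : Finset X → ℝ) (k : ℕ) (h0 : ∀ S, 0 ≤ w S)
    (hc : ∀ S, w S ≠ 0 → S.card = k) (T : Finset X) (hT : 1 ≤ ins w T) :
    ∃ μ : Finset X → ℝ, IsP T k μ ∧ ∀ Y, μ Y ≤ w Y := by
  classical
  have hpos : 0 < ins w T := lt_of_lt_of_le one_pos hT
  refine ⟨fun Y => if Y ⊆ T then w Y / ins w T else 0, ⟨?_, ?_, ?_⟩, ?_⟩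
  · intro Y
    show 0 ≤ (if Y ⊆ T then w Y / ins w T else 0)
    split_ifs
    · exact div_nonneg (h0 Y) hpos.le
    · exact le_rfl
  · intro Y hY
    by_cases hYT : Y ⊆ T
    · refine ⟨hc Y ?_, hYT⟩
      intro hw
      apply hY
      simp [hw]
    · exact absurd (if_neg hYT) hY
  · have e : tot (fun Y => if Y ⊆ T then w Y / ins w T else 0)
        = ∑ Y ∈ T.powerset, w Y / ins w T := by
      unfold tot
      rw [← sum_filter]
      apply sum_congr _ (fun _ _ => rfl)
      ext Y
      simp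
    rw [e, ← sum_div]
    exact div_self hpos.ne'
  · intro Y
    show (if Y ⊆ T then w Y / ins w T else 0) ≤ w Y
    split_ifs
    · exact div_le_self (h0 Y) hT
    · exact h0 Y

end TAL
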